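import Vale.Agent.Lib.P327.General

namespace Vale.Agent.Lib.P327

open Nat Part

/-- The core statement for degrees: an automorphism with a continuous additive representative
is the identity. -/
theorem aut_rigid (π : TDeg ≃o TDeg) (F : (ℕ → Bool) → ℕ → Bool)
    (hadd : ∀ X Y, F (xorS X Y) = xorS (F X) (F Y))
    (hcont : Continuous F)
    (hF : ∀ X, π (TDeg.of X) = TDeg.of (F X)) :
    π = OrderIso.refl TDeg := by
  have hiff : ∀ X Y, Nat.RecursiveIn {chi Y} (chi X) ↔
      Nat.RecursiveIn {chi (F Y)} (chi (F X)) := by
    intro X Y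
    have h1 : TDeg.of X ≤ TDeg.of Y ↔ TDeg.of (F X) ≤ TDeg.of (F Y) := by
      rw [← hF, ← hF]
      exact π.le_iff_le.symm
    simpa only [TDeg.of_le_of, TuringReducible, RecursiveIn.iff_nat] using h1
  have hsurj : ∀ D, ∃ X, Nat.RecursiveIn {chi D} (chi (F X)) ∧
      Nat.RecursiveIn {chi (F X)} (chi D) := by
    intro D
    obtain ⟨X, hX⟩ := Quotient.exists_rep (π.symm (TDeg.of D))
    refine ⟨X, ?_⟩
    have h1 : TDeg.of (F X) = TDeg.of D := by
      rw [← hF]
      have : TDeg.of X = π.symm (TDeg.of D) := hX
      rw [this]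
      simp
    have h2 := Quotient.exact h1
    exact ⟨RecursiveIn.iff_nat.1 h2.1, RecursiveIn.iff_nat.1 h2.2⟩
  ext a
  induction a using Quotient.inductionOn with
  | h X =>
    have h := main_general hadd hcont hiff hsurj X
    show π (TDeg.of X) = TDeg.of X
    rw [hF]
    exact Quotient.sound ⟨RecursiveIn.iff_nat.2 h.1, RecursiveIn.iff_nat.2 h.2⟩

/-- Xor with a computable set is a Turing reduction. -/
theorem xor_reducible {W : ℕ → Bool} (hW : Computable W) (X : ℕ → Bool) :
    Nat.RecursiveIn {chi X} (chi (xorS X W)) := by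
  let T : ℕ × ℕ × List Bool → Option ℕ := fun q =>
    cond (decide (q.1 < q.2.1)) (Option.some (xor (q.2.2.getD q.1 false) (W q.1)).toNat) Option.none
  have hT : Computable T := by
    have h1 : Computable fun q : ℕ × ℕ × List Bool => decide (q.1 < q.2.1) := by
      have h0 : Computable fun p : ℕ × ℕ => decide (p.1 < p.2) :=
        (PrimrecPred.decide (Primrec.nat_lt.comp Primrec.fst Primrec.snd)).to_comp
      have hs : Computable fun q : ℕ × ℕ × List Bool => q.2.1 := Computable.fst.comp Computable.snd
      have hf : Computable fun q : ℕ × ℕ × List Bool => q.1 := Computable.fst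
      have := h0.comp (hf.pair hs)
      exact this
    have h2 : Computable fun q : ℕ × ℕ × List Bool => q.2.2.getD q.1 false :=
      ((Primrec.list_getD false).to_comp).comp (Computable.snd.comp Computable.snd) Computable.fst
    have h3 := computable_xor.comp (h2.pair (hW.comp Computable.fst))
    have h4 := Computable.option_some.comp (((Primrec.dom_finite Bool.toNat).to_comp).comp h3)
    have h5 := Computable.cond h1 h4 (Computable.const Option.none)
    exact h5
  have hget : ∀ n s, n < s → (pref X s).getD n false = X n := by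
    intro n s hs
    have hs' : n < (pref X s).length := by rw [pref_length]; exact hs
    rw [List.getD_eq_getElem _ _ hs', pref_getElem]
  refine oracle_search (T := T) hT (V := fun n => (xorS X W n).toNat) ?_ ?_
  · intro n
    refine ⟨n + 1, (xor ((pref X (n + 1)).getD n false) (W n)).toNat, ?_⟩
    simp [T]
  · intro n s v hv
    simp only [T] at hv
    by_cases hs : n < s
    · rw [decide_eq_true hs] at hv
      simp only [cond_true, Option.some.injEq] at hv
      rw [← hv, hget n s hs]
      rfl
    · rw [decide_eq_false hs] at hv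
      simp at hv

/-- Finite restrictions are computable. -/
theorem computable_restrict (Y₀ : ℕ → Bool) (u : ℕ) : Computable (restrict Y₀ u) := by
  induction u with
  | zero =>
      refine (Computable.const false).of_eq fun n => ?_
      simp [restrict]
  | succ u ih =>
      have h0 : Computable fun n : ℕ => decide (n = u) :=
        (PrimrecPred.decide (Primrec.eq.comp Primrec.id (Primrec.const u))).to_comp
      refine (Computable.cond h0 (Computable.const (Y₀ u)) ih).of_eq fun n => ?_
      by_cases hn : n = u
      · subst hn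
        simp [restrict]
      · have : n < u + 1 ↔ n < u := by omega
        simp [restrict, hn, this]

/-- The glueing of a fixed finite part in front of a sequence. -/
def glueS (Y₀ : ℕ → Bool) (u : ℕ) (Z : ℕ → Bool) : ℕ → Bool := xorS (padS u Z) (restrict Y₀ u)

theorem glue_mem_cylinder (Y₀ : ℕ → Bool) (u : ℕ) (Z : ℕ → Bool) :
    glueS Y₀ u Z ∈ PiNat.cylinder Y₀ u := by
  intro i hi
  simp only [glueS, xorS, padS_vanish u Z i hi]
  simp [restrict, hi]

theorem restrict_mem_cylinder (Y₀ : ℕ → Bool) (u : ℕ) : restrict Y₀ u ∈ PiNat.cylinder Y₀ u := by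
  intro i hi
  simp [restrict, hi]

theorem continuous_glue (Y₀ : ℕ → Bool) (u : ℕ) : Continuous (glueS Y₀ u) :=
  (continuous_xorS_right _).comp (continuous_padS u)

/-- Local version: an automorphism with a representative which is continuous and affine for xor
on some nonempty open cylinder is the identity. -/
theorem aut_rigid_local (π : TDeg ≃o TDeg) (F : (ℕ → Bool) → ℕ → Bool) (u : ℕ) (Y₀ : ℕ → Bool)
    (hF : ∀ X, π (TDeg.of X) = TDeg.of (F X))
    (hcont : ContinuousOn F (PiNat.cylinder Y₀ u))
    (haff : ∀ A ∈ PiNat.cylinder Y₀ u, ∀ B ∈ PiNat.cylinder Y₀ u, ∀ C ∈ PiNat.cylinder Y₀ u,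
      F (xorS (xorS A B) C) = xorS (xorS (F A) (F B)) (F C)) :
    π = OrderIso.refl TDeg := by
  let W₀ := restrict Y₀ u
  have hW₀ : Computable W₀ := computable_restrict Y₀ u
  have hzeroc : Computable (fun _ : ℕ => false) := Computable.const false
  -- the image of a computable set is computable
  have hFW₀ : Computable (F W₀) := by
    obtain ⟨X₀, hX₀⟩ := Quotient.exists_rep (π.symm (TDeg.of (fun _ => false)))
    have h1 : TDeg.of W₀ ≤ TDeg.of X₀ := by
      refine TDeg.of_le_of.2 (RecursiveIn.iff_nat.2 ?_)
      have hb : Computable Bool.toNat := (Primrec.dom_finite Bool.toNat).to_comp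
      have h1 : Nat.Partrec (chi W₀) := by
        have : Computable fun n => (W₀ n).toNat := hb.comp hW₀
        exact Partrec.nat_iff.1 this.partrec
      exact Nat.Partrec.recursiveIn h1
    have h2 := π.monotone h1
    rw [hF] at h2
    have h3 : π (TDeg.of X₀) = TDeg.of (fun _ => false) := by
      have : TDeg.of X₀ = π.symm (TDeg.of (fun _ => false)) := hX₀
      rw [this]
      simp
    rw [h3] at h2
    exact computable_of_reducible_unit hzeroc (RecursiveIn.iff_nat.1 (TDeg.of_le_of.1 h2))
  let G : (ℕ → Bool) → ℕ → Bool := fun Z => xorS (F (glueS Y₀ u Z)) (F W₀)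
  have hGc : Continuous G := by
    have h1 : Continuous fun Z => F (glueS Y₀ u Z) :=
      hcont.comp_continuous (continuous_glue Y₀ u) (glue_mem_cylinder Y₀ u)
    exact (continuous_xorS_right _).comp h1
  have hW₀mem := restrict_mem_cylinder Y₀ u
  have hGadd : ∀ X Y, G (xorS X Y) = xorS (G X) (G Y) := by
    intro X Y
    have h1 : glueS Y₀ u (xorS X Y) = xorS (xorS (glueS Y₀ u X) (glueS Y₀ u Y)) W₀ := by
      funext n
      simp only [glueS, padS_add, xorS, W₀]
      cases padS u X n <;> cases padS u Y n <;> cases restrict Y₀ u n <;> rfl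
    have h2 := haff _ (glue_mem_cylinder Y₀ u X) _ (glue_mem_cylinder Y₀ u Y) _ hW₀mem
    simp only [G]
    rw [h1, h2]
    funext n
    simp only [xorS]
    cases F (glueS Y₀ u X) n <;> cases F (glueS Y₀ u Y) n <;> cases F W₀ n <;> rfl
  have hGF : ∀ X, π (TDeg.of X) = TDeg.of (G X) := by
    intro X
    have h1 : TDeg.of (glueS Y₀ u X) = TDeg.of X := by
      refine Quotient.sound ⟨RecursiveIn.iff_nat.2 ?_, RecursiveIn.iff_nat.2 ?_⟩
      · refine recIn_trans ?_ (pad_reducible u X)
        exact xor_reducible hW₀ _
      · refine recIn_trans (unpad_reducible u X) ?_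
        have := xor_reducible hW₀ (xorS (padS u X) W₀)
        rwa [xorS_self_right] at this
    have h2 : TDeg.of (G X) = TDeg.of (F (glueS Y₀ u X)) := by
      refine Quotient.sound ⟨RecursiveIn.iff_nat.2 ?_, RecursiveIn.iff_nat.2 ?_⟩
      · exact xor_reducible hFW₀ _
      · have := xor_reducible hFW₀ (xorS (F (glueS Y₀ u X)) (F W₀))
        rwa [xorS_self_right] at this
    rw [h2, ← hF, h1]
  exact aut_rigid π G hGadd hGc hGF

end Vale.Agent.Lib.P327
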