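import Vale.Agent.Lib.P327.Fuel

namespace Vale.Agent.Lib.P327

open Nat Part

/-- The cylinder of a finite string. -/
def Cyl (ρ : List Bool) : Set (ℕ → Bool) := {Y | ∀ i (h : i < ρ.length), Y i = ρ[i]}

theorem isOpen_cyl (ρ : List Bool) : IsOpen (Cyl ρ) := by
  have h : Cyl ρ = ⋂ i : Fin ρ.length, (fun Y : ℕ → Bool => Y i) ⁻¹' {ρ[i]} := by
    ext Y
    simp [Cyl, Fin.forall_iff]
  rw [h]
  refine isOpen_iInter_of_finite fun i => ?_
  exact (isOpen_discrete _).preimage (continuous_apply (i : ℕ))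

/-- The sequence extending a string by zeros. -/
def fill (ρ : List Bool) : ℕ → Bool := fun i => ρ.getD i false

theorem fill_mem_cyl (ρ : List Bool) : fill ρ ∈ Cyl ρ := by
  intro i hi
  simp [fill, hi]

theorem ext_of_mem_cyl {ρ : List Bool} {Y : ℕ → Bool} (h : Y ∈ Cyl ρ) : Ext (ora ρ) (chi Y) := by
  intro n m hm
  rw [mem_ora] at hm
  obtain ⟨b, hb, rfl⟩ := hm
  rw [mem_chi]
  obtain ⟨hlt, rfl⟩ := List.getElem?_eq_some_iff.1 hb
  rw [h n hlt]

theorem cyl_of_prefix {ρ τ : List Bool} (h : ρ <+: τ) : Cyl τ ⊆ Cyl ρ := by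
  intro Y hY i hi
  obtain ⟨t, rfl⟩ := h
  rw [hY i (by simp; omega), List.getElem_append_left hi]

theorem pref_length (Y : ℕ → Bool) (u : ℕ) : (pref Y u).length = u := by
  simp [pref]

theorem pref_getElem (Y : ℕ → Bool) (u i : ℕ) (h : i < (pref Y u).length) :
    (pref Y u)[i] = Y i := by
  simp [pref]

theorem pref_mem_cyl (Y : ℕ → Bool) (u : ℕ) : Y ∈ Cyl (pref Y u) := by
  intro i hi
  rw [pref_getElem]

theorem exists_cyl_subset {U : Set (ℕ → Bool)} (hU : IsOpen U) {Y : ℕ → Bool} (hY : Y ∈ U) :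
    ∃ u, Cyl (pref Y u) ⊆ U := by
  rw [isOpen_pi_iff] at hU
  obtain ⟨I, v, hv, hsub⟩ := hU Y hY
  refine ⟨I.sup id + 1, fun Z hZ => hsub ?_⟩
  intro i hi
  have hi' : i < (pref Y (I.sup id + 1)).length := by
    rw [pref_length]
    exact Nat.lt_succ_of_le (Finset.le_sup (f := id) hi)
  have : Z i = Y i := by
    rw [hZ i hi', pref_getElem]
  rw [this]
  exact (hv i hi).2

theorem exists_pref_append {ρ : List Bool} {Y : ℕ → Bool} (h : Y ∈ Cyl ρ) (u : ℕ) :
    ∃ v, u ≤ v ∧ ∃ τ, pref Y v = ρ ++ τ := by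
  refine ⟨max u ρ.length, le_max_left _ _, (pref Y (max u ρ.length)).drop ρ.length, ?_⟩
  have hle : ρ.length ≤ (pref Y (max u ρ.length)).length := by
    rw [pref_length]; exact le_max_right _ _
  refine List.ext_getElem ?_ ?_
  · simp only [List.length_append, List.length_drop]
    omega
  · intro i h1 h2
    rw [pref_getElem]
    by_cases hi : i < ρ.length
    · rw [List.getElem_append_left hi]
      exact h i hi
    · rw [List.getElem_append_right (by omega), List.getElem_drop, pref_getElem]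
      congr 1
      omega

/-- The set of oracles on which the code `c` computes `L`. -/
def AL (L : (ℕ → Bool) → ℕ → Bool) (c : OCode) : Set (ℕ → Bool) :=
  {Y | evalO (chi Y) c = chi (L Y)}

theorem baire_step (L : (ℕ → Bool) → ℕ → Bool) (hL : ∀ Y, Nat.RecursiveIn {chi Y} (chi (L Y))) :
    ∃ c ρ₀, Cyl ρ₀ ⊆ closure (AL L c) := by
  have hcover : ⋃ c, closure (AL L c) = Set.univ := by
    refine Set.eq_univ_of_forall fun Y => ?_
    obtain ⟨c, hc⟩ := exists_code_of_recursiveIn (hL Y)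
    exact Set.mem_iUnion.2 ⟨c, subset_closure hc⟩
  obtain ⟨c, Y, hY⟩ := nonempty_interior_of_iUnion_of_closed (fun c => isClosed_closure) hcover
  obtain ⟨u, hu⟩ := exists_cyl_subset isOpen_interior hY
  exact ⟨c, pref Y u, hu.trans interior_subset⟩

section

variable {L : (ℕ → Bool) → ℕ → Bool} {c : OCode} {ρ₀ : List Bool}

theorem value_on_cyl (hLc : ∀ k, Continuous fun Y => L Y k) (h : Cyl ρ₀ ⊆ closure (AL L c))
    {ρ : List Bool} (hρ : ρ₀ <+: ρ) {k a : ℕ} (ha : a ∈ evalO (ora ρ) c k) :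
    ∀ Y ∈ Cyl ρ, (L Y k).toNat = a := by
  intro Y hY
  have hU : IsOpen (Cyl ρ ∩ {Z | L Z k = L Y k}) :=
    (isOpen_cyl ρ).inter ((isOpen_discrete ({L Y k} : Set Bool)).preimage (hLc k))
  obtain ⟨Z, ⟨hZ1, hZ2⟩, hZ3⟩ := mem_closure_iff.1 (h (cyl_of_prefix hρ hY)) _ hU ⟨hY, rfl⟩
  have h1 : a ∈ evalO (chi Z) c k := evalO_mono (ext_of_mem_cyl hZ1) c _ _ ha
  rw [hZ3] at h1
  rw [← (hZ2 : L Z k = L Y k)]
  exact mem_chi.1 h1

theorem exists_ext_value (h : Cyl ρ₀ ⊆ closure (AL L c)) {ρ : List Bool} (hρ : ρ₀ <+: ρ) (k : ℕ) :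
    ∃ τ a, a ∈ evalO (ora (ρ ++ τ)) c k := by
  obtain ⟨Z, hZ1, hZ3⟩ := mem_closure_iff.1 (h (cyl_of_prefix hρ (fill_mem_cyl ρ))) _ (isOpen_cyl ρ)
    (fill_mem_cyl ρ)
  have h1 : (L Z k).toNat ∈ evalO (chi Z) c k := by
    rw [hZ3]
    exact mem_chi.2 rfl
  obtain ⟨u, hu⟩ := use_principle Z c _ _ h1
  obtain ⟨v, huv, τ, hτ⟩ := exists_pref_append hZ1 u
  refine ⟨τ, (L Z k).toNat, ?_⟩
  rw [← hτ]
  exact evalO_mono (ext_pref_pref Z huv) c _ _ hu

end

/-- One step of the dovetailed search. -/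
def srchStep (E : ℕ → List Bool → ℕ → Option ℕ) (ρ₀ : List Bool) (p : List Bool × ℕ) (w : ℕ) :
    Option (List Bool × ℕ) :=
  (Encodable.decode (α := List Bool) w.unpair.1).bind fun τ' =>
    (E w.unpair.2 (ρ₀ ++ p.1 ++ τ') p.2).map fun a => (τ', a)

theorem computable_srchStep {E : ℕ → List Bool → ℕ → Option ℕ}
    (hE : Computable (fun p : ℕ × List Bool × ℕ => E p.1 p.2.1 p.2.2)) (ρ₀ : List Bool) :
    Computable₂ (srchStep E ρ₀) := by
  have h1 : Computable (fun q : (List Bool × ℕ) × ℕ =>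
      Encodable.decode (α := List Bool) q.2.unpair.1) :=
    Computable.decode.comp (Computable.fst.comp (Computable.unpair.comp Computable.snd))
  have h2 : Computable (fun r : ((List Bool × ℕ) × ℕ) × List Bool =>
      ρ₀ ++ r.1.1.1 ++ r.2) :=
    Computable.list_append.comp (Computable.list_append.comp (Computable.const ρ₀)
      (Computable.fst.comp (Computable.fst.comp Computable.fst))) Computable.snd
  have h3a : Computable (fun r : ((List Bool × ℕ) × ℕ) × List Bool => r.1.2.unpair.2) :=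
    Computable.snd.comp (Computable.unpair.comp (Computable.snd.comp Computable.fst))
  have h3b : Computable (fun r : ((List Bool × ℕ) × ℕ) × List Bool => r.1.1.2) :=
    Computable.snd.comp (Computable.fst.comp Computable.fst)
  have h3 : Computable (fun r : ((List Bool × ℕ) × ℕ) × List Bool =>
      E r.1.2.unpair.2 (ρ₀ ++ r.1.1.1 ++ r.2) r.1.1.2) := by
    have := hE.comp (h3a.pair (h2.pair h3b))
    exact this
  have h4 : Computable₂ (fun (r : ((List Bool × ℕ) × ℕ) × List Bool) (a : ℕ) => (r.2, a)) :=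
    ((Computable.snd.comp Computable.fst).pair Computable.snd).to₂
  have h5' := Computable.option_map h3 h4
  have h5 : Computable₂ (fun (q : (List Bool × ℕ) × ℕ) (τ' : List Bool) =>
      (E q.2.unpair.2 (ρ₀ ++ q.1.1 ++ τ') q.1.2).map fun a => (τ', a)) := by
    exact h5'
  have h6 := Computable.option_bind h1 h5
  refine Computable.of_eq h6 ?_
  intro q
  unfold srchStep
  rfl

/-- Dovetailed search through extensions of a string. -/
theorem exists_search (c : OCode) (ρ₀ : List Bool)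
    (h : ∀ ρ, ρ₀ <+: ρ → ∀ k, ∃ τ a, a ∈ evalO (ora (ρ ++ τ)) c k) :
    ∃ Sr : List Bool × ℕ → List Bool × ℕ, Computable Sr ∧
      ∀ τ k, (Sr (τ, k)).2 ∈ evalO (ora (ρ₀ ++ τ ++ (Sr (τ, k)).1)) c k := by
  obtain ⟨E, hE, hE2⟩ := exists_fuel c
  have hstep := computable_srchStep hE ρ₀
  let step := srchStep E ρ₀
  have hpart : Partrec fun p => Nat.rfindOpt (step p) := Partrec.rfindOpt hstep
  have hdom : ∀ p, (Nat.rfindOpt (step p)).Dom := by
    intro p
    rw [Nat.rfindOpt_dom]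
    obtain ⟨τ, a, ha⟩ := h (ρ₀ ++ p.1) (List.prefix_append _ _) p.2
    obtain ⟨t, ht⟩ := (hE2 _ _ _).1 ha
    refine ⟨Nat.pair (Encodable.encode τ) t, (τ, a), ?_⟩
    simp only [step, srchStep, Nat.unpair_pair, Encodable.encodek, Option.bind_some, ht, Option.map_some]
    rfl
  refine ⟨fun p => (Nat.rfindOpt (step p)).get (hdom p), ?_, ?_⟩
  · exact hpart.of_eq_tot fun p => Part.get_mem _
  · intro τ k
    have hmem := Part.get_mem (hdom (τ, k))
    obtain ⟨w, hw⟩ := Nat.rfindOpt_spec hmem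
    simp only [step, srchStep, Option.mem_def, Option.bind_eq_some_iff, Option.map_eq_some_iff] at hw
    obtain ⟨τ', -, a, ha, hres⟩ := hw
    show ((Nat.rfindOpt (step (τ, k))).get (hdom (τ, k))).2 ∈
      evalO (ora (ρ₀ ++ τ ++ ((Nat.rfindOpt (step (τ, k))).get (hdom (τ, k))).1)) c k
    rw [show (Nat.rfindOpt (step (τ, k))).get (hdom (τ, k)) = (τ', a) from hres.symm]
    exact (hE2 _ _ _).2 ⟨_, ha⟩

end Vale.Agent.Lib.P327
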