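import Vale.Agent.Lib.P327.Columns

namespace Vale.Agent.Lib.P327

open Nat Part

/-- Baire category for a cover by countably many sets indexed by oracle codes. -/
theorem baire_cover (P : OCode → Set (ℕ → Bool)) (h : ∀ X, ∃ c, X ∈ P c) :
    ∃ c ρ₀, Cyl ρ₀ ⊆ closure (P c) := by
  have hcover : ⋃ c, closure (P c) = Set.univ := by
    refine Set.eq_univ_of_forall fun Y => ?_
    obtain ⟨c, hc⟩ := h Y
    exact Set.mem_iUnion.2 ⟨c, subset_closure hc⟩
  obtain ⟨c, Y, hY⟩ := nonempty_interior_of_iUnion_of_closed (fun c => isClosed_closure) hcover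
  obtain ⟨u, hu⟩ := exists_cyl_subset isOpen_interior hY
  exact ⟨c, pref Y u, hu.trans interior_subset⟩

/-- One step of the search through pairs of parameters and fuel. -/
def strStep (E : ℕ → List Bool → ℕ → Option ℕ) (Str : List Bool × ℕ → List Bool) (k w : ℕ) :
    Option (List Bool × ℕ × ℕ) :=
  (Encodable.decode (α := List Bool) w.unpair.1).bind fun τ =>
    (E w.unpair.2.unpair.2 (Str (τ, w.unpair.2.unpair.1)) k).map fun a =>
      (τ, w.unpair.2.unpair.1, a)

theorem computable_strStep {E : ℕ → List Bool → ℕ → Option ℕ}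
    (hE : Computable (fun p : ℕ × List Bool × ℕ => E p.1 p.2.1 p.2.2))
    {Str : List Bool × ℕ → List Bool} (hStr : Computable Str) :
    Computable₂ (strStep E Str) := by
  have hu : Computable Nat.unpair := Computable.unpair
  have h1 : Computable (fun q : ℕ × ℕ => Encodable.decode (α := List Bool) q.2.unpair.1) :=
    Computable.decode.comp (Computable.fst.comp (hu.comp Computable.snd))
  have hs : Computable (fun r : (ℕ × ℕ) × List Bool => r.1.2.unpair.2.unpair.1) :=
    Computable.fst.comp (hu.comp (Computable.snd.comp (hu.comp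
      (Computable.snd.comp Computable.fst))))
  have ht : Computable (fun r : (ℕ × ℕ) × List Bool => r.1.2.unpair.2.unpair.2) :=
    Computable.snd.comp (hu.comp (Computable.snd.comp (hu.comp
      (Computable.snd.comp Computable.fst))))
  have hk : Computable (fun r : (ℕ × ℕ) × List Bool => r.1.1) :=
    Computable.fst.comp Computable.fst
  have hS : Computable (fun r : (ℕ × ℕ) × List Bool => Str (r.2, r.1.2.unpair.2.unpair.1)) := by
    have := hStr.comp (Computable.snd.pair hs)
    exact this
  have h3 : Computable (fun r : (ℕ × ℕ) × List Bool =>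
      E r.1.2.unpair.2.unpair.2 (Str (r.2, r.1.2.unpair.2.unpair.1)) r.1.1) := by
    have := hE.comp (ht.pair (hS.pair hk))
    exact this
  have h4 : Computable₂ (fun (r : (ℕ × ℕ) × List Bool) (a : ℕ) =>
      (r.2, r.1.2.unpair.2.unpair.1, a)) := by
    have h4a : Computable (fun q : ((ℕ × ℕ) × List Bool) × ℕ => q.1.2) :=
      Computable.snd.comp Computable.fst
    have h4b : Computable (fun q : ((ℕ × ℕ) × List Bool) × ℕ => q.1.1.2.unpair.2.unpair.1) :=
      hs.comp Computable.fst
    have := h4a.pair (h4b.pair Computable.snd)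
    exact this
  have h5' := Computable.option_map h3 h4
  have h5 : Computable₂ (fun (q : ℕ × ℕ) (τ : List Bool) =>
      (E q.2.unpair.2.unpair.2 (Str (τ, q.2.unpair.2.unpair.1)) q.1).map fun a =>
        (τ, q.2.unpair.2.unpair.1, a)) := by
    exact h5'
  have h6 := Computable.option_bind h1 h5
  refine Computable.of_eq h6 ?_
  intro q
  unfold strStep
  rfl

/-- Dovetailed search among strings produced by a computable function. -/
theorem exists_str_search (c : OCode) {Str : List Bool × ℕ → List Bool} (hStr : Computable Str)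
    (h : ∀ k, ∃ τ s a, a ∈ evalO (ora (Str (τ, s))) c k) :
    ∃ Sr : ℕ → List Bool × ℕ × ℕ, Computable Sr ∧
      ∀ k, (Sr k).2.2 ∈ evalO (ora (Str ((Sr k).1, (Sr k).2.1))) c k := by
  obtain ⟨E, hE, hE2⟩ := exists_fuel c
  have hstep := computable_strStep hE hStr
  let step := strStep E Str
  have hpart : Partrec fun k => Nat.rfindOpt (step k) := Partrec.rfindOpt hstep
  have hdom : ∀ k, (Nat.rfindOpt (step k)).Dom := by
    intro k
    rw [Nat.rfindOpt_dom]
    obtain ⟨τ, s, a, ha⟩ := h k
    obtain ⟨t, ht⟩ := (hE2 _ _ _).1 ha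
    refine ⟨Nat.pair (Encodable.encode τ) (Nat.pair s t), (τ, s, a), ?_⟩
    simp only [step, strStep, Nat.unpair_pair, Encodable.encodek, Option.bind_some, ht,
      Option.map_some]
    rfl
  refine ⟨fun k => (Nat.rfindOpt (step k)).get (hdom k), ?_, ?_⟩
  · exact hpart.of_eq_tot fun k => Part.get_mem _
  · intro k
    have hmem := Part.get_mem (hdom k)
    obtain ⟨w, hw⟩ := Nat.rfindOpt_spec hmem
    simp only [step, strStep, Option.mem_def, Option.bind_eq_some_iff, Option.map_eq_some_iff] at hw
    obtain ⟨τ, -, a, ha, hres⟩ := hw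
    show ((Nat.rfindOpt (step k)).get (hdom k)).2.2 ∈
      evalO (ora (Str (((Nat.rfindOpt (step k)).get (hdom k)).1,
        ((Nat.rfindOpt (step k)).get (hdom k)).2.1))) c k
    rw [show (Nat.rfindOpt (step k)).get (hdom k) = (τ, w.unpair.2.unpair.1, a) from hres.symm]
    exact (hE2 _ _ _).2 ⟨_, ha⟩

/-- Maximum of the values of `h` below `m`. -/
def maxUp (h : ℕ → ℕ) : ℕ → ℕ
  | 0 => 0
  | m + 1 => max (maxUp h m) (h m)

theorem le_maxUp (h : ℕ → ℕ) {k m : ℕ} (hk : k < m) : h k ≤ maxUp h m := by
  induction m with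
  | zero => exact absurd hk (Nat.not_lt_zero _)
  | succ m ih =>
      rcases Nat.lt_succ_iff_lt_or_eq.1 hk with hk | rfl
      · exact le_max_of_le_left (ih hk)
      · exact le_max_right _ _

theorem computable_maxUp {h : ℕ → ℕ} (hh : Computable h) : Computable (maxUp h) := by
  have hstep : Computable₂ (fun (_ : ℕ) (p : ℕ × ℕ) => max p.2 (h p.1)) := by
    have h1 : Computable fun q : ℕ × ℕ × ℕ => h q.2.1 :=
      hh.comp (Computable.fst.comp Computable.snd)
    have h2 := (Primrec.nat_max.to_comp).comp (Computable.snd.comp Computable.snd) h1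
    exact h2
  refine (Computable.nat_rec Computable.id (Computable.const 0) hstep).of_eq fun m => ?_
  simp only [id]
  induction m with
  | zero => rfl
  | succ m ih =>
      simp only [maxUp]
      rw [← ih]

/-- The iterated modulus. -/
def modSeq (h : ℕ → ℕ) (m₀ : ℕ) : ℕ → ℕ
  | 0 => m₀
  | n + 1 => maxUp h (modSeq h m₀ n)

theorem computable_modSeq {h : ℕ → ℕ} (hh : Computable h) (m₀ : ℕ) : Computable (modSeq h m₀) := by
  have hstep : Computable₂ (fun (_ : ℕ) (p : ℕ × ℕ) => maxUp h p.2) :=
    (computable_maxUp hh).comp (Computable.snd.comp Computable.snd)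
  refine (Computable.nat_rec Computable.id (Computable.const m₀) hstep).of_eq fun m => ?_
  simp only [id]
  induction m with
  | zero => rfl
  | succ m ih =>
      simp only [modSeq]
      rw [← ih]

theorem pref_prefix_of_le (Y : ℕ → Bool) {m w : ℕ} (h : m ≤ w) : pref Y m <+: pref Y w := by
  rw [← take_pref Y h]
  exact List.take_prefix _ _

/-- **Reduction from computable columns.** A continuous additive injection with computable
columns and with `G (shift X) ≤T G X` satisfies `X ≤T G X`. -/
theorem reducible_of_columns {G : (ℕ → Bool) → ℕ → Bool}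
    (hadd : ∀ X Y, G (xorS X Y) = xorS (G X) (G Y)) (hcont : Continuous G)
    (hinj : Function.Injective G)
    (hcol : Computable fun p : ℕ × ℕ => G (unitS p.1) p.2)
    (hsh : ∀ X, Nat.RecursiveIn {chi (G X)} (chi (G (shiftS X)))) (X : ℕ → Bool) :
    Nat.RecursiveIn {chi (G X)} (chi X) := by
  set col : ℕ × ℕ → Bool := fun p => G (unitS p.1) p.2 with hcoldef
  have hshiftAdd : ∀ X Y, shiftS (xorS X Y) = xorS (shiftS X) (shiftS Y) := fun _ _ => rfl
  have hshiftc : Continuous shiftS := continuous_pi fun n => continuous_apply (n + 1)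
  have hGs : ∀ k, Continuous fun Z => G (shiftS Z) k := fun k =>
    (continuous_apply k).comp (hcont.comp hshiftc)
  -- Baire category
  obtain ⟨c, β₀, hβ⟩ := baire_cover (fun c => {Z | evalO (chi (G Z)) c = chi (G (shiftS Z))})
    (fun Z => exists_code_of_recursiveIn (hsh Z))
  -- existence of terminating computations
  let Str : List Bool × ℕ → List Bool := fun p => pref (colVal col (β₀ ++ p.1)) p.2
  have hStr : Computable Str := by
    have h1 := computable_imgStr hcol
    have h2 : Computable fun p : List Bool × ℕ => β₀ ++ p.1 :=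
      Computable.list_append.comp (Computable.const β₀) Computable.fst
    have h3 := h1.comp (h2.pair Computable.snd)
    exact h3
  have hStrEq : ∀ τ s, Str (τ, s) = pref (G (fill (β₀ ++ τ))) s := by
    intro τ s
    show pref (colVal col (β₀ ++ τ)) s = _
    congr 1
    funext i
    exact (map_fill hadd _ i).symm
  have hex : ∀ k, ∃ τ s a, a ∈ evalO (ora (Str (τ, s))) c k := by
    intro k
    obtain ⟨Z, hZ1, hZ2⟩ := mem_closure_iff.1 (hβ (fill_mem_cyl β₀)) _ (isOpen_cyl β₀)
      (fill_mem_cyl β₀)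
    have h1 : (G (shiftS Z) k).toNat ∈ evalO (chi (G Z)) c k := by
      rw [show evalO (chi (G Z)) c = chi (G (shiftS Z)) from hZ2]
      exact mem_chi.2 rfl
    obtain ⟨s, hs⟩ := use_principle (G Z) c _ _ h1
    -- approximate `Z` by a finite string
    have hU : IsOpen (G ⁻¹' Cyl (pref (G Z) s)) := (isOpen_cyl _).preimage hcont
    obtain ⟨v, hv⟩ := exists_cyl_subset hU (Y := Z) (pref_mem_cyl _ _)
    obtain ⟨v', hv', τ, hτ⟩ := exists_pref_append hZ1 v
    have hsub : Cyl (β₀ ++ τ) ⊆ G ⁻¹' Cyl (pref (G Z) s) := by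
      rw [← hτ]
      exact (cyl_of_prefix (pref_prefix_of_le Z hv')).trans hv
    have h2 : pref (G (fill (β₀ ++ τ))) s = pref (G Z) s :=
      pref_eq_of_mem_cyl (hsub (fill_mem_cyl _))
    refine ⟨τ, s, (G (shiftS Z) k).toNat, ?_⟩
    rw [hStrEq, h2]
    exact hs
  obtain ⟨Sr, hSr, hSr2⟩ := exists_str_search c hStr hex
  -- correctness of a terminated computation
  have hvalue : ∀ k, ∀ Z ∈ Cyl β₀, pref (G Z) (Sr k).2.1 = Str ((Sr k).1, (Sr k).2.1) →
      (G (shiftS Z) k).toNat = (Sr k).2.2 := by
    intro k Z hZ hpref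
    have hU : IsOpen (Cyl β₀ ∩ (G ⁻¹' Cyl (Str ((Sr k).1, (Sr k).2.1)) ∩
        {Z' | G (shiftS Z') k = G (shiftS Z) k})) :=
      (isOpen_cyl _).inter (((isOpen_cyl _).preimage hcont).inter
        ((isOpen_discrete ({G (shiftS Z) k} : Set Bool)).preimage (hGs k)))
    have hmem : Z ∈ Cyl β₀ ∩ (G ⁻¹' Cyl (Str ((Sr k).1, (Sr k).2.1)) ∩
        {Z' | G (shiftS Z') k = G (shiftS Z) k}) := by
      refine ⟨hZ, ?_, rfl⟩
      show G Z ∈ Cyl _
      rw [← hpref]
      exact pref_mem_cyl _ _
    obtain ⟨Z', ⟨-, hZ'1, hZ'2⟩, hZ'3⟩ := mem_closure_iff.1 (hβ hZ) _ hU hmem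
    have h1 := evalO_mono (ext_of_mem_cyl hZ'1) c _ _ (hSr2 k)
    rw [show evalO (chi (G Z')) c = chi (G (shiftS Z')) from hZ'3] at h1
    rw [← (hZ'2 : G (shiftS Z') k = G (shiftS Z) k)]
    exact mem_chi.1 h1
  -- the modulus on elements vanishing below the length of the base
  have hmod : ∀ k Z, (∀ j < β₀.length, Z j = false) → (∀ i < (Sr k).2.1, G Z i = false) →
      G (shiftS Z) k = false := by
    intro k Z hZ0 hZ1
    set σ := β₀ ++ (Sr k).1 with hσ
    have hfill : fill σ ∈ Cyl β₀ := cyl_of_prefix (List.prefix_append _ _) (fill_mem_cyl σ)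
    have h1 := hvalue k (fill σ) hfill (hStrEq _ _).symm
    have hX : xorS (fill σ) Z ∈ Cyl β₀ := by
      intro i hi
      simp only [xorS, hZ0 i hi, Bool.xor_false]
      exact hfill i hi
    have hpref : pref (G (xorS (fill σ) Z)) (Sr k).2.1 = Str ((Sr k).1, (Sr k).2.1) := by
      rw [hStrEq, hadd]
      refine pref_eq_iff.2 fun i hi => ?_
      simp only [xorS, hZ1 i hi, Bool.xor_false]
      rfl
    have h2 := hvalue k _ hX hpref
    rw [hshiftAdd, hadd] at h2
    simp only [xorS] at h2
    rw [← h1] at h2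
    have key : ∀ x y : Bool, (xor x y).toNat = x.toNat → y = false := by decide
    exact key _ _ h2
  -- non-uniform data
  obtain ⟨ℓs, hℓs⟩ := exists_modulus hadd hcont hinj β₀.length
  obtain ⟨ℓ₀, hℓ₀⟩ := exists_modulus hadd hcont hinj 1
  let h' : ℕ → ℕ := fun k => max (Sr k).2.1 ℓs
  have hh' : Computable h' := by
    have h1 : Computable fun k => (Sr k).2.1 := Computable.fst.comp (Computable.snd.comp hSr)
    have h2 := (Primrec.nat_max.to_comp).comp h1 (Computable.const ℓs)
    exact h2
  have hmod' : ∀ k Z, (∀ i < h' k, G Z i = false) → G (shiftS Z) k = false := by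
    intro k Z hZ
    refine hmod k Z ?_ ?_
    · exact hℓs Z fun i hi => hZ i (lt_of_lt_of_le hi (le_max_right _ _))
    · exact fun i hi => hZ i (lt_of_lt_of_le hi (le_max_left _ _))
  have hmodSeq : ∀ n Z, (∀ i < modSeq h' ℓ₀ n, G Z i = false) → Z n = false := by
    intro n
    induction n with
    | zero => exact fun Z hZ => hℓ₀ Z hZ 0 (by omega)
    | succ n ih =>
        intro Z hZ
        have := ih (shiftS Z) fun k hk => hmod' k Z fun i hi =>
          hZ i (lt_of_lt_of_le hi (le_maxUp h' hk))
        exact this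
  exact reducible_of_modulus hadd hcont hcol (computable_modSeq hh' ℓ₀)
    (fun Z n => hmodSeq n Z) X

end Vale.Agent.Lib.P327
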