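import Vale.Agent.Lib.P327.OracleSearch

namespace Vale.Agent.Lib.P327

open Nat Part

section helpers

variable {α : Type} [Primcodable α]

theorem computable_pref {g : α → ℕ → Bool} (hg : Computable fun p : α × ℕ => g p.1 p.2)
    {u : α → ℕ} (hu : Computable u) : Computable fun a => pref (g a) (u a) := by
  have hstep : Computable₂ (fun (a : α) (p : ℕ × List Bool) => p.2 ++ [g a p.1]) := by
    have h1 : Computable fun q : α × ℕ × List Bool => g q.1 q.2.1 :=
      hg.comp (Computable.fst.pair (Computable.fst.comp Computable.snd))
    have h2 := Computable.list_concat.comp (Computable.snd.comp Computable.snd) h1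
    exact h2
  refine (Computable.nat_rec hu (Computable.const []) hstep).of_eq fun a => ?_
  generalize u a = n
  induction n with
  | zero => rfl
  | succ n ih =>
      have h : pref (g a) (n + 1) = pref (g a) n ++ [g a n] := by
        simp [pref, List.range_succ]
      rw [h, ← ih]

theorem computable_xor : Computable fun p : Bool × Bool => xor p.1 p.2 :=
  (Primrec.dom_finite _).to_comp

theorem computable_and : Computable fun p : Bool × Bool => p.1 && p.2 :=
  (Primrec.dom_finite _).to_comp

theorem computable_xorSum {g : α → ℕ → Bool} (hg : Computable fun p : α × ℕ => g p.1 p.2)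
    {u : α → ℕ} (hu : Computable u) : Computable fun a => xorSum (u a) (g a) := by
  have hstep : Computable₂ (fun (a : α) (p : ℕ × Bool) => xor p.2 (g a p.1)) := by
    have h1 : Computable fun q : α × ℕ × Bool => g q.1 q.2.1 :=
      hg.comp (Computable.fst.pair (Computable.fst.comp Computable.snd))
    have h2 := computable_xor.comp ((Computable.snd.comp Computable.snd).pair h1)
    exact h2
  refine (Computable.nat_rec hu (Computable.const false) hstep).of_eq fun a => ?_
  generalize u a = n
  induction n with
  | zero => rfl
  | succ n ih =>
      simp only [xorSum]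
      rw [← ih]

end helpers

/-- The image of the finite string `σ` under the matrix with columns given by `col`. -/
def colVal (col : ℕ × ℕ → Bool) (σ : List Bool) (n : ℕ) : Bool :=
  xorSum σ.length (fun j => σ.getD j false && col (j, n))

theorem computable_colVal {col : ℕ × ℕ → Bool} (hcol : Computable col) :
    Computable fun p : List Bool × ℕ => colVal col p.1 p.2 := by
  have h : Computable fun q : (List Bool × ℕ) × ℕ => q.1.1.getD q.2 false && col (q.2, q.1.2) := by
    have h1 : Computable fun q : (List Bool × ℕ) × ℕ => q.1.1.getD q.2 false :=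
      ((Primrec.list_getD false).to_comp).comp (Computable.fst.comp Computable.fst) Computable.snd
    have h2 : Computable fun q : (List Bool × ℕ) × ℕ => col (q.2, q.1.2) :=
      hcol.comp (Computable.snd.pair (Computable.snd.comp Computable.fst))
    have h3 := computable_and.comp (h1.pair h2)
    exact h3
  have h3 := computable_xorSum (g := fun (p : List Bool × ℕ) (j : ℕ) =>
    p.1.getD j false && col (j, p.2)) h
    (u := fun p => p.1.length) (Computable.list_length.comp Computable.fst)
  exact h3

theorem computable_imgStr {col : ℕ × ℕ → Bool} (hcol : Computable col) :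
    Computable fun p : List Bool × ℕ => pref (colVal col p.1) p.2 := by
  have h1 := (computable_colVal hcol).comp
      ((Computable.fst.comp Computable.fst).pair Computable.snd :
        Computable fun q : (List Bool × ℕ) × ℕ => (q.1.1, q.2))
  have h2 := computable_pref (g := fun (p : List Bool × ℕ) (n : ℕ) => colVal col p.1 n)
    h1 (u := fun p => p.2) Computable.snd
  exact h2

theorem restrict_fill (σ : List Bool) : restrict (fill σ) σ.length = fill σ := by
  funext i
  simp only [restrict, fill]
  by_cases hi : i < σ.length
  · simp [hi]
  · simp [hi]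

section additive

variable {G : (ℕ → Bool) → ℕ → Bool}

theorem map_fill (hadd : ∀ X Y, G (xorS X Y) = xorS (G X) (G Y)) (σ : List Bool) (n : ℕ) :
    G (fill σ) n = colVal (fun p => G (unitS p.1) p.2) σ n := by
  have hlam : ∀ X Y, (fun Z => G Z n) (xorS X Y) = xor (G X n) (G Y n) := fun X Y => by
    simp only [hadd]; rfl
  have := lam_restrict (lam := fun Z => G Z n) hlam (fill σ) σ.length
  rw [restrict_fill] at this
  exact this

theorem map_zero' (hadd : ∀ X Y, G (xorS X Y) = xorS (G X) (G Y)) : G (fun _ => false) = fun _ => false := by
  funext n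
  have hlam : ∀ X Y, (fun Z => G Z n) (xorS X Y) = xor (G X n) (G Y n) := fun X Y => by
    simp only [hadd]; rfl
  exact lam_zero (lam := fun Z => G Z n) hlam

/-- Modulus of injectivity. -/
theorem exists_modulus (hadd : ∀ X Y, G (xorS X Y) = xorS (G X) (G Y)) (hcont : Continuous G)
    (hinj : Function.Injective G) (w : ℕ) :
    ∃ ℓ, ∀ Z, (∀ i < ℓ, G Z i = false) → ∀ j < w, Z j = false := by
  -- the compact set of those `Z` which are nonzero below `w`
  let C : Set (ℕ → Bool) := {Z | ∃ j < w, Z j = true}
  have hCc : IsClosed C := by
    have : C = ⋃ j ∈ Finset.range w, {Z | Z j = true} := by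
      ext Z
      simp [C]
    rw [this]
    refine isClosed_biUnion_finset fun j _ => ?_
    have h : IsClosed ((fun Z : ℕ → Bool => Z j) ⁻¹' ({true} : Set Bool)) :=
      (isClosed_discrete _).preimage (continuous_apply j)
    exact h
  have hC : IsCompact C := hCc.isCompact
  let U : ℕ → Set (ℕ → Bool) := fun i => {Z | G Z i = true}
  have hU : ∀ i, IsOpen (U i) := fun i =>
    (isOpen_discrete ({true} : Set Bool)).preimage ((continuous_apply i).comp hcont)
  have hcover : C ⊆ ⋃ i, U i := by
    rintro Z ⟨j, hj, hZj⟩
    by_contra hne
    have h0 : G Z = fun _ => false := by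
      funext i
      by_contra hi
      exact hne (Set.mem_iUnion.2 ⟨i, by simpa [U] using hi⟩)
    have h1 : Z = fun _ => false := hinj (h0.trans (map_zero' hadd).symm)
    rw [h1] at hZj
    simp at hZj
  obtain ⟨I, hI⟩ := hC.elim_finite_subcover U hU hcover
  refine ⟨I.sup id + 1, fun Z hZ j hj => ?_⟩
  by_contra hne
  have hZj : Z j = true := by simpa using hne
  have hmem := hI (show Z ∈ C from ⟨j, hj, hZj⟩)
  simp only [Set.mem_iUnion] at hmem
  obtain ⟨i, hi, hi2⟩ := hmem
  have : i < I.sup id + 1 := Nat.lt_succ_of_le (Finset.le_sup (f := id) hi)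
  have h3 := hZ i this
  simp only [U] at hi2
  rw [show G Z i = true from hi2] at h3
  simp at h3

end additive

theorem pref_eq_of_mem_cyl {Z Y : ℕ → Bool} {m : ℕ} (h : Z ∈ Cyl (pref Y m)) :
    pref Z m = pref Y m := by
  refine List.ext_getElem (by simp [pref_length]) fun i h1 h2 => ?_
  rw [pref_getElem, pref_getElem]
  have := h i h2
  rw [this, pref_getElem]

theorem take_pref (Y : ℕ → Bool) {m w : ℕ} (h : m ≤ w) : (pref Y w).take m = pref Y m := by
  refine List.ext_getElem (by simp [pref_length]; omega) fun i h1 h2 => ?_
  rw [List.getElem_take, pref_getElem, pref_getElem]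

theorem mem_cyl_of_pref_eq {Z Y : ℕ → Bool} {m : ℕ} (h : pref Z m = pref Y m) :
    Z ∈ Cyl (pref Y m) := by
  rw [← h]
  exact pref_mem_cyl Z m

theorem pref_eq_iff {Z Y : ℕ → Bool} {m : ℕ} : pref Z m = pref Y m ↔ ∀ i < m, Z i = Y i := by
  constructor
  · intro h i hi
    have h1 := pref_mem_cyl Z m i (by rw [pref_length]; exact hi)
    have h2 : (pref Z m)[i]'(by rw [pref_length]; exact hi) =
        (pref Y m)[i]'(by rw [pref_length]; exact hi) := by
      congr 1
    rw [pref_getElem] at h2
    rw [pref_getElem] at h2
    exact h2
  · intro h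
    refine List.ext_getElem (by simp [pref_length]) fun i h1 h2 => ?_
    rw [pref_getElem, pref_getElem]
    exact h i (by rw [pref_length] at h1; exact h1)

/-- The test used in the reduction from a modulus. -/
def modTest (col : ℕ × ℕ → Bool) (M : ℕ → ℕ) (q : ℕ × ℕ × List Bool) : Option ℕ :=
  cond (decide (M q.1 ≤ q.2.1) &&
      decide (q.2.2.take (M q.1) = pref (colVal col (strOf q.2.1.unpair.1)) (M q.1)))
    (Option.some ((strOf q.2.1.unpair.1).getD q.1 false).toNat) Option.none

theorem computable_modTest {col : ℕ × ℕ → Bool} (hcol : Computable col) {M : ℕ → ℕ}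
    (hM : Computable M) : Computable (modTest col M) := by
  have hM' : Computable fun q : ℕ × ℕ × List Bool => M q.1 := hM.comp Computable.fst
  have hσ : Computable fun q : ℕ × ℕ × List Bool => strOf q.2.1.unpair.1 :=
    computable_strOf.comp (Computable.fst.comp (Computable.unpair.comp
      (Computable.fst.comp Computable.snd)))
  have hle : Computable fun q : ℕ × ℕ × List Bool => decide (M q.1 ≤ q.2.1) := by
    have h1 : Computable fun p : ℕ × ℕ => decide (p.1 ≤ p.2) :=
      (PrimrecPred.decide (Primrec.nat_le.comp Primrec.fst Primrec.snd)).to_comp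
    exact h1.comp (hM'.pair (Computable.fst.comp Computable.snd))
  have htake : Computable fun q : ℕ × ℕ × List Bool => q.2.2.take (M q.1) :=
    ((Primrec.list_take (α := Bool)).to_comp).comp hM' (Computable.snd.comp Computable.snd)
  have himg : Computable fun q : ℕ × ℕ × List Bool =>
      pref (colVal col (strOf q.2.1.unpair.1)) (M q.1) :=
    (computable_imgStr hcol).comp (hσ.pair hM')
  have heq : Computable fun q : ℕ × ℕ × List Bool =>
      decide (q.2.2.take (M q.1) = pref (colVal col (strOf q.2.1.unpair.1)) (M q.1)) := by
    have h1 : Computable fun p : List Bool × List Bool => decide (p.1 = p.2) :=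
      (PrimrecPred.decide (Primrec.eq.comp Primrec.fst Primrec.snd)).to_comp
    exact h1.comp (htake.pair himg)
  have hand := computable_and.comp (hle.pair heq)
  have hbit : Computable fun q : ℕ × ℕ × List Bool => (strOf q.2.1.unpair.1).getD q.1 false :=
    ((Primrec.list_getD false).to_comp).comp hσ Computable.fst
  have hnat : Computable fun q : ℕ × ℕ × List Bool =>
      Option.some ((strOf q.2.1.unpair.1).getD q.1 false).toNat :=
    Computable.option_some.comp (((Primrec.dom_finite Bool.toNat).to_comp).comp hbit)
  have := Computable.cond hand hnat (Computable.const Option.none)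
  exact this

/-- Reduction from a computable modulus and computable columns. -/
theorem reducible_of_modulus {G : (ℕ → Bool) → ℕ → Bool}
    (hadd : ∀ X Y, G (xorS X Y) = xorS (G X) (G Y)) (hcont : Continuous G)
    (hcol : Computable fun p : ℕ × ℕ => G (unitS p.1) p.2)
    {M : ℕ → ℕ} (hM : Computable M)
    (hmod : ∀ Z n, (∀ i < M n, G Z i = false) → Z n = false) (X : ℕ → Bool) :
    Nat.RecursiveIn {chi (G X)} (chi X) := by
  set col : ℕ × ℕ → Bool := fun p => G (unitS p.1) p.2 with hcoldef
  refine oracle_search (T := modTest col M) (computable_modTest hcol hM) (V := fun n => (X n).toNat)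
    ?_ ?_
  · intro n
    -- a finite part of `X` with the right image
    have hU : IsOpen (G ⁻¹' Cyl (pref (G X) (M n))) := (isOpen_cyl _).preimage hcont
    obtain ⟨v, hv⟩ := exists_cyl_subset hU (Y := X) (pref_mem_cyl _ _)
    let σ := pref X v
    have h1 : G (fill σ) ∈ Cyl (pref (G X) (M n)) := hv (fill_mem_cyl σ)
    have h2 := pref_eq_of_mem_cyl h1
    have h3 : pref (colVal col σ) (M n) = pref (G X) (M n) := by
      rw [← h2]
      congr 1
      funext i
      exact (map_fill hadd σ i).symm
    let w := Nat.pair (Encodable.encode σ) (M n)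
    have hw : M n ≤ w := Nat.right_le_pair _ _
    refine ⟨w, (σ.getD n false).toNat, ?_⟩
    simp only [modTest]
    have hw1 : w.unpair.1 = Encodable.encode σ := by simp [w]
    rw [hw1, strOf_encode, take_pref _ hw, h3]
    simp [hw]
  · intro n w v hv
    simp only [modTest] at hv
    cases hc : (decide (M n ≤ w) && decide ((pref (G X) w).take (M n) =
        pref (colVal col (strOf w.unpair.1)) (M n))) with
    | false => rw [hc] at hv; simp at hv
    | true =>
        rw [hc] at hv
        simp only [cond_true, Option.some.injEq] at hv
        simp only [Bool.and_eq_true, decide_eq_true_eq] at hc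
        obtain ⟨hle, heq⟩ := hc
        rw [take_pref _ hle] at heq
        set σ := strOf w.unpair.1
        have heq' : pref (G X) (M n) = pref (G (fill σ)) (M n) := by
          rw [heq]
          congr 1
          funext i
          exact (map_fill hadd σ i).symm
        have hz := hmod (xorS X (fill σ)) n (by
          intro i hi
          rw [hadd]
          have := pref_eq_iff.1 heq' i hi
          simp [xorS, this])
        have hXn : X n = σ.getD n false := by
          have : xor (X n) (fill σ n) = false := hz
          simpa [fill] using this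
        rw [← hv, hXn]

end Vale.Agent.Lib.P327
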