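import Mathlib

/-! The characteristic function used to compare sets of naturals by Turing reducibility, and the
partial order of Turing degrees of sets of naturals. -/

namespace Vale.Agent.Lib.P327

/-- The characteristic function of a set of naturals, given as a sequence of bits:
`chi X n` is the total value `1` if `X n` is true and `0` if it is false. Turing reducibility
`TuringReducible (chi X) (chi Y)` of Mathlib is then the usual `X ≤T Y`. -/
def chi (X : ℕ → Bool) : ℕ →. ℕ := fun n => Part.some (X n).toNat

/-- Turing equivalence of sets of naturals, given as sequences of bits. -/
def turingSetoid : Setoid (ℕ → Bool) where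
  r X Y := TuringEquivalent (chi X) (chi Y)
  iseqv := ⟨fun X => TuringEquivalent.refl (chi X), fun h => h.symm,
    fun h₁ h₂ => TuringEquivalent.trans _ _ _ h₁ h₂⟩

/-- The Turing degrees of sets of naturals. -/
def TDeg : Type := Quotient turingSetoid

/-- The Turing degree of a set of naturals. -/
def TDeg.of (X : ℕ → Bool) : TDeg := Quotient.mk turingSetoid X

/-- The partial order of the Turing degrees, induced by Turing reducibility. -/
instance : PartialOrder TDeg where
  le a b := Quotient.liftOn₂ a b (fun X Y => TuringReducible (chi X) (chi Y)) (by
    intro X₁ Y₁ X₂ Y₂ hX hY
    exact propext ⟨fun h => hX.2.trans (h.trans hY.1), fun h => hX.1.trans (h.trans hY.2)⟩)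
  le_refl a := by
    induction a using Quotient.inductionOn with
    | h X => exact TuringReducible.refl (chi X)
  le_trans a b c := by
    induction a using Quotient.inductionOn with
    | h X =>
      induction b using Quotient.inductionOn with
      | h Y =>
        induction c using Quotient.inductionOn with
        | h Z => exact fun h₁ h₂ => TuringReducible.trans h₁ h₂
  le_antisymm a b := by
    induction a using Quotient.inductionOn with
    | h X =>
      induction b using Quotient.inductionOn with
      | h Y => exact fun h₁ h₂ => Quotient.sound ⟨h₁, h₂⟩

theorem TDeg.of_le_of {X Y : ℕ → Bool} :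
    TDeg.of X ≤ TDeg.of Y ↔ TuringReducible (chi X) (chi Y) := Iff.rfl

end Vale.Agent.Lib.P327
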