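import Vale.Agent.Lib.P327.OEval

namespace Vale.Agent.Lib.P327

open Nat Part

theorem partrec_ora : Partrec₂ ora := by
  have h : Computable fun p : List Bool × ℕ => (p.1[p.2]?).map Bool.toNat := by
    refine Computable.option_map (Computable.list_getElem?.comp Computable.fst Computable.snd) ?_
    have : Computable Bool.toNat := (Primrec.dom_finite Bool.toNat).to_comp
    exact (this.comp Computable.snd).to₂
  exact h.ofOption

/-- Fuelled evaluation of a fixed oracle code on strings. -/
theorem exists_fuel (c : OCode) :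
    ∃ E : ℕ → List Bool → ℕ → Option ℕ,
      Computable (fun p : ℕ × List Bool × ℕ => E p.1 p.2.1 p.2.2) ∧
      ∀ ρ n a, a ∈ evalO (ora ρ) c n ↔ ∃ t, E t ρ n = Option.some a := by
  have h := partrec_evalO partrec_ora c
  obtain ⟨e, he⟩ := Nat.Partrec.Code.exists_code.1 h
  refine ⟨fun t ρ n => Nat.Partrec.Code.evaln t e (Encodable.encode (ρ, n)), ?_, ?_⟩
  · have h3 : Computable (fun p : ℕ × List Bool × ℕ => ((p.1, e), Encodable.encode p.2)) :=
      (Computable.fst.pair (Computable.const e)).pair (Computable.encode.comp Computable.snd)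
    exact Nat.Partrec.Code.primrec_evaln.to_comp.comp h3
  · intro ρ n a
    have h2 : a ∈ Nat.Partrec.Code.eval e (Encodable.encode (ρ, n)) ↔ a ∈ evalO (ora ρ) c n := by
      rw [he]
      simp [Encodable.encodek]
    rw [← h2, Nat.Partrec.Code.evaln_complete]
    rfl

end Vale.Agent.Lib.P327
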