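import Vale.Agent.Lib.P327.Uniform

namespace Vale.Agent.Lib.P327

open Nat Part

/-- Insert `u` zeros at the beginning of a sequence. -/
def padS (u : ℕ) (X : ℕ → Bool) : ℕ → Bool := fun i => decide (u ≤ i) && X (i - u)

theorem padS_add (u : ℕ) (X Y : ℕ → Bool) : padS u (xorS X Y) = xorS (padS u X) (padS u Y) := by
  funext i
  simp only [padS, xorS]
  cases decide (u ≤ i) <;> simp

theorem continuous_padS (u : ℕ) : Continuous (padS u) := by
  refine continuous_pi fun i => ?_
  have h : Continuous fun b : Bool => decide (u ≤ i) && b := continuous_of_discreteTopology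
  exact h.comp (continuous_apply (i - u))

theorem padS_vanish (u : ℕ) (X : ℕ → Bool) : ∀ j < u, padS u X j = false := by
  intro j hj
  have : ¬ u ≤ j := by omega
  simp [padS, this]

theorem padS_apply (u : ℕ) (X : ℕ → Bool) (n : ℕ) : padS u X (n + u) = X n := by
  simp [padS]

theorem pad_reducible (u : ℕ) (X : ℕ → Bool) : Nat.RecursiveIn {chi X} (chi (padS u X)) := by
  have hr : Computable fun i : ℕ => cond (decide (u ≤ i)) [i - u] ([] : List ℕ) := by
    have h0 : Computable fun i : ℕ => decide (u ≤ i) :=
      (PrimrecPred.decide (Primrec.nat_le.comp (Primrec.const u) Primrec.id)).to_comp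
    have h1 : Computable fun i : ℕ => [i - u] :=
      Computable.list_cons.comp
        ((Primrec.nat_sub.comp Primrec.id (Primrec.const u)).to_comp) (Computable.const [])
    exact Computable.cond h0 h1 (Computable.const [])
  refine reducible_of_rows hr fun i => ?_
  simp only [padS]
  cases decide (u ≤ i) <;> simp [xorList_cons, xorList_nil]

theorem unpad_reducible (u : ℕ) (X : ℕ → Bool) : Nat.RecursiveIn {chi (padS u X)} (chi X) := by
  have hr : Computable fun n : ℕ => [n + u] :=
    Computable.list_cons.comp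
      ((Primrec.nat_add.comp Primrec.id (Primrec.const u)).to_comp) (Computable.const [])
  refine reducible_of_rows hr fun n => ?_
  simp [xorList_cons, xorList_nil, padS_apply]

theorem chi_injective : Function.Injective chi := by
  intro X Y h
  funext n
  have h1 : (X n).toNat = (Y n).toNat := by
    have := congrFun h n
    exact Part.some_injective this
  cases hX : X n <;> cases hY : Y n <;> simp_all

/-- Only finitely many initial positions matter for the kernel. -/
theorem exists_kernel_bound {F : (ℕ → Bool) → ℕ → Bool}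
    (hadd : ∀ X Y, F (xorS X Y) = xorS (F X) (F Y)) (hcont : Continuous F)
    (hiff : ∀ X Y, Nat.RecursiveIn {chi Y} (chi X) ↔ Nat.RecursiveIn {chi (F Y)} (chi (F X))) :
    ∃ u, ∀ Z, (∀ j < u, Z j = false) → F Z = (fun _ => false) → Z = fun _ => false := by
  let zero : ℕ → Bool := fun _ => false
  have hF0 : F zero = zero := map_zero' hadd
  let K : Set (ℕ → Bool) := F ⁻¹' {zero}
  have hKc : IsClosed K := isClosed_singleton.preimage hcont
  haveI : CompactSpace K := isCompact_iff_compactSpace.1 hKc.isCompact
  haveI : Nonempty K := ⟨⟨zero, hF0⟩⟩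
  let S : OCode → Set K := fun c => {z | evalO (chi zero) c = chi z.1}
  have hSsub : ∀ c, (S c).Subsingleton := by
    intro c z₁ h₁ z₂ h₂
    apply Subtype.ext
    apply chi_injective
    exact h₁.symm.trans h₂
  have hScl : ∀ c, IsClosed (S c) := fun c => (hSsub c).isClosed
  have hcover : ⋃ c, S c = Set.univ := by
    refine Set.eq_univ_of_forall fun z => ?_
    have hz : F z.1 = zero := z.2
    have h1 : Nat.RecursiveIn {chi zero} (chi z.1) := by
      refine (hiff _ _).2 ?_
      rw [hz, hF0]
      exact .oracle _ rfl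
    obtain ⟨c, hc⟩ := exists_code_of_recursiveIn h1
    exact Set.mem_iUnion.2 ⟨c, hc⟩
  obtain ⟨c, z, hz⟩ := nonempty_interior_of_iUnion_of_closed hScl hcover
  rw [mem_interior] at hz
  obtain ⟨U, hUS, hUo, hzU⟩ := hz
  obtain ⟨U', hU'o, rfl⟩ := isOpen_induced_iff.1 hUo
  obtain ⟨v, hv⟩ := exists_cyl_subset hU'o hzU
  refine ⟨v, fun Z hZ hFZ => ?_⟩
  have hz' : xorS z.1 Z ∈ K := by
    show F (xorS z.1 Z) = zero
    rw [hadd, show F z.1 = zero from z.2, hFZ]
    funext n
    simp [xorS, zero]
  have hcyl : xorS z.1 Z ∈ Cyl (pref z.1 v) := by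
    intro i hi
    rw [pref_length] at hi
    simp only [xorS, hZ i hi, Bool.xor_false]
    rw [pref_getElem]
  have hS1 : (⟨_, hz'⟩ : K) ∈ S c := hUS (hv hcyl)
  have hS2 : z ∈ S c := hUS hzU
  have heq := hSsub c hS1 hS2
  have heq' : xorS z.1 Z = z.1 := congrArg Subtype.val heq
  funext n
  have := congrFun heq' n
  simp only [xorS] at this
  cases hz1 : z.1 n <;> cases hZn : Z n <;> simp_all

/-- **Main theorem.** Let `F` be a continuous additive self-map of Cantor space such that
`X ≤T Y ↔ F X ≤T F Y` and such that every degree contains some `F X`. Then `F X ≡T X`. -/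
theorem main_general {F : (ℕ → Bool) → ℕ → Bool}
    (hadd : ∀ X Y, F (xorS X Y) = xorS (F X) (F Y)) (hcont : Continuous F)
    (hiff : ∀ X Y, Nat.RecursiveIn {chi Y} (chi X) ↔ Nat.RecursiveIn {chi (F Y)} (chi (F X)))
    (hsurj : ∀ D, ∃ X, Nat.RecursiveIn {chi D} (chi (F X)) ∧ Nat.RecursiveIn {chi (F X)} (chi D))
    (X : ℕ → Bool) :
    Nat.RecursiveIn {chi X} (chi (F X)) ∧ Nat.RecursiveIn {chi (F X)} (chi X) := by
  obtain ⟨u, hu⟩ := exists_kernel_bound hadd hcont hiff
  let F' : (ℕ → Bool) → ℕ → Bool := fun X => F (padS u X)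
  have hadd' : ∀ X Y, F' (xorS X Y) = xorS (F' X) (F' Y) := by
    intro X Y
    simp only [F', padS_add, hadd]
  have hcont' : Continuous F' := hcont.comp (continuous_padS u)
  have hinj' : Function.Injective F' := by
    intro X Y hXY
    have h0 : F (padS u (xorS X Y)) = fun _ => false := by
      rw [padS_add, hadd]
      funext n
      have : F (padS u X) n = F (padS u Y) n := congrFun hXY n
      simp [xorS, this]
    have h1 := hu _ (padS_vanish u _) h0
    funext n
    have h2 := congrFun h1 (n + u)
    rw [padS_apply] at h2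
    simp only [xorS] at h2
    have key : ∀ a b : Bool, xor a b = false → a = b := by decide
    exact key _ _ h2
  have hiff' : ∀ X Y, Nat.RecursiveIn {chi Y} (chi X) ↔
      Nat.RecursiveIn {chi (F' Y)} (chi (F' X)) := by
    intro X Y
    constructor
    · intro h
      exact (hiff _ _).1 (recIn_trans (pad_reducible u X) (recIn_trans h (unpad_reducible u Y)))
    · intro h
      exact recIn_trans (unpad_reducible u X) (recIn_trans ((hiff _ _).2 h) (pad_reducible u Y))
  have hsurj' : ∀ D, ∃ X, Nat.RecursiveIn {chi D} (chi (F' X)) ∧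
      Nat.RecursiveIn {chi (F' X)} (chi D) := by
    intro D
    obtain ⟨W, hW1, hW2⟩ := hsurj D
    refine ⟨W, ?_, ?_⟩
    · exact recIn_trans ((hiff _ _).1 (pad_reducible u W)) hW1
    · exact recIn_trans hW2 ((hiff _ _).1 (unpad_reducible u W))
  have hcol := columns_computable hadd' hcont' hiff' hsurj'
  have h1 : ∀ X, Nat.RecursiveIn {chi (F' X)} (chi X) := fun X =>
    reducible_of_columns hadd' hcont' hinj' hcol
      (fun X => (hiff' _ _).1 (shift_reducible X)) X
  have h2 : ∀ X, Nat.RecursiveIn {chi X} (chi (F' X)) := fun X =>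
    image_reducible_of_columns hadd' hcont' hinj' hcol hiff' X
  constructor
  · exact recIn_trans ((hiff _ _).1 (unpad_reducible u X)) (h2 X)
  · exact recIn_trans (h1 X) ((hiff _ _).1 (pad_reducible u X))

end Vale.Agent.Lib.P327
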