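import Vale.Agent.Lib.P327.SubBlock2

namespace Vale.Agent.Lib.P327

open Nat Part

section defs

variable (E : ℕ → List Bool → ℕ → Option ℕ)

/-- Search among the first `s` pairs (prefix length, fuel) for a convergent computation. -/
def valE (σ : List Bool) (k : ℕ) : ℕ → Option ℕ
  | 0 => Option.none
  | w + 1 => (valE σ k w) <|> E w.unpair.2 (σ.take w.unpair.1) k

/-- The bit computed at position `k`, if both computations converge within `s`. -/
def bitOpt (s : ℕ) (σ ρ : List Bool) (k : ℕ) : Option Bool :=
  (valE E σ k s).bind fun a => (valE E ρ k s).map fun b => decide (a ≠ b)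

/-- The longest initial segment of bits found among the first `m`. -/
def grow (s : ℕ) (σ ρ : List Bool) : ℕ → List Bool
  | 0 => []
  | k + 1 => cond (decide ((grow s σ ρ k).length = k))
      (Option.casesOn (bitOpt E s σ ρ k) (grow s σ ρ k) (fun b => grow s σ ρ k ++ [b]))
      (grow s σ ρ k)

/-- Pointwise xor of two strings. -/
def xorStr (ρ τ : List Bool) : List Bool :=
  (List.range (min ρ.length τ.length)).map fun i => xor (ρ.getD i false) (τ.getD i false)

/-- The approximation to the `i`-th iterate. -/
def approxA (g₀ : ℕ → Bool) (ρ : List Bool) (s : ℕ) : ℕ → List Bool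
  | 0 => pref g₀ s
  | i + 1 => grow E s (xorStr ρ (approxA g₀ ρ s i)) ρ s

end defs

theorem primrec_xorStr : Primrec fun p : List Bool × List Bool => xorStr p.1 p.2 := by
  have h1 : Primrec fun p : List Bool × List Bool => List.range (min p.1.length p.2.length) :=
    Primrec.list_range.comp (Primrec.nat_min.comp (Primrec.list_length.comp Primrec.fst)
      (Primrec.list_length.comp Primrec.snd))
  have hxor : Primrec fun q : Bool × Bool => xor q.1 q.2 := Primrec.dom_finite _
  have h2 : Primrec₂ (fun (p : List Bool × List Bool) (i : ℕ) =>
      xor (p.1.getD i false) (p.2.getD i false)) := by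
    have ha : Primrec fun q : (List Bool × List Bool) × ℕ => q.1.1.getD q.2 false :=
      (Primrec.list_getD false).comp (Primrec.fst.comp Primrec.fst) Primrec.snd
    have hb : Primrec fun q : (List Bool × List Bool) × ℕ => q.1.2.getD q.2 false :=
      (Primrec.list_getD false).comp (Primrec.snd.comp Primrec.fst) Primrec.snd
    exact hxor.comp (ha.pair hb)
  exact Primrec.list_map h1 h2

section computability

variable {E : ℕ → List Bool → ℕ → Option ℕ}
  (hE : Computable (fun p : ℕ × List Bool × ℕ => E p.1 p.2.1 p.2.2))

include hE

theorem computable_valE :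
    Computable fun p : (List Bool × ℕ) × ℕ => valE E p.1.1 p.1.2 p.2 := by
  have hstep : Computable₂ (fun (q : (List Bool × ℕ) × ℕ) (r : ℕ × Option ℕ) =>
      r.2 <|> E r.1.unpair.2 (q.1.1.take r.1.unpair.1) q.1.2) := by
    have hu : Computable Nat.unpair := Computable.unpair
    have hw : Computable fun x : ((List Bool × ℕ) × ℕ) × ℕ × Option ℕ => x.2.1 :=
      Computable.fst.comp Computable.snd
    have ht : Computable fun x : ((List Bool × ℕ) × ℕ) × ℕ × Option ℕ => x.2.1.unpair.2 :=
      Computable.snd.comp (hu.comp hw)
    have hv : Computable fun x : ((List Bool × ℕ) × ℕ) × ℕ × Option ℕ => x.2.1.unpair.1 :=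
      Computable.fst.comp (hu.comp hw)
    have hσ : Computable fun x : ((List Bool × ℕ) × ℕ) × ℕ × Option ℕ => x.1.1.1 :=
      Computable.fst.comp (Computable.fst.comp Computable.fst)
    have hk : Computable fun x : ((List Bool × ℕ) × ℕ) × ℕ × Option ℕ => x.1.1.2 :=
      Computable.snd.comp (Computable.fst.comp Computable.fst)
    have htake : Computable fun x : ((List Bool × ℕ) × ℕ) × ℕ × Option ℕ =>
        x.1.1.1.take x.2.1.unpair.1 :=
      ((Primrec.list_take (α := Bool)).to_comp).comp hv hσ
    have h1 : Computable fun x : ((List Bool × ℕ) × ℕ) × ℕ × Option ℕ =>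
        E x.2.1.unpair.2 (x.1.1.1.take x.2.1.unpair.1) x.1.1.2 := by
      have := hE.comp (ht.pair (htake.pair hk))
      exact this
    have h2 := (Primrec.option_orElse.to_comp).comp
      (Computable.snd.comp Computable.snd :
        Computable fun x : ((List Bool × ℕ) × ℕ) × ℕ × Option ℕ => x.2.2) h1
    exact h2
  refine (Computable.nat_rec Computable.snd (Computable.const Option.none) hstep).of_eq fun p => ?_
  generalize p.2 = s
  induction s with
  | zero => rfl
  | succ s ih =>
      simp only [valE]
      rw [← ih]

theorem computable_bitOpt :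
    Computable fun p : (ℕ × List Bool × List Bool) × ℕ =>
      bitOpt E p.1.1 p.1.2.1 p.1.2.2 p.2 := by
  have hV := computable_valE hE
  have hs : Computable fun p : (ℕ × List Bool × List Bool) × ℕ => p.1.1 :=
    Computable.fst.comp Computable.fst
  have hσ : Computable fun p : (ℕ × List Bool × List Bool) × ℕ => p.1.2.1 :=
    Computable.fst.comp (Computable.snd.comp Computable.fst)
  have hρ : Computable fun p : (ℕ × List Bool × List Bool) × ℕ => p.1.2.2 :=
    Computable.snd.comp (Computable.snd.comp Computable.fst)
  have h1 : Computable fun p : (ℕ × List Bool × List Bool) × ℕ => valE E p.1.2.1 p.2 p.1.1 := by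
    have := hV.comp ((hσ.pair Computable.snd).pair hs)
    exact this
  have h2 : Computable fun p : (ℕ × List Bool × List Bool) × ℕ => valE E p.1.2.2 p.2 p.1.1 := by
    have := hV.comp ((hρ.pair Computable.snd).pair hs)
    exact this
  have hdec : Computable fun q : ℕ × ℕ => decide (q.1 ≠ q.2) :=
    (PrimrecPred.decide (PrimrecPred.not (Primrec.eq.comp Primrec.fst Primrec.snd))).to_comp
  have h3 : Computable₂ (fun (x : ((ℕ × List Bool × List Bool) × ℕ) × ℕ) (b : ℕ) =>
      decide (x.2 ≠ b)) := by
    have := hdec.comp ((Computable.snd.comp Computable.fst).pair Computable.snd :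
      Computable fun y : (((ℕ × List Bool × List Bool) × ℕ) × ℕ) × ℕ => (y.1.2, y.2))
    exact this
  have h2' : Computable fun x : ((ℕ × List Bool × List Bool) × ℕ) × ℕ =>
      valE E x.1.1.2.2 x.1.2 x.1.1.1 := by
    have := h2.comp (Computable.fst : Computable (Prod.fst :
      ((ℕ × List Bool × List Bool) × ℕ) × ℕ → (ℕ × List Bool × List Bool) × ℕ))
    exact this
  have h4' := Computable.option_map h2' h3
  have h4 : Computable₂ (fun (p : (ℕ × List Bool × List Bool) × ℕ) (a : ℕ) =>
      (valE E p.1.2.2 p.2 p.1.1).map fun b => decide (a ≠ b)) := by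
    exact h4'
  have h5 := Computable.option_bind h1 h4
  refine Computable.of_eq h5 ?_
  intro p
  unfold bitOpt
  rfl

theorem computable_grow :
    Computable fun p : (ℕ × List Bool × List Bool) × ℕ =>
      grow E p.1.1 p.1.2.1 p.1.2.2 p.2 := by
  have hB := computable_bitOpt hE
  have hstep : Computable₂ (fun (q : (ℕ × List Bool × List Bool) × ℕ) (r : ℕ × List Bool) =>
      cond (decide (r.2.length = r.1))
        (Option.casesOn (bitOpt E q.1.1 q.1.2.1 q.1.2.2 r.1) r.2 (fun b => r.2 ++ [b])) r.2) := by
    have hl : Computable fun x : ((ℕ × List Bool × List Bool) × ℕ) × ℕ × List Bool => x.2.2 :=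
      Computable.snd.comp Computable.snd
    have hk : Computable fun x : ((ℕ × List Bool × List Bool) × ℕ) × ℕ × List Bool => x.2.1 :=
      Computable.fst.comp Computable.snd
    have hdec : Computable fun q : ℕ × ℕ => decide (q.1 = q.2) :=
      (PrimrecPred.decide (Primrec.eq.comp Primrec.fst Primrec.snd)).to_comp
    have h1 : Computable fun x : ((ℕ × List Bool × List Bool) × ℕ) × ℕ × List Bool =>
        decide (x.2.2.length = x.2.1) := by
      have := hdec.comp ((Computable.list_length.comp hl).pair hk)
      exact this
    have h2 : Computable fun x : ((ℕ × List Bool × List Bool) × ℕ) × ℕ × List Bool =>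
        bitOpt E x.1.1.1 x.1.1.2.1 x.1.1.2.2 x.2.1 := by
      have := hB.comp ((Computable.fst.comp Computable.fst).pair hk)
      exact this
    have h3 : Computable₂ (fun (x : ((ℕ × List Bool × List Bool) × ℕ) × ℕ × List Bool) (b : Bool) =>
        x.2.2 ++ [b]) := by
      have := Computable.list_concat.comp (hl.comp Computable.fst) Computable.snd
      exact this
    have h4 := Computable.option_casesOn h2 hl h3
    have h5 := Computable.cond h1 h4 hl
    exact h5
  refine (Computable.nat_rec Computable.snd (Computable.const []) hstep).of_eq fun p => ?_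
  generalize p.2 = m
  induction m with
  | zero => rfl
  | succ m ih =>
      simp only [grow]
      rw [← ih]

theorem computable_approxA {g₀ : ℕ → Bool} (hg₀ : Computable g₀) :
    Computable fun p : (List Bool × ℕ) × ℕ => approxA E g₀ p.1.1 p.1.2 p.2 := by
  have hG := computable_grow hE
  have hbase : Computable fun p : (List Bool × ℕ) × ℕ => pref g₀ p.1.2 := by
    have := computable_pref (α := (List Bool × ℕ) × ℕ) (g := fun _ n => g₀ n)
      (hg₀.comp Computable.snd) (u := fun p => p.1.2) (Computable.snd.comp Computable.fst)
    exact this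
  have hstep : Computable₂ (fun (q : (List Bool × ℕ) × ℕ) (r : ℕ × List Bool) =>
      grow E q.1.2 (xorStr q.1.1 r.2) q.1.1 q.1.2) := by
    have hs : Computable fun x : ((List Bool × ℕ) × ℕ) × ℕ × List Bool => x.1.1.2 :=
      Computable.snd.comp (Computable.fst.comp Computable.fst)
    have hρ : Computable fun x : ((List Bool × ℕ) × ℕ) × ℕ × List Bool => x.1.1.1 :=
      Computable.fst.comp (Computable.fst.comp Computable.fst)
    have hl : Computable fun x : ((List Bool × ℕ) × ℕ) × ℕ × List Bool => x.2.2 :=
      Computable.snd.comp Computable.snd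
    have hx := (primrec_xorStr.to_comp).comp (hρ.pair hl)
    have := hG.comp ((hs.pair (hx.pair hρ)).pair hs)
    exact this
  refine (Computable.nat_rec Computable.snd hbase hstep).of_eq fun p => ?_
  generalize p.2 = i
  induction i with
  | zero => rfl
  | succ i ih =>
      simp only [approxA]
      rw [← ih]

end computability

section facts

variable {E : ℕ → List Bool → ℕ → Option ℕ}

theorem valE_sound {σ : List Bool} {k s a : ℕ} (h : valE E σ k s = Option.some a) :
    ∃ w : ℕ, E w.unpair.2 (σ.take w.unpair.1) k = Option.some a := by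
  induction s with
  | zero => simp [valE] at h
  | succ s ih =>
      simp only [valE] at h
      cases hc : valE E σ k s with
      | none =>
          rw [hc] at h
          exact ⟨s, h⟩
      | some b =>
          rw [hc] at h
          have h' : Option.some b = Option.some a := h
          cases h'
          exact ih hc

theorem valE_isSome {σ : List Bool} {k s w a : ℕ} (hw : w < s)
    (h : E w.unpair.2 (σ.take w.unpair.1) k = Option.some a) : (valE E σ k s).isSome := by
  induction s with
  | zero => exact absurd hw (Nat.not_lt_zero _)
  | succ s ih =>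
      simp only [valE]
      cases hc : valE E σ k s with
      | none =>
          rcases Nat.lt_succ_iff_lt_or_eq.1 hw with hlt | rfl
          · have := ih hlt
            rw [hc] at this
            simp at this
          · simp [h]
      | some b => simp

theorem grow_succ_of_ne {s : ℕ} {σ ρ : List Bool} {m : ℕ} (h : (grow E s σ ρ m).length ≠ m) :
    grow E s σ ρ (m + 1) = grow E s σ ρ m := by
  simp only [grow, decide_eq_false h, cond_false]

theorem grow_succ_none {s : ℕ} {σ ρ : List Bool} {m : ℕ} (h : (grow E s σ ρ m).length = m)
    (hb : bitOpt E s σ ρ m = Option.none) : grow E s σ ρ (m + 1) = grow E s σ ρ m := by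
  simp only [grow, decide_eq_true h, cond_true, hb]

theorem grow_succ_some {s : ℕ} {σ ρ : List Bool} {m : ℕ} {b : Bool}
    (h : (grow E s σ ρ m).length = m)
    (hb : bitOpt E s σ ρ m = Option.some b) :
    grow E s σ ρ (m + 1) = grow E s σ ρ m ++ [b] := by
  simp only [grow, decide_eq_true h, cond_true, hb]

theorem grow_length_le (s : ℕ) (σ ρ : List Bool) (m : ℕ) : (grow E s σ ρ m).length ≤ m := by
  induction m with
  | zero => simp [grow]
  | succ m ih =>
      by_cases hlen : (grow E s σ ρ m).length = m
      · cases hb : bitOpt E s σ ρ m with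
        | none => rw [grow_succ_none hlen hb]; omega
        | some b => rw [grow_succ_some hlen hb]; simp; omega
      · rw [grow_succ_of_ne hlen]; omega

theorem grow_prefix (s : ℕ) (σ ρ : List Bool) (m : ℕ) :
    ∀ j, j < (grow E s σ ρ m).length →
      bitOpt E s σ ρ j = Option.some ((grow E s σ ρ m).getD j false) := by
  induction m with
  | zero => intro j hj; simp [grow] at hj
  | succ m ih =>
      intro j hj
      by_cases hlen : (grow E s σ ρ m).length = m
      · cases hb : bitOpt E s σ ρ m with
        | none =>
            rw [grow_succ_none hlen hb] at hj ⊢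
            exact ih j hj
        | some b =>
            rw [grow_succ_some hlen hb] at hj ⊢
            simp only [List.length_append, List.length_cons, List.length_nil] at hj
            by_cases hjm : j < (grow E s σ ρ m).length
            · rw [List.getD_append _ _ _ _ hjm]
              exact ih j hjm
            · have hj' : j = m := by omega
              subst hj'
              rw [List.getD_append_right _ _ _ _ (by omega)]
              simp [hlen, hb]
      · rw [grow_succ_of_ne hlen] at hj ⊢
        exact ih j hj

theorem grow_complete (s : ℕ) (σ ρ : List Bool) (m : ℕ)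
    (h : ∀ j < m, (bitOpt E s σ ρ j).isSome) : (grow E s σ ρ m).length = m := by
  induction m with
  | zero => simp [grow]
  | succ m ih =>
      have hlen := ih fun j hj => h j (by omega)
      cases hb : bitOpt E s σ ρ m with
      | none =>
          have := h m (by omega)
          rw [hb] at this
          simp at this
      | some b =>
          rw [grow_succ_some hlen hb]
          simp [hlen]

theorem grow_mono (s : ℕ) (σ ρ : List Bool) {m m' : ℕ} (hm : m ≤ m') :
    (grow E s σ ρ m).length ≤ (grow E s σ ρ m').length := by
  induction m', hm using Nat.le_induction with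
  | base => exact le_rfl
  | succ m' hm' ih =>
      refine ih.trans ?_
      by_cases hlen : (grow E s σ ρ m').length = m'
      · cases hb : bitOpt E s σ ρ m' with
        | none => rw [grow_succ_none hlen hb]
        | some b => rw [grow_succ_some hlen hb]; simp
      · rw [grow_succ_of_ne hlen]

theorem xorStr_length (ρ τ : List Bool) : (xorStr ρ τ).length = min ρ.length τ.length := by
  simp [xorStr]

theorem xorStr_mem_cyl {ρ τ : List Bool} {Y W : ℕ → Bool} (hY : Y ∈ Cyl ρ) (hW : W ∈ Cyl τ) :
    xorS Y W ∈ Cyl (xorStr ρ τ) := by
  intro i hi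
  rw [xorStr_length] at hi
  have h1 : i < ρ.length := by omega
  have h2 : i < τ.length := by omega
  simp only [xorStr, List.getElem_map, List.getElem_range, xorS]
  rw [hY i h1, hW i h2, List.getD_eq_getElem _ _ h1, List.getD_eq_getElem _ _ h2]

theorem take_eq_pref {σ : List Bool} {Z : ℕ → Bool} (hZ : Z ∈ Cyl σ) {v : ℕ} (hv : v ≤ σ.length) :
    σ.take v = pref Z v := by
  refine List.ext_getElem (by simp [pref_length]; omega) fun i h1 h2 => ?_
  rw [pref_getElem, List.getElem_take]
  have hi : i < v := by rw [pref_length] at h2; exact h2
  exact (hZ i (by omega)).symm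

end facts

/-- **Iterated functional.** If `g (i+1)` is computed from `Y` and `g i` by one fixed oracle code,
and `g 0` is computable, then the whole sequence `g` is uniformly computable from `Y`. -/
theorem iterated_functional {Y : ℕ → Bool} {g : ℕ → ℕ → Bool} (hg₀ : Computable (g 0)) (c : OCode)
    (hrel : ∀ i k, ∃ a b, a ∈ evalO (chi (xorS Y (g i))) c k ∧ b ∈ evalO (chi Y) c k ∧
      g (i + 1) k = decide (a ≠ b)) :
    Nat.RecursiveIn {chi Y} (fun w => Part.some (g w.unpair.1 w.unpair.2).toNat) := by
  obtain ⟨E, hE, hE2⟩ := exists_fuel c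
  -- correctness of search values
  have hvalCorrect : ∀ {σ : List Bool} {Z : ℕ → Bool} {k s a a' : ℕ}, Z ∈ Cyl σ →
      valE E σ k s = Option.some a' → a ∈ evalO (chi Z) c k → a' = a := by
    intro σ Z k s a a' hZ hval ha
    obtain ⟨w, hw⟩ := valE_sound hval
    have h1 := (hE2 _ _ _).2 ⟨_, hw⟩
    have h2 := evalO_mono (ext_of_mem_cyl (cyl_of_prefix (List.take_prefix _ _) hZ)) c _ _ h1
    exact Part.mem_unique h2 ha
  -- soundness of the approximations
  have hsound : ∀ (ρ : List Bool) (s : ℕ), Y ∈ Cyl ρ → ∀ i, g i ∈ Cyl (approxA E (g 0) ρ s i) := by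
    intro ρ s hY i
    induction i with
    | zero => exact pref_mem_cyl _ _
    | succ i ih =>
        intro j hj
        simp only [approxA] at hj ⊢
        have hb := grow_prefix s _ _ s j hj
        obtain ⟨a, b, ha, hb', hrelv⟩ := hrel i j
        simp only [bitOpt, Option.bind_eq_some_iff, Option.map_eq_some_iff] at hb
        obtain ⟨a', ha', b', hb'', hdec⟩ := hb
        have h1 := hvalCorrect (xorStr_mem_cyl hY ih) ha' ha
        have h2 := hvalCorrect hY hb'' hb'
        rw [hrelv, ← List.getD_eq_getElem _ false hj, ← hdec, h1, h2]
  -- eventual length of the approximations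
  have hlong : ∀ i n, ∃ s₀, ∀ s, s₀ ≤ s → n < (approxA E (g 0) (pref Y s) s i).length := by
    intro i
    induction i with
    | zero =>
        intro n
        refine ⟨n + 1, fun s hs => ?_⟩
        simp only [approxA, pref_length]
        omega
    | succ i ih =>
        have hbit : ∀ j, ∃ s₀, ∀ s, s₀ ≤ s →
            (bitOpt E s (xorStr (pref Y s) (approxA E (g 0) (pref Y s) s i)) (pref Y s) j).isSome := by
          intro j
          obtain ⟨a, b, ha, hb, -⟩ := hrel i j
          obtain ⟨v, hv⟩ := use_principle _ c _ _ ha
          obtain ⟨v', hv'⟩ := use_principle _ c _ _ hb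
          obtain ⟨t, ht⟩ := (hE2 _ _ _).1 hv
          obtain ⟨t', ht'⟩ := (hE2 _ _ _).1 hv'
          obtain ⟨s₁, hs₁⟩ := ih v
          refine ⟨s₁ + v + v' + Nat.pair v t + Nat.pair v' t' + 1, fun s hs => ?_⟩
          have hlenA := hs₁ s (by omega)
          have hcyl := xorStr_mem_cyl (pref_mem_cyl Y s) (hsound (pref Y s) s (pref_mem_cyl Y s) i)
          have htake1 : (xorStr (pref Y s) (approxA E (g 0) (pref Y s) s i)).take v =
              pref (xorS Y (g i)) v := by
            refine take_eq_pref hcyl ?_
            rw [xorStr_length, pref_length]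
            omega
          have htake2 : (pref Y s).take v' = pref Y v' := take_pref Y (by omega)
          have h1 : (valE E (xorStr (pref Y s) (approxA E (g 0) (pref Y s) s i)) j s).isSome := by
            refine valE_isSome (w := Nat.pair v t) (a := a) (by omega) ?_
            simp only [Nat.unpair_pair]
            rw [htake1]
            exact ht
          have h2 : (valE E (pref Y s) j s).isSome := by
            refine valE_isSome (w := Nat.pair v' t') (a := b) (by omega) ?_
            simp only [Nat.unpair_pair]
            rw [htake2]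
            exact ht'
          obtain ⟨x, hx⟩ := Option.isSome_iff_exists.1 h1
          obtain ⟨y, hy⟩ := Option.isSome_iff_exists.1 h2
          simp [bitOpt, hx, hy]
        intro n
        have hbit' : ∀ m, ∃ s₀, ∀ s, s₀ ≤ s → ∀ j < m,
            (bitOpt E s (xorStr (pref Y s) (approxA E (g 0) (pref Y s) s i)) (pref Y s) j).isSome := by
          intro m
          induction m with
          | zero => exact ⟨0, fun _ _ j hj => absurd hj (Nat.not_lt_zero _)⟩
          | succ m ihm =>
              obtain ⟨s₁, hs₁⟩ := ihm
              obtain ⟨s₂, hs₂⟩ := hbit m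
              refine ⟨max s₁ s₂, fun s hs j hj => ?_⟩
              rcases Nat.lt_succ_iff_lt_or_eq.1 hj with hlt | rfl
              · exact hs₁ s (le_trans (le_max_left _ _) hs) j hlt
              · exact hs₂ s (le_trans (le_max_right _ _) hs)
        obtain ⟨s₀, hs₀⟩ := hbit' (n + 1)
        refine ⟨s₀ + n + 1, fun s hs => ?_⟩
        simp only [approxA]
        have h1 := grow_complete s (xorStr (pref Y s) (approxA E (g 0) (pref Y s) s i)) (pref Y s) (n + 1)
          (fun j hj => hs₀ s (by omega) j hj)
        have h2 := grow_mono (E := E) s (xorStr (pref Y s) (approxA E (g 0) (pref Y s) s i)) (pref Y s)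
          (show n + 1 ≤ s by omega)
        omega
  -- the search
  have hA := computable_approxA hE hg₀
  let T : ℕ × ℕ × List Bool → Option ℕ := fun q =>
    cond (decide (q.1.unpair.2 < (approxA E (g 0) q.2.2 q.2.1 q.1.unpair.1).length))
      (Option.some ((approxA E (g 0) q.2.2 q.2.1 q.1.unpair.1).getD q.1.unpair.2 false).toNat)
      Option.none
  have hT : Computable T := by
    have hu : Computable Nat.unpair := Computable.unpair
    have hi : Computable fun q : ℕ × ℕ × List Bool => q.1.unpair.1 :=
      Computable.fst.comp (hu.comp Computable.fst)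
    have hn : Computable fun q : ℕ × ℕ × List Bool => q.1.unpair.2 :=
      Computable.snd.comp (hu.comp Computable.fst)
    have hl : Computable fun q : ℕ × ℕ × List Bool => approxA E (g 0) q.2.2 q.2.1 q.1.unpair.1 := by
      have := hA.comp (((Computable.snd.comp Computable.snd).pair
        (Computable.fst.comp Computable.snd)).pair hi)
      exact this
    have hlt : Computable fun p : ℕ × ℕ => decide (p.1 < p.2) :=
      (PrimrecPred.decide (Primrec.nat_lt.comp Primrec.fst Primrec.snd)).to_comp
    have h1 := hlt.comp (hn.pair (Computable.list_length.comp hl))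
    have h2 : Computable fun q : ℕ × ℕ × List Bool =>
        (approxA E (g 0) q.2.2 q.2.1 q.1.unpair.1).getD q.1.unpair.2 false :=
      ((Primrec.list_getD false).to_comp).comp hl hn
    have h3 := Computable.option_some.comp (((Primrec.dom_finite Bool.toNat).to_comp).comp h2)
    have h4 := Computable.cond h1 h3 (Computable.const Option.none)
    exact h4
  refine oracle_search hT ?_ ?_
  · intro w
    obtain ⟨s₀, hs₀⟩ := hlong w.unpair.1 w.unpair.2
    refine ⟨s₀, ((approxA E (g 0) (pref Y s₀) s₀ w.unpair.1).getD w.unpair.2 false).toNat, ?_⟩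
    simp only [T]
    rw [decide_eq_true (hs₀ s₀ le_rfl)]
    rfl
  · intro w s v hv
    simp only [T] at hv
    by_cases hlt : w.unpair.2 < (approxA E (g 0) (pref Y s) s w.unpair.1).length
    · rw [decide_eq_true hlt] at hv
      simp only [cond_true, Option.some.injEq] at hv
      rw [← hv, List.getD_eq_getElem _ _ hlt,
        ← hsound (pref Y s) s (pref_mem_cyl Y s) w.unpair.1 _ hlt]
    · rw [decide_eq_false hlt] at hv
      simp at hv

end Vale.Agent.Lib.P327
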