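import Vale.Agent.Lib.P327.Reduce

namespace Vale.Agent.Lib.P327

open Nat Part

/-- The left shift of a sequence. -/
def shiftS (X : ℕ → Bool) : ℕ → Bool := fun n => X (n + 1)

theorem shift_reducible (X : ℕ → Bool) : Nat.RecursiveIn {chi X} (chi (shiftS X)) := by
  have h1 : Nat.RecursiveIn {chi X} (chi X) := .oracle _ rfl
  have h2 : Nat.RecursiveIn {chi X} (fun n => Part.some (n + 1)) :=
    recIn_of_computable Computable.succ
  refine (Nat.RecursiveIn.comp h1 h2).of_eq fun n => ?_
  exact Part.bind_some _ _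

/-- The main reduction: a continuous additive bijection preserving reducibility in one direction
has a computable inverse matrix, hence `X ≤T F X` for all `X`. -/
theorem reducible_image (F : (ℕ → Bool) → ℕ → Bool)
    (hadd : ∀ X Y, F (xorS X Y) = xorS (F X) (F Y))
    (hcont : Continuous F) (hbij : Function.Bijective F)
    (hmono : ∀ X Y, Nat.RecursiveIn {chi X} (chi Y) → Nat.RecursiveIn {chi (F X)} (chi (F Y)))
    (X : ℕ → Bool) : Nat.RecursiveIn {chi (F X)} (chi X) := by
  let e : (ℕ → Bool) ≃ (ℕ → Bool) := Equiv.ofBijective F hbij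
  let G : (ℕ → Bool) → ℕ → Bool := e.symm
  have hFG : ∀ Y, F (G Y) = Y := e.apply_symm_apply
  have hGF : ∀ X, G (F X) = X := e.symm_apply_apply
  have hGc : Continuous G := Continuous.continuous_symm_of_equiv_compact_to_t2 (f := e) hcont
  have hGadd : ∀ X Y, G (xorS X Y) = xorS (G X) (G Y) := by
    intro X Y
    apply hbij.1
    rw [hadd, hFG, hFG, hFG]
  let L : (ℕ → Bool) → ℕ → Bool := fun Y => F (shiftS (G Y))
  have hshiftAdd : ∀ X Y, shiftS (xorS X Y) = xorS (shiftS X) (shiftS Y) := fun _ _ => rfl
  have hLadd : ∀ X Y, L (xorS X Y) = xorS (L X) (L Y) := by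
    intro X Y
    simp only [L, hGadd, hshiftAdd, hadd]
  have hshiftc : Continuous shiftS := continuous_pi fun n => continuous_apply (n + 1)
  have hLc : ∀ k, Continuous fun Y => L Y k := fun k =>
    (continuous_apply k).comp (hcont.comp (hshiftc.comp hGc))
  have hLred : ∀ Y, Nat.RecursiveIn {chi Y} (chi (L Y)) := by
    intro Y
    have := hmono _ _ (shift_reducible (G Y))
    rwa [hFG] at this
  obtain ⟨u, B, hu, hB, hLB⟩ := computable_matrix L hLadd hLc hLred
  let row : ℕ → List ℕ := fun k => rowOf (fun j => B (k, j)) (u k)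
  have hrow : Computable row := computable_row hu hB
  have hrow2 : ∀ Y k, L Y k = xorList (row k) Y := by
    intro Y k
    rw [hLB, xorList_rowOf]
  -- the functional reading off the first bit
  let lam : (ℕ → Bool) → Bool := fun Y => G Y 0
  have hlamAdd : ∀ X Y, lam (xorS X Y) = xor (lam X) (lam Y) := by
    intro X Y
    simp only [lam, hGadd]
    rfl
  have hlamc : Continuous lam := (continuous_apply 0).comp hGc
  obtain ⟨u₀, hu₀⟩ := continuous_lam hlamAdd hlamc
  let r₀ : List ℕ := rowOf (fun j => lam (unitS j)) u₀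
  have hr₀ : ∀ Y, G Y 0 = xorList r₀ Y := by
    intro Y
    rw [xorList_rowOf]
    exact hu₀ Y
  let step : List ℕ → List ℕ := fun l => flatAux row l l.length
  have hstep : Computable step := computable_flat hrow
  let r : ℕ → List ℕ := iterRow step r₀
  have hr : Computable r := computable_iterRow hstep r₀
  have hrG : ∀ n Y, G Y n = xorList (r n) Y := by
    intro n
    induction n with
    | zero => exact hr₀
    | succ n ih =>
        intro Y
        have h1 : G Y (n + 1) = G (L Y) n := by
          show shiftS (G Y) n = G (F (shiftS (G Y))) n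
          rw [hGF]
        rw [h1, ih (L Y)]
        exact (xorList_flat (V := L Y) (fun k => hrow2 Y k) (r n)).symm
  refine reducible_of_rows hr (Y := F X) fun n => ?_
  rw [← hrG, hGF]

/-- The main theorem. -/
theorem main_equiv (F : (ℕ → Bool) → ℕ → Bool)
    (hadd : ∀ X Y, F (xorS X Y) = xorS (F X) (F Y))
    (hcont : Continuous F) (hbij : Function.Bijective F)
    (hmono : ∀ X Y, Nat.RecursiveIn {chi X} (chi Y) ↔ Nat.RecursiveIn {chi (F X)} (chi (F Y)))
    (X : ℕ → Bool) :
    Nat.RecursiveIn {chi (F X)} (chi X) ∧ Nat.RecursiveIn {chi X} (chi (F X)) := by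
  refine ⟨reducible_image F hadd hcont hbij (fun X Y h => (hmono X Y).1 h) X, ?_⟩
  let e : (ℕ → Bool) ≃ (ℕ → Bool) := Equiv.ofBijective F hbij
  let G : (ℕ → Bool) → ℕ → Bool := e.symm
  have hFG : ∀ Y, F (G Y) = Y := e.apply_symm_apply
  have hGF : ∀ X, G (F X) = X := e.symm_apply_apply
  have hGc : Continuous G := Continuous.continuous_symm_of_equiv_compact_to_t2 (f := e) hcont
  have hGadd : ∀ X Y, G (xorS X Y) = xorS (G X) (G Y) := by
    intro X Y
    apply hbij.1
    rw [hadd, hFG, hFG, hFG]
  have hGbij : Function.Bijective G := e.symm.bijective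
  have hGmono : ∀ X Y, Nat.RecursiveIn {chi X} (chi Y) → Nat.RecursiveIn {chi (G X)} (chi (G Y)) := by
    intro X Y h
    rw [hmono, hFG, hFG]
    exact h
  have := reducible_image G hGadd hGc hGbij hGmono (F X)
  rwa [hGF] at this

end Vale.Agent.Lib.P327
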