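import Vale.Agent.Lib.P327.Baire

namespace Vale.Agent.Lib.P327

open Nat Part

/-- Pointwise xor of two sequences. -/
def xorS (X Y : ℕ → Bool) : ℕ → Bool := fun n => xor (X n) (Y n)

/-- Finite xor sum. -/
def xorSum : ℕ → (ℕ → Bool) → Bool
  | 0, _ => false
  | u + 1, g => xor (xorSum u g) (g u)

/-- The sequence with exactly one nonzero entry, at `j`. -/
def unitS (j : ℕ) : ℕ → Bool := fun n => decide (n = j)

/-- The restriction of a sequence below `u`. -/
def restrict (Y : ℕ → Bool) (u : ℕ) : ℕ → Bool := fun i => decide (i < u) && Y i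

/-- The restriction of a sequence to indices at least `u`. -/
def tailS (Y : ℕ → Bool) (u : ℕ) : ℕ → Bool := fun i => decide (u ≤ i) && Y i

section functional

variable {lam : (ℕ → Bool) → Bool}

theorem lam_zero (hadd : ∀ X Y, lam (xorS X Y) = xor (lam X) (lam Y)) :
    lam (fun _ => false) = false := by
  have h := hadd (fun _ => false) (fun _ => false)
  have h2 : xorS (fun _ => false) (fun _ => false) = fun _ => false := by
    funext n; simp [xorS]
  rw [h2] at h
  simpa using h

theorem lam_restrict (hadd : ∀ X Y, lam (xorS X Y) = xor (lam X) (lam Y)) (Y : ℕ → Bool) (u : ℕ) :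
    lam (restrict Y u) = xorSum u (fun j => Y j && lam (unitS j)) := by
  induction u with
  | zero =>
      have : restrict Y 0 = fun _ => false := by
        funext i; simp [restrict]
      rw [this, lam_zero hadd]; rfl
  | succ u ih =>
      simp only [xorSum]
      rw [← ih]
      cases hu : Y u with
      | false =>
          have : restrict Y (u + 1) = restrict Y u := by
            funext i
            simp only [restrict]
            by_cases hi : i = u
            · subst hi; simp [hu]
            · have : i < u + 1 ↔ i < u := by omega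
              simp [this]
          rw [this]; simp
      | true =>
          have : restrict Y (u + 1) = xorS (restrict Y u) (unitS u) := by
            funext i
            simp only [restrict, xorS, unitS]
            by_cases hi : i = u
            · subst hi; simp [hu]
            · have : i < u + 1 ↔ i < u := by omega
              simp [this, hi]
          rw [this, hadd]; simp

theorem restrict_xor_tail (Y : ℕ → Bool) (u : ℕ) : xorS (restrict Y u) (tailS Y u) = Y := by
  funext i
  simp only [xorS, restrict, tailS]
  by_cases hi : i < u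
  · simp [hi, Nat.not_le.2 hi]
  · simp [hi, Nat.not_lt.1 hi]

/-- An additive functional which is constant on a cylinder is given by a finite xor. -/
theorem lam_eq_xorSum (hadd : ∀ X Y, lam (xorS X Y) = xor (lam X) (lam Y)) {ρ : List Bool} {a : Bool}
    (hρ : ∀ Z ∈ Cyl ρ, lam Z = a) (Y : ℕ → Bool) :
    lam Y = xorSum ρ.length (fun j => Y j && lam (unitS j)) := by
  have htail : lam (tailS Y ρ.length) = false := by
    have h1 : xorS (fill ρ) (tailS Y ρ.length) ∈ Cyl ρ := by
      intro i hi
      have := fill_mem_cyl ρ i hi
      simp only [xorS, tailS, this, Nat.not_le.2 hi]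
      simp
    have h2 := hρ _ h1
    have h3 := hρ _ (fill_mem_cyl ρ)
    rw [hadd, h3] at h2
    cases a <;> cases h : lam (tailS Y ρ.length) <;> simp_all
  conv_lhs => rw [← restrict_xor_tail Y ρ.length]
  rw [hadd, htail, lam_restrict hadd]
  simp

end functional

/-- A continuous additive functional is given by a finite xor. -/
theorem continuous_lam {lam : (ℕ → Bool) → Bool} (hadd : ∀ X Y, lam (xorS X Y) = xor (lam X) (lam Y))
    (hc : Continuous lam) : ∃ u, ∀ Y, lam Y = xorSum u (fun j => Y j && lam (unitS j)) := by
  have hopen : IsOpen {Z | lam Z = lam (fun _ => false)} :=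
    (isOpen_discrete ({lam (fun _ => false)} : Set Bool)).preimage hc
  obtain ⟨u, hu⟩ := exists_cyl_subset hopen (Y := fun _ => false) rfl
  refine ⟨(pref (fun _ => false) u).length, fun Y => ?_⟩
  exact lam_eq_xorSum hadd (ρ := pref (fun _ => false) u) (fun Z hZ => hu hZ) Y

theorem mem_cyl_append {ρ τ : List Bool} {Y : ℕ → Bool} :
    Y ∈ Cyl (ρ ++ τ) ↔ Y ∈ Cyl ρ ∧ ∀ i (h : i < τ.length), Y (ρ.length + i) = τ[i] := by
  constructor
  · intro h
    refine ⟨cyl_of_prefix (List.prefix_append _ _) h, fun i hi => ?_⟩
    rw [h (ρ.length + i) (by simp; omega), List.getElem_append_right (by omega)]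
    simp
  · rintro ⟨h1, h2⟩ i hi
    by_cases hlt : i < ρ.length
    · rw [List.getElem_append_left hlt, h1 i hlt]
    · rw [List.getElem_append_right (by omega)]
      have hj : i - ρ.length < τ.length := by
        simp at hi; omega
      rw [← h2 _ hj]
      congr 1
      omega

/-- Flip one bit of a string. -/
def flipAt (τ : List Bool) (i : ℕ) : List Bool := τ.set i (!τ.getD i false)

theorem primrec_flipAt : Primrec₂ flipAt := by
  have h1 : Primrec (fun p : List Bool × ℕ => p.1.getD p.2 false) :=
    Primrec.list_getD false
  have h2 : Primrec (fun p : List Bool × ℕ => (p.2, !p.1.getD p.2 false)) :=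
    Primrec.snd.pair (Primrec.not.comp h1)
  exact Primrec.list_set.comp Primrec.fst h2

theorem flip_mem_cyl {ρ₀ τ τ₂ : List Bool} {W : ℕ → Bool} {i : ℕ} (hi : i < τ.length)
    (hW : W ∈ Cyl (ρ₀ ++ flipAt τ i ++ τ₂)) :
    xorS W (unitS (ρ₀.length + i)) ∈ Cyl (ρ₀ ++ [] ++ τ) := by
  have h1 := cyl_of_prefix (List.prefix_append _ _) hW
  obtain ⟨h2, h3⟩ := mem_cyl_append.1 h1
  rw [List.append_nil, mem_cyl_append]
  refine ⟨fun x hx => ?_, fun x hx => ?_⟩
  · have : x ≠ ρ₀.length + i := by omega
    simp only [xorS, unitS, this, decide_false, Bool.xor_false]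
    exact h2 x hx
  · have hx' : x < (flipAt τ i).length := by simpa [flipAt] using hx
    have h4 := h3 x hx'
    simp only [flipAt, List.getElem_set] at h4
    simp only [xorS, unitS, h4]
    by_cases hxi : x = i
    · subst hxi
      simp [hx]
    · have h5 : i ≠ x := fun h => hxi h.symm
      simp [h5, hxi]

/-- A finite table of computable functions is computable. -/
theorem computable_table (f : ℕ → ℕ → Bool) (N : ℕ) (hf : ∀ j < N, Computable (f j)) :
    ∃ T : ℕ × ℕ → Bool, Computable T ∧ ∀ k, ∀ j < N, T (k, j) = f j k := by
  induction N with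
  | zero => exact ⟨fun _ => false, Computable.const _, fun k j hj => absurd hj (Nat.not_lt_zero _)⟩
  | succ N ih =>
      obtain ⟨T, hT, hT2⟩ := ih fun j hj => hf j (by omega)
      refine ⟨fun p => cond (decide (p.2 = N)) (f N p.1) (T p), ?_, ?_⟩
      · refine Computable.cond ?_ ((hf N (by omega)).comp Computable.fst) hT
        exact (PrimrecPred.decide (Primrec.eq.comp Primrec.snd (Primrec.const N))).to_comp
      · intro k j hj
        by_cases hjN : j = N
        · subst hjN; simp
        · simp only [hjN, decide_false, cond_false]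
          exact hT2 k j (by omega)

theorem computable_of_reducible_unit {Z : ℕ → Bool}
    (hZ : Computable Z) {W : ℕ → Bool} (h : Nat.RecursiveIn {chi Z} (chi W)) : Computable W := by
  have hb : Computable Bool.toNat := (Primrec.dom_finite Bool.toNat).to_comp
  have h1 : Nat.Partrec (chi Z) := by
    have : Computable fun n => (Z n).toNat := hb.comp hZ
    exact Partrec.nat_iff.1 this.partrec
  have h2 : Nat.Partrec (chi W) := Nat.RecursiveIn.partrec_of_oracle (by
    intro g hg
    rw [Set.mem_singleton_iff] at hg
    subst hg
    exact h1) h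
  have h3 : Computable fun n => (W n).toNat := Partrec.nat_iff.2 h2
  have h4 : Computable fun m : ℕ => decide (m = 1) :=
    (PrimrecPred.decide (Primrec.eq.comp Primrec.id (Primrec.const 1))).to_comp
  refine (h4.comp h3).of_eq fun n => ?_
  cases W n <;> rfl

theorem computable_unitS (j : ℕ) : Computable (unitS j) :=
  (PrimrecPred.decide (Primrec.eq.comp Primrec.id (Primrec.const j))).to_comp

/-- **Matrix lemma.** A continuous additive map `L` with `L Y ≤T Y` for all `Y` is given by a
computable row-finite matrix. -/
theorem computable_matrix (L : (ℕ → Bool) → ℕ → Bool)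
    (hadd : ∀ X Y, L (xorS X Y) = xorS (L X) (L Y))
    (hcont : ∀ k, Continuous fun Y => L Y k)
    (hred : ∀ Y, Nat.RecursiveIn {chi Y} (chi (L Y))) :
    ∃ (u : ℕ → ℕ) (B : ℕ × ℕ → Bool), Computable u ∧ Computable B ∧
      ∀ Y k, L Y k = xorSum (u k) (fun j => Y j && B (k, j)) := by
  obtain ⟨c, ρ₀, h⟩ := baire_step L hred
  obtain ⟨Sr, hSr, hSr2⟩ := exists_search c ρ₀ (fun ρ hρ k => exists_ext_value h hρ k)
  have hadd' : ∀ k X Y, L (xorS X Y) k = xor (L X k) (L Y k) := fun k X Y => by rw [hadd]; rfl
  -- the non-uniform table
  obtain ⟨T, hT, hT2⟩ := computable_table (fun j k => L (unitS j) k) ρ₀.length (fun j _ =>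
    computable_of_reducible_unit (computable_unitS j) (hred (unitS j)))
  -- values on cylinders
  have hval : ∀ τ k, ∀ Y ∈ Cyl (ρ₀ ++ τ ++ (Sr (τ, k)).1), (L Y k).toNat = (Sr (τ, k)).2 :=
    fun τ k Y hY => value_on_cyl hcont h
      (ρ := ρ₀ ++ τ ++ (Sr (τ, k)).1)
      ((List.prefix_append _ _).trans (List.prefix_append _ _)) (hSr2 τ k) Y hY
  let base : ℕ → List Bool := fun k => (Sr ([], k)).1
  let a : ℕ → ℕ := fun k => (Sr ([], k)).2
  let N := ρ₀.length
  have hbase : Computable base :=
    Computable.fst.comp (hSr.comp ((Computable.const []).pair Computable.id))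
  have ha : Computable a :=
    Computable.snd.comp (hSr.comp ((Computable.const []).pair Computable.id))
  -- the computed bit of the matrix
  let flipVal : ℕ × ℕ → ℕ := fun p => (Sr (flipAt (base p.1) (p.2 - N), p.1)).2
  have hflipVal : Computable flipVal := by
    have h1 : Computable fun p : ℕ × ℕ => p.2 - N :=
      (Primrec.nat_sub.comp Primrec.snd (Primrec.const N)).to_comp
    have h2 : Computable fun p : ℕ × ℕ => flipAt (base p.1) (p.2 - N) :=
      primrec_flipAt.to_comp.comp (hbase.comp Computable.fst) h1
    exact Computable.snd.comp (hSr.comp (h2.pair Computable.fst))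
  let B : ℕ × ℕ → Bool := fun p =>
    cond (decide (p.2 < N)) (T p) (decide (flipVal p ≠ a p.1))
  have hB : Computable B := by
    refine Computable.cond ?_ hT ?_
    · exact (PrimrecPred.decide (Primrec.nat_lt.comp Primrec.snd (Primrec.const N))).to_comp
    · have h1 : Computable fun q : ℕ × ℕ => decide (q.1 ≠ q.2) :=
        (PrimrecPred.decide (PrimrecPred.not (Primrec.eq.comp Primrec.fst Primrec.snd))).to_comp
      exact h1.comp (hflipVal.pair (ha.comp Computable.fst))
  have hu : Computable fun k => N + (base k).length :=
    (Primrec.nat_add.to_comp).comp (Computable.const N) (Computable.list_length.comp hbase)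
  refine ⟨fun k => N + (base k).length, B, hu, hB, fun Y k => ?_⟩
  -- constant on the base cylinder
  have hconst : ∀ Z ∈ Cyl (ρ₀ ++ [] ++ base k), L Z k = decide (a k = 1) := by
    intro Z hZ
    have := hval [] k Z hZ
    rw [← show (L Z k).toNat = a k from this]
    cases L Z k <;> rfl
  have hform := lam_eq_xorSum (lam := fun Y => L Y k) (fun X Y => hadd' k X Y) hconst Y
  have hlen : (ρ₀ ++ [] ++ base k).length = N + (base k).length := by simp [N]
  rw [hlen] at hform
  rw [hform]
  -- identify the matrix bits
  have hbit : ∀ j, j < N + (base k).length → L (unitS j) k = B (k, j) := by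
    intro j hj
    by_cases hjN : j < N
    · simp only [B, hjN, decide_true, cond_true]
      exact (hT2 k j hjN).symm
    · simp only [B, hjN, decide_false, cond_false]
      -- the flipped computation
      let i := j - N
      have hi : i < (base k).length := by omega
      have hjeq : j = ρ₀.length + i := by simp only [i, N]; omega
      let τ₂ := (Sr (flipAt (base k) i, k)).1
      let W := fill (ρ₀ ++ flipAt (base k) i ++ τ₂)
      have hW : W ∈ Cyl (ρ₀ ++ flipAt (base k) i ++ τ₂) := fill_mem_cyl _
      have h1 : (L W k).toNat = flipVal (k, j) := hval _ k W hW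
      have h2 : xorS W (unitS (ρ₀.length + i)) ∈ Cyl (ρ₀ ++ [] ++ base k) := flip_mem_cyl hi hW
      have h3 := hval [] k _ h2
      rw [hadd', ← hjeq] at h3
      have h3' : (xor (L W k) (L (unitS j) k)).toNat = a k := h3
      rw [← h1, ← h3']
      cases L W k <;> cases L (unitS j) k <;> rfl
  -- finish by congruence
  have hcongr : ∀ (u : ℕ) (f g : ℕ → Bool), (∀ j < u, f j = g j) → xorSum u f = xorSum u g := by
    intro u f g
    induction u with
    | zero => intro _; rfl
    | succ u ih =>
        intro hfg
        simp only [xorSum]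
        rw [ih (fun j hj => hfg j (by omega)), hfg u (by omega)]
  refine hcongr _ _ _ fun j hj => ?_
  rw [hbit j hj]

end Vale.Agent.Lib.P327
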