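import Mathlib

/-! Codes for oracle computations, mirroring `Nat.RecursiveIn`. -/

namespace Vale.Agent.Lib.P327

open Nat Part

/-- Codes for oracle computations (one constructor per constructor of `Nat.RecursiveIn`). -/
inductive OCode : Type
  | zero | succ | left | right | oracle
  | pair (c d : OCode)
  | comp (c d : OCode)
  | prec (c d : OCode)
  | rfind (c : OCode)

/-- Evaluation of an oracle code relative to the partial oracle `g`. -/
def evalO (g : ℕ →. ℕ) : OCode → ℕ →. ℕ
  | .zero => fun _ => 0
  | .succ => Nat.succ
  | .left => fun n => (Nat.unpair n).1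
  | .right => fun n => (Nat.unpair n).2
  | .oracle => g
  | .pair c d => fun n => Nat.pair <$> evalO g c n <*> evalO g d n
  | .comp c d => fun n => evalO g d n >>= evalO g c
  | .prec c d => fun p =>
      let (a, n) := Nat.unpair p
      n.rec (evalO g c a) fun y IH => do
        let i ← IH
        evalO g d (Nat.pair a (Nat.pair y i))
  | .rfind c => fun a =>
      Nat.rfind fun n => (fun m => m = 0) <$> evalO g c (Nat.pair a n)

theorem exists_code_of_recursiveIn {g f : ℕ →. ℕ} (h : Nat.RecursiveIn {g} f) :
    ∃ c, evalO g c = f := by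
  induction h with
  | zero => exact ⟨.zero, rfl⟩
  | succ => exact ⟨.succ, rfl⟩
  | left => exact ⟨.left, rfl⟩
  | right => exact ⟨.right, rfl⟩
  | oracle g' hg =>
      rw [Set.mem_singleton_iff] at hg
      subst hg
      exact ⟨.oracle, rfl⟩
  | pair _ _ ih₁ ih₂ =>
      obtain ⟨c, rfl⟩ := ih₁
      obtain ⟨d, rfl⟩ := ih₂
      exact ⟨.pair c d, rfl⟩
  | comp _ _ ih₁ ih₂ =>
      obtain ⟨c, rfl⟩ := ih₁
      obtain ⟨d, rfl⟩ := ih₂
      exact ⟨.comp c d, rfl⟩
  | prec _ _ ih₁ ih₂ =>
      obtain ⟨c, rfl⟩ := ih₁
      obtain ⟨d, rfl⟩ := ih₂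
      exact ⟨.prec c d, rfl⟩
  | rfind _ ih =>
      obtain ⟨c, rfl⟩ := ih
      exact ⟨.rfind c, rfl⟩

/-- Encoding of oracle codes as natural numbers, used only for countability. -/
def OCode.toNat : OCode → ℕ
  | .zero => 0
  | .succ => 1
  | .left => 2
  | .right => 3
  | .oracle => 4
  | .pair c d => 5 * (Nat.pair c.toNat d.toNat) + 5
  | .comp c d => 5 * (Nat.pair c.toNat d.toNat) + 6
  | .prec c d => 5 * (Nat.pair c.toNat d.toNat) + 7
  | .rfind c => 5 * c.toNat + 8

theorem OCode.toNat_injective : Function.Injective OCode.toNat := by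
  intro c
  induction c with
  | zero => intro d h; cases d <;> first | rfl | (exfalso; simp only [toNat] at h; omega)
  | succ => intro d h; cases d <;> first | rfl | (exfalso; simp only [toNat] at h; omega)
  | left => intro d h; cases d <;> first | rfl | (exfalso; simp only [toNat] at h; omega)
  | right => intro d h; cases d <;> first | rfl | (exfalso; simp only [toNat] at h; omega)
  | oracle => intro d h; cases d <;> first | rfl | (exfalso; simp only [toNat] at h; omega)
  | pair c d ihc ihd =>
      intro e h
      cases e <;> simp [toNat] at h <;> try omega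
      rw [ihc h.1, ihd h.2]
  | comp c d ihc ihd =>
      intro e h
      cases e <;> simp [toNat] at h <;> try omega
      rw [ihc h.1, ihd h.2]
  | prec c d ihc ihd =>
      intro e h
      cases e <;> simp [toNat] at h <;> try omega
      rw [ihc h.1, ihd h.2]
  | rfind c ihc =>
      intro e h
      cases e <;> simp [toNat] at h <;> try omega
      rw [ihc (by omega)]

instance : Countable OCode := OCode.toNat_injective.countable

end Vale.Agent.Lib.P327
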