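import Vale.Agent.Lib.P327.OCode
import Vale.Agent.Lib.P327.Defs

namespace Vale.Agent.Lib.P327

open Nat Part

section mem

variable {g : ℕ →. ℕ}

theorem mem_evalO_zero {n m : ℕ} : m ∈ evalO g .zero n ↔ m = 0 := by
  show m ∈ (0 : Part ℕ) ↔ _
  exact Part.mem_some_iff

theorem mem_evalO_pair {c d : OCode} {n m : ℕ} :
    m ∈ evalO g (.pair c d) n ↔ ∃ a ∈ evalO g c n, ∃ b ∈ evalO g d n, m = Nat.pair a b := by
  simp only [evalO, Seq.seq, Part.mem_bind_iff, Functor.map, Part.mem_map_iff]
  constructor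
  · rintro ⟨f, ⟨a, ha, rfl⟩, b, hb, rfl⟩
    exact ⟨a, ha, b, hb, rfl⟩
  · rintro ⟨a, ha, b, hb, rfl⟩
    exact ⟨_, ⟨a, ha, rfl⟩, b, hb, rfl⟩

theorem mem_evalO_comp {c d : OCode} {n m : ℕ} :
    m ∈ evalO g (.comp c d) n ↔ ∃ a ∈ evalO g d n, m ∈ evalO g c a := by
  simp only [evalO, bind]
  exact Part.mem_bind_iff

/-- The primitive recursion operator, as a function of its two arguments. -/
def precVal (g : ℕ →. ℕ) (c d : OCode) (a : ℕ) : ℕ → Part ℕ
  | 0 => evalO g c a
  | y + 1 => (precVal g c d a y).bind fun i => evalO g d (Nat.pair a (Nat.pair y i))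

theorem evalO_prec {c d : OCode} {a n : ℕ} :
    evalO g (.prec c d) (Nat.pair a n) = precVal g c d a n := by
  simp only [evalO, Nat.unpair_pair]
  induction n with
  | zero => rfl
  | succ y ih =>
      simp only [precVal, ← ih]
      rfl

theorem evalO_prec' {c d : OCode} {p : ℕ} :
    evalO g (.prec c d) p = precVal g c d p.unpair.1 p.unpair.2 := by
  conv_lhs => rw [← Nat.pair_unpair p]
  exact evalO_prec

theorem mem_evalO_rfind {c : OCode} {a m : ℕ} :
    m ∈ evalO g (.rfind c) a ↔
      0 ∈ evalO g c (Nat.pair a m) ∧ ∀ k < m, ∃ v, v ≠ 0 ∧ v ∈ evalO g c (Nat.pair a k) := by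
  refine Nat.mem_rfind.trans ?_
  simp only [Functor.map, Part.mem_map_iff, decide_eq_true_eq, decide_eq_false_iff_not]
  constructor
  · rintro ⟨⟨v, hv, rfl⟩, h⟩
    refine ⟨hv, fun k hk => ?_⟩
    obtain ⟨v, hv, hv0⟩ := h hk
    exact ⟨v, hv0, hv⟩
  · rintro ⟨h0, h⟩
    refine ⟨⟨0, h0, rfl⟩, fun {k} hk => ?_⟩
    obtain ⟨v, hv0, hv⟩ := h k hk
    exact ⟨v, hv, hv0⟩

end mem

/-- `O₂` extends the partial oracle `O₁`. -/
def Ext (O₁ O₂ : ℕ →. ℕ) : Prop := ∀ n m, m ∈ O₁ n → m ∈ O₂ n

theorem evalO_mono {O₁ O₂ : ℕ →. ℕ} (h : Ext O₁ O₂) (c : OCode) :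
    ∀ n m, m ∈ evalO O₁ c n → m ∈ evalO O₂ c n := by
  induction c with
  | zero => exact fun n m hm => hm
  | succ => exact fun n m hm => hm
  | left => exact fun n m hm => hm
  | right => exact fun n m hm => hm
  | oracle => exact h
  | pair c d ihc ihd =>
      intro n m hm
      rw [mem_evalO_pair] at hm ⊢
      obtain ⟨a, ha, b, hb, rfl⟩ := hm
      exact ⟨a, ihc _ _ ha, b, ihd _ _ hb, rfl⟩
  | comp c d ihc ihd =>
      intro n m hm
      rw [mem_evalO_comp] at hm ⊢
      obtain ⟨a, ha, hb⟩ := hm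
      exact ⟨a, ihd _ _ ha, ihc _ _ hb⟩
  | prec c d ihc ihd =>
      intro p m hm
      rw [evalO_prec'] at hm ⊢
      generalize p.unpair.1 = a at hm ⊢
      generalize p.unpair.2 = n at hm ⊢
      induction n generalizing m with
      | zero => exact ihc _ _ hm
      | succ y ih =>
          simp only [precVal, Part.mem_bind_iff] at hm ⊢
          obtain ⟨i, hi, hm⟩ := hm
          exact ⟨i, ih _ hi, ihd _ _ hm⟩
  | rfind c ihc =>
      intro n m hm
      rw [mem_evalO_rfind] at hm ⊢
      obtain ⟨h0, h1⟩ := hm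
      refine ⟨ihc _ _ h0, fun k hk => ?_⟩
      obtain ⟨v, hv0, hv⟩ := h1 k hk
      exact ⟨v, hv0, ihc _ _ hv⟩

/-- The partial oracle given by a finite binary string. -/
def ora (ρ : List Bool) : ℕ →. ℕ := fun n => ((ρ[n]?).map Bool.toNat : Option ℕ)

theorem mem_ora {ρ : List Bool} {n m : ℕ} :
    m ∈ ora ρ n ↔ ∃ b, ρ[n]? = Option.some b ∧ Bool.toNat b = m := by
  simp only [ora, Part.mem_ofOption, Option.mem_def, Option.map_eq_some_iff]

theorem ora_ext_of_prefix {ρ τ : List Bool} (h : ρ <+: τ) : Ext (ora ρ) (ora τ) := by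
  intro n m hm
  rw [mem_ora] at hm ⊢
  obtain ⟨b, hb, rfl⟩ := hm
  refine ⟨b, ?_, rfl⟩
  obtain ⟨t, rfl⟩ := h
  rw [List.getElem?_append_left]
  · exact hb
  · exact (List.getElem?_eq_some_iff.1 hb).1

/-- The initial segment of length `u` of the sequence `Y`. -/
def pref (Y : ℕ → Bool) (u : ℕ) : List Bool := (List.range u).map Y

theorem pref_getElem? {Y : ℕ → Bool} {u n : ℕ} :
    (pref Y u)[n]? = if n < u then Option.some (Y n) else Option.none := by
  simp only [pref, List.getElem?_map]
  split_ifs with h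
  · rw [List.getElem?_range h]; rfl
  · rw [List.getElem?_eq_none (by simpa using h)]; rfl

theorem mem_chi {Y : ℕ → Bool} {n m : ℕ} : m ∈ chi Y n ↔ (Y n).toNat = m := by
  simp only [chi, Part.mem_some_iff]
  exact eq_comm

theorem ext_pref_chi (Y : ℕ → Bool) (u : ℕ) : Ext (ora (pref Y u)) (chi Y) := by
  intro n m hm
  rw [mem_ora, pref_getElem?] at hm
  obtain ⟨b, hb, rfl⟩ := hm
  rw [mem_chi]
  split_ifs at hb with h
  simp only [Option.some.injEq] at hb
  rw [hb]

theorem ext_pref_pref (Y : ℕ → Bool) {u v : ℕ} (h : u ≤ v) :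
    Ext (ora (pref Y u)) (ora (pref Y v)) := by
  intro n m hm
  rw [mem_ora, pref_getElem?] at hm ⊢
  obtain ⟨b, hb, rfl⟩ := hm
  refine ⟨b, ?_, rfl⟩
  split_ifs at hb with h'
  rw [if_pos (by omega), hb]

/-- The use principle: a convergent computation from a total oracle only queries a finite part. -/
theorem use_principle (Y : ℕ → Bool) (c : OCode) :
    ∀ n m, m ∈ evalO (chi Y) c n → ∃ u, m ∈ evalO (ora (pref Y u)) c n := by
  induction c with
  | zero => exact fun n m hm => ⟨0, hm⟩
  | succ => exact fun n m hm => ⟨0, hm⟩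
  | left => exact fun n m hm => ⟨0, hm⟩
  | right => exact fun n m hm => ⟨0, hm⟩
  | oracle =>
      intro n m hm
      refine ⟨n + 1, ?_⟩
      show m ∈ ora (pref Y (n + 1)) n
      rw [mem_ora, pref_getElem?, if_pos (by omega)]
      exact ⟨_, rfl, (mem_chi.1 hm)⟩
  | pair c d ihc ihd =>
      intro n m hm
      rw [mem_evalO_pair] at hm
      obtain ⟨a, ha, b, hb, rfl⟩ := hm
      obtain ⟨u₁, h₁⟩ := ihc _ _ ha
      obtain ⟨u₂, h₂⟩ := ihd _ _ hb
      refine ⟨max u₁ u₂, ?_⟩
      rw [mem_evalO_pair]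
      exact ⟨a, evalO_mono (ext_pref_pref Y (le_max_left _ _)) _ _ _ h₁,
        b, evalO_mono (ext_pref_pref Y (le_max_right _ _)) _ _ _ h₂, rfl⟩
  | comp c d ihc ihd =>
      intro n m hm
      rw [mem_evalO_comp] at hm
      obtain ⟨a, ha, hb⟩ := hm
      obtain ⟨u₁, h₁⟩ := ihd _ _ ha
      obtain ⟨u₂, h₂⟩ := ihc _ _ hb
      refine ⟨max u₁ u₂, ?_⟩
      rw [mem_evalO_comp]
      exact ⟨a, evalO_mono (ext_pref_pref Y (le_max_left _ _)) _ _ _ h₁,
        evalO_mono (ext_pref_pref Y (le_max_right _ _)) _ _ _ h₂⟩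
  | prec c d ihc ihd =>
      intro p m hm
      rw [evalO_prec'] at hm
      simp only [evalO_prec']
      generalize p.unpair.1 = a at hm ⊢
      generalize p.unpair.2 = n at hm ⊢
      induction n generalizing m with
      | zero => exact ihc _ _ hm
      | succ y ih =>
          simp only [precVal, Part.mem_bind_iff] at hm ⊢
          obtain ⟨i, hi, hm⟩ := hm
          obtain ⟨u₁, h₁⟩ := ih _ hi
          obtain ⟨u₂, h₂⟩ := ihd _ _ hm
          refine ⟨max u₁ u₂, i, ?_, evalO_mono (ext_pref_pref Y (le_max_right _ _)) _ _ _ h₂⟩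
          rw [← evalO_prec] at h₁ ⊢
          exact evalO_mono (ext_pref_pref Y (le_max_left _ _)) _ _ _ h₁
  | rfind c ihc =>
      intro n m hm
      rw [mem_evalO_rfind] at hm
      obtain ⟨h0, h1⟩ := hm
      have key : ∀ m' ≤ m, ∃ u, ∀ k < m', ∃ v, v ≠ 0 ∧ v ∈ evalO (ora (pref Y u)) c (Nat.pair n k) := by
        intro m'
        induction m' with
        | zero => exact fun _ => ⟨0, fun k hk => absurd hk (Nat.not_lt_zero _)⟩
        | succ y ih =>
            intro hy
            obtain ⟨u₁, h₁⟩ := ih (by omega)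
            obtain ⟨v, hv0, hv⟩ := h1 y (by omega)
            obtain ⟨u₂, h₂⟩ := ihc _ _ hv
            refine ⟨max u₁ u₂, fun k hk => ?_⟩
            rcases Nat.lt_succ_iff_lt_or_eq.1 hk with hk | rfl
            · obtain ⟨v', hv0', hv'⟩ := h₁ k hk
              exact ⟨v', hv0', evalO_mono (ext_pref_pref Y (le_max_left _ _)) _ _ _ hv'⟩
            · exact ⟨v, hv0, evalO_mono (ext_pref_pref Y (le_max_right _ _)) _ _ _ h₂⟩
      obtain ⟨u₁, h₁⟩ := key m le_rfl
      obtain ⟨u₂, h₂⟩ := ihc _ _ h0
      refine ⟨max u₁ u₂, ?_⟩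
      rw [mem_evalO_rfind]
      refine ⟨evalO_mono (ext_pref_pref Y (le_max_right _ _)) _ _ _ h₂, fun k hk => ?_⟩
      obtain ⟨v', hv0', hv'⟩ := h₁ k hk
      exact ⟨v', hv0', evalO_mono (ext_pref_pref Y (le_max_left _ _)) _ _ _ hv'⟩

/-- For a fixed code, evaluation is partial recursive in (a parameter of) a partial
recursive family of oracles. -/
theorem partrec_evalO {α : Type} [Primcodable α] {O : α → ℕ →. ℕ} (hO : Partrec₂ O) (c : OCode) :
    Partrec₂ fun a n => evalO (O a) c n := by
  induction c with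
  | zero =>
      exact ((Computable.const 0 : Computable fun _ : α × ℕ => (0 : ℕ)).partrec).of_eq
        (fun _ => rfl)
  | succ =>
      exact ((Computable.succ.comp Computable.snd : Computable fun p : α × ℕ => Nat.succ p.2).partrec).of_eq
        (fun _ => rfl)
  | left =>
      exact ((Computable.fst.comp (Computable.unpair.comp Computable.snd) :
        Computable fun p : α × ℕ => (Nat.unpair p.2).1).partrec).of_eq (fun _ => rfl)
  | right =>
      exact ((Computable.snd.comp (Computable.unpair.comp Computable.snd) :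
        Computable fun p : α × ℕ => (Nat.unpair p.2).2).partrec).of_eq (fun _ => rfl)
  | oracle => exact hO
  | pair c d ihc ihd =>
      have h : Partrec fun p : α × ℕ => (evalO (O p.1) c p.2).bind fun x =>
          (evalO (O p.1) d p.2).map fun y => Nat.pair x y :=
        Partrec.bind ihc
          (Partrec.map (ihd.comp (Computable.fst.comp Computable.fst) (Computable.snd.comp Computable.fst))
            ((Primrec₂.natPair.to_comp).comp (Computable.snd.comp Computable.fst)
              Computable.snd).to₂).to₂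
      refine h.of_eq fun p => ?_
      simp [evalO, Seq.seq]
  | comp c d ihc ihd =>
      have h : Partrec fun p : α × ℕ => (evalO (O p.1) d p.2).bind fun x =>
          evalO (O p.1) c x :=
        Partrec.bind ihd
          (ihc.comp (Computable.fst.comp Computable.fst) Computable.snd).to₂
      exact h
  | prec c d ihc ihd =>
      have h : Partrec fun p : α × ℕ =>
          (p.2.unpair.2).rec (evalO (O p.1) c p.2.unpair.1) fun y IH => IH.bind fun i =>
            evalO (O p.1) d (Nat.pair p.2.unpair.1 (Nat.pair y i)) :=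
        Partrec.nat_rec (Computable.snd.comp (Computable.unpair.comp Computable.snd))
          (ihc.comp Computable.fst (Computable.fst.comp (Computable.unpair.comp Computable.snd)))
          (ihd.comp (Computable.fst.comp Computable.fst)
            ((Primrec₂.natPair.to_comp).comp
              (Computable.fst.comp (Computable.unpair.comp (Computable.snd.comp Computable.fst)))
              ((Primrec₂.natPair.to_comp).comp (Computable.fst.comp Computable.snd)
                (Computable.snd.comp Computable.snd)))).to₂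
      exact h
  | rfind c ihc =>
      have hdec : Computable fun m : ℕ => decide (m = 0) :=
        (PrimrecPred.decide (Primrec.eq.comp Primrec.id (Primrec.const 0))).to_comp
      have h : Partrec fun p : α × ℕ => Nat.rfind fun n =>
          (evalO (O p.1) c (Nat.pair p.2 n)).map fun m => decide (m = 0) :=
        Partrec.rfind
          (Partrec.map
            (ihc.comp (Computable.fst.comp Computable.fst)
              ((Primrec₂.natPair.to_comp).comp (Computable.snd.comp Computable.fst)
                Computable.snd))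
            (hdec.comp Computable.snd).to₂).to₂
      exact h

end Vale.Agent.Lib.P327
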