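import Vale.Agent.Lib.P327.Main

namespace Vale.Agent.Lib.P327

open Nat Part

/-- Decode a natural number to a string (the empty string for junk). -/
def strOf (w : ℕ) : List Bool := (Encodable.decode (α := List Bool) w).getD []

theorem strOf_encode (σ : List Bool) : strOf (Encodable.encode σ) = σ := by
  simp [strOf, Encodable.encodek]

theorem computable_strOf : Computable strOf :=
  Computable.option_getD Computable.decode (Computable.const [])

/-- One step of the prefix computation. -/
def prefStep (w : ℕ) : ℕ :=
  Encodable.encode (strOf w.unpair.1.unpair.2.unpair.2 ++ [decide (w.unpair.2 = 1)])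

theorem computable_prefStep : Computable prefStep := by
  have hu : Computable Nat.unpair := Computable.unpair
  have h1 : Computable fun w : ℕ => strOf w.unpair.1.unpair.2.unpair.2 :=
    computable_strOf.comp
      (Computable.snd.comp (hu.comp (Computable.snd.comp (hu.comp (Computable.fst.comp hu)))))
  have h2 : Computable fun w : ℕ => decide (w.unpair.2 = 1) :=
    (PrimrecPred.decide (Primrec.eq.comp (Primrec.snd.comp Primrec.unpair)
      (Primrec.const 1))).to_comp
  have h3 := Computable.list_concat.comp h1 h2
  have h4 := Computable.encode.comp h3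
  exact h4

/-- The query position in the prefix computation. -/
def prefQuery (q : ℕ) : ℕ := q.unpair.2.unpair.1

theorem computable_prefQuery : Computable prefQuery := by
  have hu : Computable Nat.unpair := Computable.unpair
  have h := Computable.fst.comp (hu.comp (Computable.snd.comp hu))
  exact h

theorem prefix_recursiveIn (Y : ℕ → Bool) :
    Nat.RecursiveIn {chi Y} (fun m => Part.some (Encodable.encode (pref Y m))) := by
  set O : Set (ℕ →. ℕ) := {chi Y} with hO
  have hQ : Nat.RecursiveIn O (fun q => Part.some (prefQuery q)) :=
    recIn_of_computable computable_prefQuery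
  have hG : Nat.RecursiveIn O (fun q => Part.some (prefStep q)) :=
    recIn_of_computable computable_prefStep
  have hId : Nat.RecursiveIn O (fun q => Part.some q) := recIn_of_computable Computable.id
  have hOr : Nat.RecursiveIn O (chi Y) := .oracle _ rfl
  have hh : Nat.RecursiveIn O
      (fun q => Part.some (prefStep (Nat.pair q (Y (prefQuery q)).toNat))) := by
    refine (Nat.RecursiveIn.comp hG (Nat.RecursiveIn.pair hId (Nat.RecursiveIn.comp hOr hQ))).of_eq ?_
    intro q
    have h1 : (Part.some (prefQuery q) >>= chi Y) =
        Part.some (Y (prefQuery q)).toNat := Part.bind_some _ _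
    simp only [Seq.seq, Functor.map, h1]
    simp [Part.bind_eq_bind]
  have hzero : Nat.RecursiveIn O (fun _ => Part.some (Encodable.encode ([] : List Bool))) :=
    recIn_of_computable (Computable.const _)
  have hA := Nat.RecursiveIn.prec hzero hh
  have hval : ∀ a n, (Nat.rec (motive := fun _ => Part ℕ)
      (Part.some (Encodable.encode ([] : List Bool)))
      (fun y IH => IH.bind fun i =>
        Part.some (prefStep (Nat.pair (Nat.pair a (Nat.pair y i))
          (Y (prefQuery (Nat.pair a (Nat.pair y i)))).toNat))) n : Part ℕ) =
      Part.some (Encodable.encode (pref Y n)) := by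
    intro a n
    induction n with
    | zero => rfl
    | succ n ih =>
        simp only [ih, Part.bind_some]
        congr 1
        simp only [prefStep, prefQuery, Nat.unpair_pair, strOf_encode]
        congr 1
        simp only [pref, List.range_succ, List.map_append, List.map_cons, List.map_nil]
        congr 2
        cases Y n <;> rfl
  have hpairFn : Computable fun n : ℕ => Nat.pair 0 n :=
    (Primrec₂.natPair.to_comp).comp (Computable.const 0) Computable.id
  refine (Nat.RecursiveIn.comp hA (recIn_of_computable hpairFn)).of_eq ?_
  intro n
  show (Part.some (Nat.pair 0 n)).bind _ = _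
  rw [Part.bind_some]
  simp only [Nat.unpair_pair]
  exact hval 0 n

/-- `T` with its arguments packed in one number. -/
def packT (T : ℕ × ℕ × List Bool → Option ℕ) (z : ℕ) : Option ℕ :=
  T (z.unpair.1.unpair.1, z.unpair.1.unpair.2, strOf z.unpair.2)

theorem computable_packT {T : ℕ × ℕ × List Bool → Option ℕ} (hT : Computable T) :
    Computable (packT T) := by
  have hu : Computable Nat.unpair := Computable.unpair
  have h1 : Computable fun z : ℕ => z.unpair.1.unpair.1 :=
    Computable.fst.comp (hu.comp (Computable.fst.comp hu))
  have h2 : Computable fun z : ℕ => z.unpair.1.unpair.2 :=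
    Computable.snd.comp (hu.comp (Computable.fst.comp hu))
  have h3 : Computable fun z : ℕ => strOf z.unpair.2 :=
    computable_strOf.comp (Computable.snd.comp hu)
  have := hT.comp (h1.pair (h2.pair h3))
  exact this

/-- Zero test on the packed `T`. -/
def testT (T : ℕ × ℕ × List Bool → Option ℕ) (z : ℕ) : ℕ :=
  Option.casesOn (packT T z) 1 (fun _ => 0)

/-- Answer of the packed `T`. -/
def outT (T : ℕ × ℕ × List Bool → Option ℕ) (z : ℕ) : ℕ := (packT T z).getD 0

theorem packT_eq (T : ℕ × ℕ × List Bool → Option ℕ) (Y : ℕ → Bool) (a n : ℕ) :
    packT T (Nat.pair (Nat.pair a n) (Encodable.encode (pref Y (Nat.pair a n).unpair.2))) =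
      T (a, n, pref Y n) := by
  simp only [packT, Nat.unpair_pair, strOf_encode]

/-- **Oracle search.** If a computable test on initial segments of `Y` eventually answers, and
every answer is correct, then the answers are computable from `Y`. -/
theorem oracle_search {Y : ℕ → Bool} {T : ℕ × ℕ × List Bool → Option ℕ} (hT : Computable T)
    {V : ℕ → ℕ}
    (hsome : ∀ a, ∃ s v, T (a, s, pref Y s) = Option.some v)
    (hval : ∀ a s v, T (a, s, pref Y s) = Option.some v → v = V a) :
    Nat.RecursiveIn {chi Y} (fun a => Part.some (V a)) := by
  set O : Set (ℕ →. ℕ) := {chi Y} with hO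
  have hP := prefix_recursiveIn Y
  have hId : Nat.RecursiveIn O (fun q => Part.some q) := recIn_of_computable Computable.id
  have hR : Nat.RecursiveIn O (fun q => Part.some q.unpair.2) :=
    recIn_of_computable (Computable.snd.comp Computable.unpair)
  have hU := computable_packT hT
  have htest : Computable (testT T) :=
    Computable.option_casesOn hU (Computable.const 1) (Computable.const 0)
  have hout : Computable (outT T) := Computable.option_getD hU (Computable.const 0)
  have hsupply : ∀ {g : ℕ → ℕ}, Computable g →
      Nat.RecursiveIn O (fun w => Part.some (g (Nat.pair w (Encodable.encode (pref Y w.unpair.2))))) := by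
    intro g hg
    refine (Nat.RecursiveIn.comp (recIn_of_computable hg)
      (Nat.RecursiveIn.pair hId (Nat.RecursiveIn.comp hP hR))).of_eq ?_
    intro w
    have h1 : (Part.some w.unpair.2 >>= fun m => Part.some (Encodable.encode (pref Y m))) =
        Part.some (Encodable.encode (pref Y w.unpair.2)) := Part.bind_some _ _
    simp only [Seq.seq, Functor.map, h1]
    simp [Part.bind_eq_bind]
  have hf := hsupply htest
  have hr := Nat.RecursiveIn.rfind hf
  have hg := hsupply hout
  have hfinal := Nat.RecursiveIn.comp hg (Nat.RecursiveIn.pair hId hr)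
  refine hfinal.of_eq ?_
  intro a
  let p : ℕ → Bool := fun n =>
    decide ((testT T (Nat.pair (Nat.pair a n) (Encodable.encode (pref Y (Nat.pair a n).unpair.2))) : ℕ) = 0)
  have hpeq : (fun n => (fun m => decide (m = 0)) <$>
      (fun w => Part.some (testT T (Nat.pair w (Encodable.encode (pref Y w.unpair.2)))))
        (Nat.pair a n)) = (p : ℕ →. Bool) := by
    funext n
    simp [p]
  obtain ⟨s₀, v₀, hs₀⟩ := hsome a
  have hps₀ : p s₀ = true := by
    simp only [p, testT, packT_eq, hs₀]
    rfl
  obtain ⟨s, hs, -⟩ := Nat.rfind_min' (p := p) (m := s₀) (by simpa using hps₀)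
  have hps : p s = true := by
    have := Nat.rfind_spec hs
    simpa using this
  have hT' : ∃ v, T (a, s, pref Y s) = Option.some v := by
    have h1 : testT T (Nat.pair (Nat.pair a s) (Encodable.encode (pref Y (Nat.pair a s).unpair.2))) = 0 := by
      simpa [p] using hps
    simp only [testT, packT_eq] at h1
    cases hc : T (a, s, pref Y s) with
    | none => rw [hc] at h1; simp at h1
    | some v => exact ⟨v, rfl⟩
  obtain ⟨v, hv⟩ := hT'
  have hvV := hval a s v hv
  refine Part.eq_some_iff.2 ?_
  have hs' : s ∈ Nat.rfind (fun n => (fun m => decide (m = 0)) <$>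
      (fun w => Part.some (testT T (Nat.pair w (Encodable.encode (pref Y w.unpair.2)))))
        (Nat.pair a n)) := by
    rw [hpeq]
    exact hs
  have hpair : Nat.pair a s ∈ (Nat.pair <$> Part.some a <*> Nat.rfind (fun n =>
      (fun m => decide (m = 0)) <$>
      (fun w => Part.some (testT T (Nat.pair w (Encodable.encode (pref Y w.unpair.2)))))
        (Nat.pair a n))) := by
    simp only [Seq.seq, Functor.map]
    simp only [Part.mem_bind_iff, Part.mem_map_iff]
    exact ⟨_, ⟨a, Part.mem_some a, rfl⟩, s, hs', rfl⟩
  refine Part.mem_bind_iff.2 ⟨_, hpair, ?_⟩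
  have hout' : outT T (Nat.pair (Nat.pair a s) (Encodable.encode (pref Y (Nat.pair a s).unpair.2))) = V a := by
    simp only [outT, packT_eq, hv, Option.getD_some, hvV]
  rw [hout']
  exact Part.mem_some _

end Vale.Agent.Lib.P327
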