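import Vale.Agent.Lib.P327.RCalc

/-! Category arguments: pullback of residual sets along open maps and the uniformization lemma. -/

namespace Vale.Agent.Lib.P327

open Nat Part Filter Topology

theorem bits_add_apply (X Y : Bits) (n : ℕ) : (X + Y) n = xor (X n) (Y n) := rfl

theorem bits_add_self (X : Bits) : X + X = 0 := by
  funext n
  show xor (X n) (X n) = false
  simp

theorem bits_add_cancel (X Y : Bits) : X + Y + Y = X := by
  rw [add_assoc, bits_add_self, add_zero]

/-- Pullback of residual sets along continuous additive surjections. -/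
theorem pull_add {A B : Type} [AddGroup A] [TopologicalSpace A] [IsTopologicalAddGroup A]
    [SigmaCompactSpace A] [AddGroup B] [TopologicalSpace B] [BaireSpace B] [T2Space B]
    [ContinuousAdd B] (f : A → B) (hadd : ∀ x y, f (x + y) = f x + f y)
    (hs : Function.Surjective f) (hc : Continuous f) {p : B → Prop}
    (h : ∀ᶠ y in residual B, p y) : ∀ᶠ x in residual A, p (f x) := by
  let f' : A →+ B := AddMonoidHom.mk' f hadd
  have ho : IsOpenMap f := f'.isOpenMap_of_sigmaCompact hs hc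
  exact (tendsto_residual_of_isOpenMap hc ho).eventually h

/-- Pullback of residual sets along translations. -/
theorem pull_translate (Q : Bits) {p : Bits → Prop} (h : ∀ᶠ y in residual Bits, p y) :
    ∀ᶠ x in residual Bits, p (x + Q) := by
  have hc : Continuous fun x : Bits => x + Q := continuous_id.add continuous_const
  have ho : IsOpenMap fun x : Bits => x + Q := (Homeomorph.addRight Q).isOpenMap
  exact (tendsto_residual_of_isOpenMap hc ho).eventually h

theorem exists_generic {A : Type} [TopologicalSpace A] [BaireSpace A] {p : A → Prop}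
    (h : ∀ᶠ x in residual A, p x) {U : Set A} (hU : IsOpen U) (hne : U.Nonempty) :
    ∃ x ∈ U, p x := by
  obtain ⟨x, hx1, hx2⟩ := (dense_of_mem_residual h).inter_open_nonempty U hU hne
  exact ⟨x, hx1, hx2⟩

theorem isOpen_conv (e : OCode) (n v : ℕ) : IsOpen {Z : Bits | v ∈ evalO (chi Z) e n} := by
  refine isOpen_iff_forall_mem_open.2 fun Z hZ => ?_
  obtain ⟨s, hs⟩ := use_principle _ e _ _ hZ
  refine ⟨Cyl (pref Z s), fun Z' hZ' => ?_, isOpen_cyl _, pref_mem_cyl _ _⟩
  exact evalO_mono (ext_of_mem_cyl hZ') e _ _ hs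

theorem code_eq_iff {Y Z : Bits} {e : OCode} :
    evalO (chi Y) e = chi Z ↔ ∀ n, (Z n).toNat ∈ evalO (chi Y) e n := by
  constructor
  · intro h n
    rw [h]
    exact mem_chi.2 rfl
  · intro h
    funext n
    exact Part.eq_some_iff.2 (h n)

section unif

variable {A : Type} [TopologicalSpace A] [BaireSpace A] [MeasurableSpace A] [BorelSpace A]

theorem measurableSet_code {Ψ Φ : A → Bits} (hΨ : Measurable Ψ) (hΦ : Measurable Φ) (e : OCode) :
    MeasurableSet {x | evalO (chi (Ψ x)) e = chi (Φ x)} := by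
  have h : {x | evalO (chi (Ψ x)) e = chi (Φ x)} =
      ⋂ n, (({x | Φ x n = true} ∩ Ψ ⁻¹' {Z | 1 ∈ evalO (chi Z) e n}) ∪
        ({x | Φ x n = false} ∩ Ψ ⁻¹' {Z | 0 ∈ evalO (chi Z) e n})) := by
    ext x
    simp only [Set.mem_ofPred_eq, Set.mem_iInter, Set.mem_union, Set.mem_inter_iff, Set.mem_preimage]
    rw [code_eq_iff]
    refine forall_congr' fun n => ?_
    cases Φ x n <;> simp
  rw [h]
  refine MeasurableSet.iInter fun n => ?_
  have hb : ∀ b, MeasurableSet {x | Φ x n = b} := fun b =>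
    ((measurable_pi_apply n).comp hΦ) (measurableSet_singleton b)
  exact ((hb true).inter (hΨ (isOpen_conv e n 1).measurableSet)).union
    ((hb false).inter (hΨ (isOpen_conv e n 0).measurableSet))

/-- **Uniformization.** A measurable relation of reducibility holding generically on an open set
holds by one code, generically on a smaller open set. -/
theorem uniformize {Ψ Φ : A → Bits} (hΨ : Measurable Ψ) (hΦ : Measurable Φ) {U : Set A}
    (hU : IsOpen U) (hne : U.Nonempty) (h : ∀ᶠ x in residual A, x ∈ U → Rd (Φ x) (Ψ x)) :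
    ∃ (e : OCode) (V : Set A), IsOpen V ∧ V.Nonempty ∧ V ⊆ U ∧
      ∀ᶠ x in residual A, x ∈ V → evalO (chi (Ψ x)) e = chi (Φ x) := by
  have hS := fun e => (measurableSet_code hΨ hΦ e).residualEq_isOpen
  choose O hO hSO using hS
  have hgen : ∀ᶠ x in residual A, ∀ e, evalO (chi (Ψ x)) e = chi (Φ x) ↔ x ∈ O e :=
    eventually_countable_forall.2 fun e => (hSO e).mem_iff
  obtain ⟨x, hxU, hx1, hx2⟩ := exists_generic (h.and hgen) hU hne
  obtain ⟨e, he⟩ := hx1 hxU
  refine ⟨e, O e ∩ U, (hO e).inter hU, ⟨x, (hx2 e).1 he, hxU⟩, Set.inter_subset_right, ?_⟩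
  filter_upwards [hgen] with y hy hyV
  exact (hy e).2 hyV.1

end unif

/-- The cylinder around a base point. -/
def Cy (Y₀ : Bits) (u : ℕ) : Set Bits := {Y | ∀ i < u, Y i = Y₀ i}

theorem cy_eq_cyl (Y₀ : Bits) (u : ℕ) : Cy Y₀ u = Cyl (pref Y₀ u) := by
  ext Y
  constructor
  · intro h i hi
    rw [pref_getElem]
    exact h i (by rwa [pref_length] at hi)
  · intro h i hi
    have := h i (by rwa [pref_length])
    rwa [pref_getElem] at this

theorem isOpen_cy (Y₀ : Bits) (u : ℕ) : IsOpen (Cy Y₀ u) := by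
  rw [cy_eq_cyl]
  exact isOpen_cyl _

theorem isClosed_cy (Y₀ : Bits) (u : ℕ) : IsClosed (Cy Y₀ u) := by
  have h : Cy Y₀ u = ⋂ i ∈ Finset.range u, (fun Y : Bits => Y i) ⁻¹' {Y₀ i} := by
    ext Y
    simp [Cy]
  rw [h]
  exact isClosed_biInter fun i _ => (isClosed_discrete _).preimage (continuous_apply i)

theorem self_mem_cy (Y₀ : Bits) (u : ℕ) : Y₀ ∈ Cy Y₀ u := fun _ _ => rfl

theorem cy_nonempty (Y₀ : Bits) (u : ℕ) : (Cy Y₀ u).Nonempty := ⟨Y₀, self_mem_cy _ _⟩

theorem cy_mono {Y₀ : Bits} {u v : ℕ} (h : u ≤ v) : Cy Y₀ v ⊆ Cy Y₀ u :=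
  fun _ hY i hi => hY i (by omega)

theorem cy_of_mem {Y₀ Y₁ : Bits} {u v : ℕ} (h : u ≤ v) (h₁ : Y₁ ∈ Cy Y₀ u) : Cy Y₁ v ⊆ Cy Y₀ u :=
  fun _ hY i hi => (hY i (by omega)).trans (h₁ i hi)

theorem exists_cy_subset {U : Set Bits} (hU : IsOpen U) {Y : Bits} (hY : Y ∈ U) :
    ∃ u, Cy Y u ⊆ U := by
  obtain ⟨u, hu⟩ := exists_cyl_subset hU hY
  exact ⟨u, by rwa [cy_eq_cyl]⟩

/-- Around a point of an open set of the triple product there is a box of equal side lengths, and
all longer side lengths work as well. -/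
theorem exists_box3 {V : Set (Bits × Bits × Bits)} (hV : IsOpen V) {x : Bits × Bits × Bits}
    (hx : x ∈ V) : ∃ L, ∀ y : Bits × Bits × Bits,
      y.1 ∈ Cy x.1 L → y.2.1 ∈ Cy x.2.1 L → y.2.2 ∈ Cy x.2.2 L → y ∈ V := by
  obtain ⟨U₁, U₂, hU₁, hU₂, hx₁, hx₂, hsub⟩ := isOpen_prod_iff.1 hV x.1 x.2 hx
  obtain ⟨W₁, W₂, hW₁, hW₂, hy₁, hy₂, hsub₂⟩ := isOpen_prod_iff.1 hU₂ x.2.1 x.2.2 hx₂
  obtain ⟨a, ha⟩ := exists_cy_subset hU₁ hx₁
  obtain ⟨b, hb⟩ := exists_cy_subset hW₁ hy₁
  obtain ⟨c, hc⟩ := exists_cy_subset hW₂ hy₂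
  refine ⟨max a (max b c), fun y h1 h2 h3 => ?_⟩
  refine hsub ⟨ha (cy_mono (le_max_left _ _) h1), hsub₂ ⟨hb (cy_mono ?_ h2), hc (cy_mono ?_ h3)⟩⟩
  · exact (le_max_left _ _).trans (le_max_right _ _)
  · exact (le_max_right _ _).trans (le_max_right _ _)

end Vale.Agent.Lib.P327
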