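import Vale.Agent.Lib.P327.RLemL

/-! A measurable function is generically computable from its argument and a fixed parameter. -/

namespace Vale.Agent.Lib.P327

open Nat Part Filter Topology

/-- The first value found among `f 0, …, f (s - 1)`. -/
def firstSome (f : ℕ → Option ℕ) : ℕ → Option ℕ
  | 0 => Option.none
  | s + 1 => firstSome f s <|> f s

theorem computable_firstSome {α : Type} [Primcodable α] {f : α → ℕ → Option ℕ}
    (hf : Computable fun p : α × ℕ => f p.1 p.2) :
    Computable fun p : α × ℕ => firstSome (f p.1) p.2 := by
  have hstep : Computable₂ (fun (q : α × ℕ) (r : ℕ × Option ℕ) => r.2 <|> f q.1 r.1) := by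
    have h1 : Computable fun x : (α × ℕ) × ℕ × Option ℕ => f x.1.1 x.2.1 := by
      have := hf.comp ((Computable.fst.comp Computable.fst).pair
        (Computable.fst.comp (Computable.snd :
          Computable fun x : (α × ℕ) × ℕ × Option ℕ => x.2)))
      exact this
    have h2 := (Primrec.option_orElse.to_comp).comp
      (Computable.snd.comp Computable.snd :
        Computable fun x : (α × ℕ) × ℕ × Option ℕ => x.2.2) h1
    exact h2
  refine (Computable.nat_rec Computable.snd (Computable.const Option.none) hstep).of_eq fun p => ?_
  generalize p.2 = s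
  induction s with
  | zero => rfl
  | succ s ih =>
      simp only [firstSome]
      rw [← ih]

theorem firstSome_sound {f : ℕ → Option ℕ} {s a : ℕ} (h : firstSome f s = Option.some a) :
    ∃ w, f w = Option.some a := by
  induction s with
  | zero => simp [firstSome] at h
  | succ s ih =>
      simp only [firstSome] at h
      cases hc : firstSome f s with
      | none =>
          rw [hc] at h
          exact ⟨s, h⟩
      | some b =>
          rw [hc] at h
          have h' : Option.some b = Option.some a := h
          cases h'
          exact ih hc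

theorem firstSome_isSome {f : ℕ → Option ℕ} {s w a : ℕ} (hw : w < s)
    (h : f w = Option.some a) : (firstSome f s).isSome := by
  induction s with
  | zero => exact absurd hw (Nat.not_lt_zero _)
  | succ s ih =>
      simp only [firstSome]
      cases hc : firstSome f s with
      | none =>
          rcases Nat.lt_succ_iff_lt_or_eq.1 hw with hlt | rfl
          · have := ih hlt
            rw [hc] at this
            simp at this
          · simp [h]
      | some b => simp

/-- The even part of a string, up to `u`. -/
def evenStr (ρ : List Bool) (u : ℕ) : List Bool :=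
  (List.range u).map fun i => ρ.getD (2 * i) false

/-- The position in the table for the string `σ`, the argument `n`, and the value `b`. -/
def tabPos (σ : List Bool) (n b : ℕ) : ℕ := 2 * Nat.pair (Encodable.encode σ) (Nat.pair n b) + 1

/-- The test of the candidate `w` on the string `ρ`. -/
def tstB (p : ℕ × List Bool) (w : ℕ) : Option ℕ :=
  cond (decide (2 * w.unpair.1 ≤ p.2.length) &&
      (decide (tabPos (evenStr p.2 w.unpair.1) p.1 w.unpair.2 < p.2.length) &&
        p.2.getD (tabPos (evenStr p.2 w.unpair.1) p.1 w.unpair.2) false))
    (Option.some w.unpair.2) Option.none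

theorem primrec_evenStr : Primrec fun p : List Bool × ℕ => evenStr p.1 p.2 := by
  have h2 : Primrec₂ (fun (p : List Bool × ℕ) (i : ℕ) => p.1.getD (2 * i) false) :=
    (Primrec.list_getD false).comp (Primrec.fst.comp Primrec.fst)
      (Primrec.nat_mul.comp (Primrec.const 2) Primrec.snd)
  exact Primrec.list_map (Primrec.list_range.comp Primrec.snd) h2

theorem primrec_tabPos : Primrec fun p : List Bool × ℕ × ℕ => tabPos p.1 p.2.1 p.2.2 := by
  have h1 : Primrec fun p : List Bool × ℕ × ℕ =>
      Nat.pair (Encodable.encode p.1) (Nat.pair p.2.1 p.2.2) :=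
    Primrec₂.natPair.comp (Primrec.encode.comp Primrec.fst)
      (Primrec₂.natPair.comp (Primrec.fst.comp Primrec.snd) (Primrec.snd.comp Primrec.snd))
  exact Primrec.succ.comp (Primrec.nat_mul.comp (Primrec.const 2) h1)

theorem computable_tstB : Computable fun q : (ℕ × List Bool) × ℕ => tstB q.1 q.2 := by
  have hu : Primrec fun q : (ℕ × List Bool) × ℕ => q.2.unpair.1 :=
    Primrec.fst.comp (Primrec.unpair.comp Primrec.snd)
  have hb : Primrec fun q : (ℕ × List Bool) × ℕ => q.2.unpair.2 :=
    Primrec.snd.comp (Primrec.unpair.comp Primrec.snd)
  have hρ : Primrec fun q : (ℕ × List Bool) × ℕ => q.1.2 :=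
    Primrec.snd.comp Primrec.fst
  have hn : Primrec fun q : (ℕ × List Bool) × ℕ => q.1.1 :=
    Primrec.fst.comp Primrec.fst
  have hpos : Primrec fun q : (ℕ × List Bool) × ℕ =>
      tabPos (evenStr q.1.2 q.2.unpair.1) q.1.1 q.2.unpair.2 :=
    primrec_tabPos.comp ((primrec_evenStr.comp (hρ.pair hu)).pair (hn.pair hb))
  have hc1 : Primrec fun q : (ℕ × List Bool) × ℕ => decide (2 * q.2.unpair.1 ≤ q.1.2.length) :=
    PrimrecPred.decide (Primrec.nat_le.comp (Primrec.nat_mul.comp (Primrec.const 2) hu)
      (Primrec.list_length.comp hρ))
  have hc2 : Primrec fun q : (ℕ × List Bool) × ℕ =>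
      decide (tabPos (evenStr q.1.2 q.2.unpair.1) q.1.1 q.2.unpair.2 < q.1.2.length) :=
    PrimrecPred.decide (Primrec.nat_lt.comp hpos (Primrec.list_length.comp hρ))
  have hc3 : Primrec fun q : (ℕ × List Bool) × ℕ =>
      q.1.2.getD (tabPos (evenStr q.1.2 q.2.unpair.1) q.1.1 q.2.unpair.2) false :=
    (Primrec.list_getD false).comp hρ hpos
  have hand : Primrec fun p : Bool × Bool => p.1 && p.2 := Primrec.dom_finite _
  have hc := hand.comp (hc1.pair (hand.comp (hc2.pair hc3)))
  have hs : Primrec fun q : (ℕ × List Bool) × ℕ => Option.some q.2.unpair.2 :=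
    Primrec.option_some.comp hb
  exact (Primrec.cond hc hs (Primrec.const Option.none)).to_comp

theorem evenStr_pref (X c : Bits) {u s : ℕ} (h : 2 * u ≤ s) :
    evenStr (pref (jn X c) s) u = pref X u := by
  refine List.ext_getElem (by simp [evenStr, pref_length]) fun i h1 h2 => ?_
  have hi : i < u := by simpa [evenStr] using h1
  simp only [evenStr, List.getElem_map, List.getElem_range]
  rw [List.getD_eq_getElem _ _ (by rw [pref_length]; omega), pref_getElem, jn_even, pref_getElem]

/-- A measurable function is, generically, computable from its argument and one fixed parameter. -/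
theorem exists_bound (F : Bits → Bits) (hF : Measurable F) :
    ∃ c : Bits, ∀ᶠ X in residual Bits, Rd (F X) (jn X c) := by
  classical
  have hS : ∀ n b : ℕ, MeasurableSet {X | (F X n).toNat = b} := by
    intro n b
    have h1 : Measurable fun X => (F X n).toNat :=
      (measurable_from_top (f := Bool.toNat)).comp ((measurable_pi_apply n).comp hF)
    exact h1 (measurableSet_singleton b)
  have hO := fun n b => (hS n b).residualEq_isOpen
  choose O hO hSO using hO
  have hgen : ∀ᶠ X in residual Bits, ∀ n b, (F X n).toNat = b ↔ X ∈ O n b :=
    eventually_countable_forall.2 fun n => eventually_countable_forall.2 fun b =>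
      (hSO n b).mem_iff
  let c : Bits := fun m => decide (Cyl (strOf m.unpair.1) ⊆ O m.unpair.2.unpair.1 m.unpair.2.unpair.2)
  have hc : ∀ σ n b, c (Nat.pair (Encodable.encode σ) (Nat.pair n b)) = true ↔ Cyl σ ⊆ O n b := by
    intro σ n b
    simp only [c, Nat.unpair_pair, strOf_encode, decide_eq_true_eq]
  refine ⟨c, ?_⟩
  filter_upwards [hgen] with X hX
  let T : ℕ × ℕ × List Bool → Option ℕ := fun q => firstSome (tstB (q.1, q.2.2)) q.2.1
  have hT : Computable T := by
    have h0 := computable_firstSome (α := ℕ × List Bool) (f := tstB) computable_tstB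
    have := h0.comp ((Computable.fst.pair (Computable.snd.comp Computable.snd)).pair
      (Computable.fst.comp Computable.snd))
    exact this
  refine rd_iff_recursiveIn.2 ?_
  refine oracle_search (Y := jn X c) (V := fun n => (F X n).toNat) hT ?_ ?_
  · intro a
    have hXO : X ∈ O a (F X a).toNat := (hX a _).1 rfl
    obtain ⟨u, hu⟩ := exists_cyl_subset (hO _ _) hXO
    set b := (F X a).toNat with hb
    set w := Nat.pair u b with hw
    set p := tabPos (pref X u) a b with hp
    let s := 2 * u + p + w + 1
    have hsp : (pref (jn X c) s).length = s := pref_length _ _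
    have heven : evenStr (pref (jn X c) s) u = pref X u := evenStr_pref X c (by simp only [s]; omega)
    have hval : tstB (a, pref (jn X c) s) w = Option.some b := by
      simp only [tstB, hw, Nat.unpair_pair, heven, hsp]
      have h1 : 2 * u ≤ s := by simp only [s]; omega
      have h2 : tabPos (pref X u) a b < s := by
        rw [← hp]
        simp only [s]
        omega
      have h3 : (pref (jn X c) s).getD (tabPos (pref X u) a b) false = true := by
        rw [List.getD_eq_getElem _ _ (by rw [hsp]; exact h2), pref_getElem]
        simp only [tabPos]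
        rw [jn_odd]
        exact (hc _ _ _).2 hu
      rw [h3]
      simp [h1, h2]
    obtain ⟨v, hv⟩ := Option.isSome_iff_exists.1 (firstSome_isSome
      (f := tstB (a, pref (jn X c) s)) (show w < s by simp only [s]; omega) hval)
    exact ⟨s, v, hv⟩
  · intro a s v hv
    obtain ⟨w, hw⟩ := firstSome_sound hv
    simp only [tstB] at hw
    cases hcond : (decide (2 * w.unpair.1 ≤ (pref (jn X c) s).length) &&
      (decide (tabPos (evenStr (pref (jn X c) s) w.unpair.1) a w.unpair.2 < (pref (jn X c) s).length) &&
        (pref (jn X c) s).getD (tabPos (evenStr (pref (jn X c) s) w.unpair.1) a w.unpair.2) false)) with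
    | false =>
        rw [hcond] at hw
        simp at hw
    | true =>
        rw [hcond] at hw
        simp only [cond_true, Option.some.injEq] at hw
        simp only [Bool.and_eq_true, decide_eq_true_eq] at hcond
        obtain ⟨h1, h2, h3⟩ := hcond
        rw [pref_length] at h1 h2
        rw [evenStr_pref X c h1] at h2 h3
        rw [List.getD_eq_getElem _ _ (by rw [pref_length]; exact h2), pref_getElem] at h3
        simp only [tabPos] at h3
        rw [jn_odd] at h3
        have h4 := (hc _ _ _).1 h3
        have h5 := h4 (pref_mem_cyl X w.unpair.1)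
        rw [← hw]
        exact ((hX a _).2 h5).symm

end Vale.Agent.Lib.P327
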