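import Vale.Agent.Lib.P327.Baire

/-! A small calculus of uniform Turing reductions along families of oracles. -/

namespace Vale.Agent.Lib.P327

open Nat Part

/-- Cantor space. -/
abbrev Bits : Type := ℕ → Bool

/-- Substitution of a code for the oracle. -/
def substO (d : OCode) : OCode → OCode
  | .zero => .zero
  | .succ => .succ
  | .left => .left
  | .right => .right
  | .oracle => d
  | .pair a b => .pair (substO d a) (substO d b)
  | .comp a b => .comp (substO d a) (substO d b)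
  | .prec a b => .prec (substO d a) (substO d b)
  | .rfind a => .rfind (substO d a)

theorem evalO_substO (g : ℕ →. ℕ) (d e : OCode) :
    evalO g (substO d e) = evalO (evalO g d) e := by
  induction e with
  | zero => rfl
  | succ => rfl
  | left => rfl
  | right => rfl
  | oracle => rfl
  | pair a b iha ihb => simp only [substO, evalO, iha, ihb]; rfl
  | comp a b iha ihb => simp only [substO, evalO, iha, ihb]; rfl
  | prec a b iha ihb => simp only [substO, evalO, iha, ihb]; rfl
  | rfind a iha => simp only [substO, evalO, iha]; rfl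

theorem exists_code_of_partrec {f : ℕ →. ℕ} (hf : Nat.Partrec f) :
    ∃ c : OCode, ∀ g, evalO g c = f := by
  induction hf with
  | zero => exact ⟨.zero, fun _ => rfl⟩
  | succ => exact ⟨.succ, fun _ => rfl⟩
  | left => exact ⟨.left, fun _ => rfl⟩
  | right => exact ⟨.right, fun _ => rfl⟩
  | pair _ _ ih₁ ih₂ =>
      obtain ⟨c, hc⟩ := ih₁
      obtain ⟨d, hd⟩ := ih₂
      exact ⟨.pair c d, fun g => by simp only [evalO, hc, hd]; rfl⟩
  | comp _ _ ih₁ ih₂ =>
      obtain ⟨c, hc⟩ := ih₁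
      obtain ⟨d, hd⟩ := ih₂
      exact ⟨.comp c d, fun g => by simp only [evalO, hc, hd]; rfl⟩
  | prec _ _ ih₁ ih₂ =>
      obtain ⟨c, hc⟩ := ih₁
      obtain ⟨d, hd⟩ := ih₂
      refine ⟨.prec c d, fun g => ?_⟩
      funext p
      simp only [evalO, hc, hd]
  | rfind _ ih =>
      obtain ⟨c, hc⟩ := ih
      exact ⟨.rfind c, fun g => by simp only [evalO, hc]; rfl⟩

theorem exists_code_of_computable {f : ℕ → ℕ} (hf : Computable f) :
    ∃ c : OCode, ∀ g n, evalO g c n = Part.some (f n) := by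
  obtain ⟨c, hc⟩ := exists_code_of_partrec (Partrec.nat_iff.1 hf.partrec)
  exact ⟨c, fun g n => by rw [hc]; rfl⟩

theorem recursiveIn_of_code (g : ℕ →. ℕ) (c : OCode) : Nat.RecursiveIn {g} (evalO g c) := by
  induction c with
  | zero => exact .zero
  | succ => exact .succ
  | left => exact .left
  | right => exact .right
  | oracle => exact .oracle _ rfl
  | pair a b iha ihb => exact .pair iha ihb
  | comp a b iha ihb => exact .comp iha ihb
  | prec a b iha ihb =>
      refine (Nat.RecursiveIn.prec iha ihb).of_eq fun p => ?_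
      simp only [evalO]
  | rfind a iha => exact .rfind iha

/-- `X` is Turing reducible to `Y`. -/
def Rd (X Y : Bits) : Prop := ∃ e : OCode, evalO (chi Y) e = chi X

theorem rd_iff_recursiveIn {X Y : Bits} : Rd X Y ↔ Nat.RecursiveIn {chi Y} (chi X) :=
  ⟨fun ⟨e, he⟩ => he ▸ recursiveIn_of_code _ e, exists_code_of_recursiveIn⟩

/-- `Fam Ω Φ`: one oracle code computes `Φ a` from `Ω a`, uniformly in `a`. -/
def Fam {A : Type} (Ω Φ : A → Bits) : Prop := ∃ e : OCode, ∀ a, evalO (chi (Ω a)) e = chi (Φ a)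

section fam

variable {A : Type} {Ω Φ Φ₁ Φ₂ Ψ : A → Bits}

theorem Fam.refl (Ω : A → Bits) : Fam Ω Ω := ⟨.oracle, fun _ => rfl⟩

theorem Fam.trans (h₁ : Fam Ω Φ) (h₂ : Fam Φ Ψ) : Fam Ω Ψ := by
  obtain ⟨d, hd⟩ := h₁
  obtain ⟨e, he⟩ := h₂
  exact ⟨substO d e, fun a => by rw [evalO_substO, hd, he]⟩

theorem Fam.of_eq (h : Fam Ω Φ) (h' : ∀ a, Φ a = Ψ a) : Fam Ω Ψ := by
  obtain ⟨e, he⟩ := h
  exact ⟨e, fun a => by rw [he, h']⟩

theorem Fam.comap {A' : Type} (f : A' → A) (h : Fam Ω Φ) :
    Fam (fun a => Ω (f a)) (fun a => Φ (f a)) := by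
  obtain ⟨e, he⟩ := h
  exact ⟨e, fun a => he (f a)⟩

theorem Fam.reindex (h : Fam Ω Φ) {g : ℕ → ℕ} (hg : Computable g) :
    Fam Ω (fun a i => Φ a (g i)) := by
  obtain ⟨e, he⟩ := h
  obtain ⟨c, hc⟩ := exists_code_of_computable hg
  refine ⟨.comp e c, fun a => ?_⟩
  funext i
  apply Part.eq_some_iff.2
  rw [mem_evalO_comp]
  refine ⟨g i, ?_, ?_⟩
  · rw [hc]; exact Part.mem_some _
  · rw [he]; exact Part.mem_some _

theorem Fam.const {r : Bits} (hr : Computable r) : Fam Ω (fun _ => r) := by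
  have hb : Computable Bool.toNat := (Primrec.dom_finite Bool.toNat).to_comp
  obtain ⟨c, hc⟩ := exists_code_of_computable (hb.comp hr)
  exact ⟨c, fun a => by funext n; rw [hc]; rfl⟩

theorem Fam.map2 (g : Bool → Bool → Bool) (h₁ : Fam Ω Φ₁) (h₂ : Fam Ω Φ₂) :
    Fam Ω (fun a i => g (Φ₁ a i) (Φ₂ a i)) := by
  obtain ⟨e₁, he₁⟩ := h₁
  obtain ⟨e₂, he₂⟩ := h₂
  let h' : ℕ → ℕ := fun n => (g (decide (n.unpair.1 = 1)) (decide (n.unpair.2 = 1))).toNat
  have hh' : Computable h' := by
    have hg : Primrec fun p : Bool × Bool => (g p.1 p.2).toNat := Primrec.dom_finite _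
    have h1 : Primrec fun n : ℕ => decide (n.unpair.1 = 1) :=
      PrimrecPred.decide (Primrec.eq.comp (Primrec.fst.comp Primrec.unpair) (Primrec.const 1))
    have h2 : Primrec fun n : ℕ => decide (n.unpair.2 = 1) :=
      PrimrecPred.decide (Primrec.eq.comp (Primrec.snd.comp Primrec.unpair) (Primrec.const 1))
    exact (hg.comp (h1.pair h2)).to_comp
  obtain ⟨c, hc⟩ := exists_code_of_computable hh'
  refine ⟨.comp c (.pair e₁ e₂), fun a => ?_⟩
  funext i
  apply Part.eq_some_iff.2
  rw [mem_evalO_comp]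
  refine ⟨Nat.pair (Φ₁ a i).toNat (Φ₂ a i).toNat, ?_, ?_⟩
  · rw [mem_evalO_pair]
    refine ⟨_, ?_, _, ?_, rfl⟩
    · rw [he₁]; exact Part.mem_some _
    · rw [he₂]; exact Part.mem_some _
  · rw [hc]
    simp only [h', Nat.unpair_pair]
    cases Φ₁ a i <;> cases Φ₂ a i <;> simp

end fam

/-- Join of two sequences, even positions first. -/
def jn (X Y : Bits) : Bits := fun m => cond m.bodd (Y m.div2) (X m.div2)

theorem jn_even (X Y : Bits) (i : ℕ) : jn X Y (2 * i) = X i := by
  simp [jn]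

theorem jn_odd (X Y : Bits) (i : ℕ) : jn X Y (2 * i + 1) = Y i := by
  simp [jn]

section fam

variable {A : Type} {Ω Φ Φ₁ Φ₂ Ψ : A → Bits}

theorem computable_div2 : Computable Nat.div2 := by
  have h : Primrec fun n : ℕ => n / 2 := Primrec.nat_div.comp Primrec.id (Primrec.const 2)
  exact h.to_comp.of_eq fun n => (Nat.div2_val n).symm

theorem computable_bodd : Computable Nat.bodd := Primrec.nat_bodd.to_comp

theorem Fam.join (h₁ : Fam Ω Φ₁) (h₂ : Fam Ω Φ₂) : Fam Ω (fun a => jn (Φ₁ a) (Φ₂ a)) := by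
  have hm : Fam Ω (fun _ => Nat.bodd) := Fam.const computable_bodd
  have h1 := h₁.reindex computable_div2
  have h2 := h₂.reindex computable_div2
  have h3 := Fam.map2 (fun b c => (!b) && c) hm h1
  have h4 := Fam.map2 (fun b c => b && c) hm h2
  refine (Fam.map2 (fun b c => b || c) h3 h4).of_eq fun a => ?_
  funext m
  simp only [jn]
  cases m.bodd <;> simp

theorem Fam.join_left (Φ₁ Φ₂ : A → Bits) : Fam (fun a => jn (Φ₁ a) (Φ₂ a)) Φ₁ := by
  have hg : Computable fun i : ℕ => 2 * i :=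
    (Primrec.nat_mul.comp (Primrec.const 2) Primrec.id).to_comp
  refine ((Fam.refl _).reindex hg).of_eq fun a => ?_
  funext i
  exact jn_even _ _ _

theorem Fam.join_right (Φ₁ Φ₂ : A → Bits) : Fam (fun a => jn (Φ₁ a) (Φ₂ a)) Φ₂ := by
  have hg : Computable fun i : ℕ => 2 * i + 1 :=
    (Primrec.succ.comp (Primrec.nat_mul.comp (Primrec.const 2) Primrec.id)).to_comp
  refine ((Fam.refl _).reindex hg).of_eq fun a => ?_
  funext i
  exact jn_odd _ _ _

/-- A constant bit of a family. -/
theorem Fam.bit (h : Fam Ω Φ) (i : ℕ) : Fam Ω (fun a _ => Φ a i) :=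
  h.reindex (Computable.const i)

end fam

/-- Membership in a cylinder as a boolean. -/
def cyT (α Y : Bits) : ℕ → Bool
  | 0 => true
  | w + 1 => cyT α Y w && (Y w == α w)

theorem cyT_iff {α Y : Bits} {w : ℕ} : cyT α Y w = true ↔ ∀ i < w, Y i = α i := by
  induction w with
  | zero => simp [cyT]
  | succ w ih =>
      simp only [cyT, Bool.and_eq_true, ih, beq_iff_eq]
      constructor
      · rintro ⟨h1, h2⟩ i hi
        rcases Nat.lt_succ_iff_lt_or_eq.1 hi with h | rfl
        · exact h1 i h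
        · exact h2
      · intro h
        exact ⟨fun i hi => h i (by omega), h w (by omega)⟩

section fam

variable {A : Type} {Ω Φ : A → Bits}

theorem Fam.test (h : Fam Ω Φ) (α : Bits) (w : ℕ) : Fam Ω (fun a _ => cyT α (Φ a) w) := by
  induction w with
  | zero => exact (Fam.const (r := fun _ => true) (Computable.const true)).of_eq fun a => rfl
  | succ w ih =>
      have h1 : Fam Ω (fun _ _ => α w) := Fam.const (r := fun _ => α w) (Computable.const _)
      have h2 := Fam.map2 (fun b c => b == c) (h.bit w) h1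
      exact (Fam.map2 (fun b c => b && c) ih h2).of_eq fun a => rfl

/-- `pick t K`: a selected index below `K + 1`, namely the largest one at which `t` holds,
or `0`. -/
def pick (t : ℕ → Bool) : ℕ → ℕ
  | 0 => 0
  | K + 1 => cond (t (K + 1)) (K + 1) (pick t K)

theorem pick_spec (t : ℕ → Bool) (K k : ℕ) (hk : k ≤ K) (ht : t k = true) : t (pick t K) = true := by
  induction K with
  | zero =>
      have : k = 0 := by omega
      subst this
      exact ht
  | succ K ih =>
      simp only [pick]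
      cases h : t (K + 1) with
      | true => simpa using h
      | false =>
          simp only [cond_false]
          rcases Nat.lt_succ_iff_lt_or_eq.1 (Nat.lt_succ_of_le hk) with h' | rfl
          · exact ih (by omega)
          · exact absurd ht (by simp [h])

theorem pick_le (t : ℕ → Bool) (K : ℕ) : pick t K ≤ K := by
  induction K with
  | zero => exact le_rfl
  | succ K ih =>
      simp only [pick]
      cases t (K + 1) <;> simp; omega

/-- Selection among finitely many families by tests computed uniformly. -/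
theorem Fam.select {t : A → ℕ → Bool} {G : A → ℕ → Bits} (K : ℕ)
    (ht : ∀ k ≤ K, Fam Ω (fun a _ => t a k)) (hG : ∀ k ≤ K, Fam Ω (fun a => G a k)) :
    Fam Ω (fun a => G a (pick (t a) K)) := by
  induction K with
  | zero => exact hG 0 le_rfl
  | succ K ih =>
      have h0 := ih (fun k hk => ht k (by omega)) (fun k hk => hG k (by omega))
      have h1 := Fam.map2 (fun b c => b && c) (ht (K + 1) le_rfl) (hG (K + 1) le_rfl)
      have h2 := Fam.map2 (fun b c => (!b) && c) (ht (K + 1) le_rfl) h0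
      refine (Fam.map2 (fun b c => b || c) h1 h2).of_eq fun a => ?_
      funext i
      simp only [pick]
      cases t a (K + 1) <;> simp

end fam

section rd

variable {X Y Z : Bits}

theorem Rd.refl (X : Bits) : Rd X X := ⟨.oracle, rfl⟩

theorem Rd.trans (h₁ : Rd X Y) (h₂ : Rd Y Z) : Rd X Z := by
  obtain ⟨d, hd⟩ := h₁
  obtain ⟨e, he⟩ := h₂
  exact ⟨substO e d, by rw [evalO_substO, he, hd]⟩

theorem fam_unit_iff : Fam (fun _ : Unit => Y) (fun _ => X) ↔ Rd X Y :=
  ⟨fun ⟨e, he⟩ => ⟨e, he ()⟩, fun ⟨e, he⟩ => ⟨e, fun _ => he⟩⟩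

theorem Rd.fam {A : Type} {Ω : A → Bits} (h : Rd X Y) (h' : Fam Ω (fun _ => Y)) :
    Fam Ω (fun _ => X) := by
  obtain ⟨e, he⟩ := h
  obtain ⟨d, hd⟩ := h'
  exact ⟨substO d e, fun a => by rw [evalO_substO, hd, he]⟩

theorem Fam.rd {A : Type} {Ω Φ : A → Bits} (h : Fam Ω Φ) (a : A) : Rd (Φ a) (Ω a) := by
  obtain ⟨e, he⟩ := h
  exact ⟨e, he a⟩

theorem rd_left (X Y : Bits) : Rd X (jn X Y) :=
  (Fam.join_left (fun _ : Unit => X) (fun _ => Y)).rd ()

theorem rd_right (X Y : Bits) : Rd Y (jn X Y) :=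
  (Fam.join_right (fun _ : Unit => X) (fun _ => Y)).rd ()

theorem rd_jn (h₁ : Rd X Z) (h₂ : Rd Y Z) : Rd (jn X Y) Z := by
  have h1 := fam_unit_iff.2 h₁
  have h2 := fam_unit_iff.2 h₂
  exact (Fam.join h1 h2).rd ()

theorem rd_of_computable {r : Bits} (hr : Computable r) (Y : Bits) : Rd r Y :=
  (Fam.const (Ω := fun _ : Unit => Y) hr).rd ()

theorem rd_map2 (g : Bool → Bool → Bool) {X₁ X₂ : Bits} (h₁ : Rd X₁ Y) (h₂ : Rd X₂ Y) :
    Rd (fun i => g (X₁ i) (X₂ i)) Y := by
  have h1 := fam_unit_iff.2 h₁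
  have h2 := fam_unit_iff.2 h₂
  exact (Fam.map2 g h1 h2).rd ()

theorem rd_reindex {g : ℕ → ℕ} (hg : Computable g) (h : Rd X Y) : Rd (fun i => X (g i)) Y := by
  have h1 := fam_unit_iff.2 h
  exact (h1.reindex hg).rd ()

end rd

end Vale.Agent.Lib.P327
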