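import Vale.Agent.Lib.P327.RCalc
import Vale.Agent.Lib.P327.Iterate

/-! Iteration of a single oracle code along a sequence of oracles. -/

namespace Vale.Agent.Lib.P327

open Nat Part

section defs

variable (E : ℕ → List Bool → ℕ → Option ℕ)

/-- The longest initial segment of output bits found within fuel `s`, among the first `m` bits. -/
def growB (s : ℕ) (σ : List Bool) : ℕ → List Bool
  | 0 => []
  | k + 1 => cond (decide ((growB s σ k).length = k))
      (Option.casesOn (valE E σ k s) (growB s σ k) (fun a => growB s σ k ++ [decide (a = 1)]))
      (growB s σ k)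

/-- The approximation to the `i`-th iterate from the string `ρ`. -/
def apx (s : ℕ) (ρ : List Bool) : ℕ → List Bool
  | 0 => ρ
  | i + 1 => growB E s (apx s ρ i) s

end defs

section computability

variable {E : ℕ → List Bool → ℕ → Option ℕ}
  (hE : Computable (fun p : ℕ × List Bool × ℕ => E p.1 p.2.1 p.2.2))

include hE

theorem computable_growB :
    Computable fun p : (ℕ × List Bool) × ℕ => growB E p.1.1 p.1.2 p.2 := by
  have hV := computable_valE hE
  have hstep : Computable₂ (fun (q : (ℕ × List Bool) × ℕ) (r : ℕ × List Bool) =>
      cond (decide (r.2.length = r.1))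
        (Option.casesOn (valE E q.1.2 r.1 q.1.1) r.2 (fun a => r.2 ++ [decide (a = 1)])) r.2) := by
    have hl : Computable fun x : ((ℕ × List Bool) × ℕ) × ℕ × List Bool => x.2.2 :=
      Computable.snd.comp Computable.snd
    have hk : Computable fun x : ((ℕ × List Bool) × ℕ) × ℕ × List Bool => x.2.1 :=
      Computable.fst.comp Computable.snd
    have hdec : Computable fun q : ℕ × ℕ => decide (q.1 = q.2) :=
      (PrimrecPred.decide (Primrec.eq.comp Primrec.fst Primrec.snd)).to_comp
    have h1 : Computable fun x : ((ℕ × List Bool) × ℕ) × ℕ × List Bool =>
        decide (x.2.2.length = x.2.1) := by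
      have := hdec.comp ((Computable.list_length.comp hl).pair hk)
      exact this
    have h2 : Computable fun x : ((ℕ × List Bool) × ℕ) × ℕ × List Bool =>
        valE E x.1.1.2 x.2.1 x.1.1.1 := by
      have := hV.comp (((Computable.snd.comp (Computable.fst.comp Computable.fst)).pair hk).pair
        (Computable.fst.comp (Computable.fst.comp Computable.fst)))
      exact this
    have hd1 : Computable fun a : ℕ => decide (a = 1) :=
      (PrimrecPred.decide (Primrec.eq.comp Primrec.id (Primrec.const 1))).to_comp
    have h3 : Computable₂ (fun (x : ((ℕ × List Bool) × ℕ) × ℕ × List Bool) (a : ℕ) =>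
        x.2.2 ++ [decide (a = 1)]) := by
      have := Computable.list_concat.comp (hl.comp Computable.fst) (hd1.comp Computable.snd)
      exact this
    have h4 := Computable.option_casesOn h2 hl h3
    have h5 := Computable.cond h1 h4 hl
    exact h5
  refine (Computable.nat_rec Computable.snd (Computable.const []) hstep).of_eq fun p => ?_
  generalize p.2 = m
  induction m with
  | zero => rfl
  | succ m ih =>
      simp only [growB]
      rw [← ih]

theorem computable_apx :
    Computable fun p : (List Bool × ℕ) × ℕ => apx E p.1.2 p.1.1 p.2 := by
  have hG := computable_growB hE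
  have hstep : Computable₂ (fun (q : (List Bool × ℕ) × ℕ) (r : ℕ × List Bool) =>
      growB E q.1.2 r.2 q.1.2) := by
    have hs : Computable fun x : ((List Bool × ℕ) × ℕ) × ℕ × List Bool => x.1.1.2 :=
      Computable.snd.comp (Computable.fst.comp Computable.fst)
    have hl : Computable fun x : ((List Bool × ℕ) × ℕ) × ℕ × List Bool => x.2.2 :=
      Computable.snd.comp Computable.snd
    have := hG.comp ((hs.pair hl).pair hs)
    exact this
  refine (Computable.nat_rec Computable.snd (Computable.fst.comp Computable.fst) hstep).of_eq
    fun p => ?_
  generalize p.2 = i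
  induction i with
  | zero => rfl
  | succ i ih =>
      simp only [apx]
      rw [← ih]

end computability

section facts

variable {E : ℕ → List Bool → ℕ → Option ℕ}

theorem growB_succ_of_ne {s : ℕ} {σ : List Bool} {m : ℕ} (h : (growB E s σ m).length ≠ m) :
    growB E s σ (m + 1) = growB E s σ m := by
  simp only [growB, decide_eq_false h, cond_false]

theorem growB_succ_none {s : ℕ} {σ : List Bool} {m : ℕ} (h : (growB E s σ m).length = m)
    (hb : valE E σ m s = Option.none) : growB E s σ (m + 1) = growB E s σ m := by
  simp only [growB, decide_eq_true h, cond_true, hb]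

theorem growB_succ_some {s : ℕ} {σ : List Bool} {m a : ℕ} (h : (growB E s σ m).length = m)
    (hb : valE E σ m s = Option.some a) :
    growB E s σ (m + 1) = growB E s σ m ++ [decide (a = 1)] := by
  simp only [growB, decide_eq_true h, cond_true, hb]

theorem growB_prefix (s : ℕ) (σ : List Bool) (m : ℕ) :
    ∀ j, j < (growB E s σ m).length →
      ∃ a, valE E σ j s = Option.some a ∧ (growB E s σ m).getD j false = decide (a = 1) := by
  induction m with
  | zero => intro j hj; simp [growB] at hj
  | succ m ih =>
      intro j hj
      by_cases hlen : (growB E s σ m).length = m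
      · cases hb : valE E σ m s with
        | none =>
            rw [growB_succ_none hlen hb] at hj ⊢
            exact ih j hj
        | some b =>
            rw [growB_succ_some hlen hb] at hj ⊢
            simp only [List.length_append, List.length_cons, List.length_nil] at hj
            by_cases hjm : j < (growB E s σ m).length
            · rw [List.getD_append _ _ _ _ hjm]
              exact ih j hjm
            · have hj' : j = m := by omega
              subst hj'
              rw [List.getD_append_right _ _ _ _ (by omega)]
              refine ⟨b, hb, ?_⟩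
              simp [hlen]
      · rw [growB_succ_of_ne hlen] at hj ⊢
        exact ih j hj

theorem growB_complete (s : ℕ) (σ : List Bool) (m : ℕ)
    (h : ∀ j < m, (valE E σ j s).isSome) : (growB E s σ m).length = m := by
  induction m with
  | zero => simp [growB]
  | succ m ih =>
      have hlen := ih fun j hj => h j (by omega)
      cases hb : valE E σ m s with
      | none =>
          have := h m (by omega)
          rw [hb] at this
          simp at this
      | some b =>
          rw [growB_succ_some hlen hb]
          simp [hlen]

theorem growB_mono (s : ℕ) (σ : List Bool) {m m' : ℕ} (hm : m ≤ m') :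
    (growB E s σ m).length ≤ (growB E s σ m').length := by
  induction m', hm using Nat.le_induction with
  | base => exact le_rfl
  | succ m' hm' ih =>
      refine ih.trans ?_
      by_cases hlen : (growB E s σ m').length = m'
      · cases hb : valE E σ m' s with
        | none => rw [growB_succ_none hlen hb]
        | some b => rw [growB_succ_some hlen hb]; simp
      · rw [growB_succ_of_ne hlen]

end facts

/-- **Iteration.** If one oracle code computes each term of a sequence of oracles from the
previous term, then the whole sequence is computable from its first term. -/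
theorem iterate_code {Ω : ℕ → Bits} (c : OCode)
    (hrel : ∀ n, evalO (chi (Ω n)) c = chi (Ω (n + 1))) :
    Rd (fun w => Ω w.unpair.1 w.unpair.2) (Ω 0) := by
  obtain ⟨E, hE, hE2⟩ := exists_fuel c
  -- correctness of search values
  have hvalCorrect : ∀ {σ : List Bool} {i k s a' : ℕ}, Ω i ∈ Cyl σ →
      valE E σ k s = Option.some a' → a' = (Ω (i + 1) k).toNat := by
    intro σ i k s a' hZ hval
    obtain ⟨w, hw⟩ := valE_sound hval
    have h1 := (hE2 _ _ _).2 ⟨_, hw⟩
    have h2 := evalO_mono (ext_of_mem_cyl (cyl_of_prefix (List.take_prefix _ _) hZ)) c _ _ h1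
    rw [hrel] at h2
    exact (mem_chi.1 h2).symm
  -- soundness of the approximations
  have hsound : ∀ (ρ : List Bool) (s : ℕ), Ω 0 ∈ Cyl ρ → ∀ i, Ω i ∈ Cyl (apx E s ρ i) := by
    intro ρ s hY i
    induction i with
    | zero => exact hY
    | succ i ih =>
        intro j hj
        simp only [apx] at hj ⊢
        obtain ⟨a, ha, hb⟩ := growB_prefix s _ s j hj
        have h1 := hvalCorrect ih ha
        rw [← List.getD_eq_getElem _ false hj, hb, h1]
        cases Ω (i + 1) j <;> simp
  -- eventual length of the approximations
  have hlong : ∀ i n, ∃ s₀, ∀ s, s₀ ≤ s → n < (apx E s (pref (Ω 0) s) i).length := by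
    intro i
    induction i with
    | zero =>
        intro n
        refine ⟨n + 1, fun s hs => ?_⟩
        simp only [apx, pref_length]
        omega
    | succ i ih =>
        have hbit : ∀ j, ∃ s₀, ∀ s, s₀ ≤ s →
            (valE E (apx E s (pref (Ω 0) s) i) j s).isSome := by
          intro j
          have ha : (Ω (i + 1) j).toNat ∈ evalO (chi (Ω i)) c j := by
            rw [hrel]
            exact mem_chi.2 rfl
          obtain ⟨v, hv⟩ := use_principle _ c _ _ ha
          obtain ⟨t, ht⟩ := (hE2 _ _ _).1 hv
          obtain ⟨s₁, hs₁⟩ := ih v
          refine ⟨s₁ + v + Nat.pair v t + 1, fun s hs => ?_⟩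
          have hlenA := hs₁ s (by omega)
          have hcyl := hsound (pref (Ω 0) s) s (pref_mem_cyl _ s) i
          have htake1 : (apx E s (pref (Ω 0) s) i).take v = pref (Ω i) v :=
            take_eq_pref hcyl (by omega)
          refine valE_isSome (w := Nat.pair v t) (a := (Ω (i + 1) j).toNat) (by omega) ?_
          simp only [Nat.unpair_pair]
          rw [htake1]
          exact ht
        intro n
        have hbit' : ∀ m, ∃ s₀, ∀ s, s₀ ≤ s → ∀ j < m,
            (valE E (apx E s (pref (Ω 0) s) i) j s).isSome := by
          intro m
          induction m with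
          | zero => exact ⟨0, fun _ _ j hj => absurd hj (Nat.not_lt_zero _)⟩
          | succ m ihm =>
              obtain ⟨s₁, hs₁⟩ := ihm
              obtain ⟨s₂, hs₂⟩ := hbit m
              refine ⟨max s₁ s₂, fun s hs j hj => ?_⟩
              rcases Nat.lt_succ_iff_lt_or_eq.1 hj with hlt | rfl
              · exact hs₁ s (le_trans (le_max_left _ _) hs) j hlt
              · exact hs₂ s (le_trans (le_max_right _ _) hs)
        obtain ⟨s₀, hs₀⟩ := hbit' (n + 1)
        refine ⟨s₀ + n + 1, fun s hs => ?_⟩
        simp only [apx]
        have h1 := growB_complete (E := E) s (apx E s (pref (Ω 0) s) i) (n + 1)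
          (fun j hj => hs₀ s (by omega) j hj)
        have h2 := growB_mono (E := E) s (apx E s (pref (Ω 0) s) i)
          (show n + 1 ≤ s by omega)
        omega
  -- the search
  have hA := computable_apx hE
  let T : ℕ × ℕ × List Bool → Option ℕ := fun q =>
    cond (decide (q.1.unpair.2 < (apx E q.2.1 q.2.2 q.1.unpair.1).length))
      (Option.some ((apx E q.2.1 q.2.2 q.1.unpair.1).getD q.1.unpair.2 false).toNat)
      Option.none
  have hT : Computable T := by
    have hu : Computable Nat.unpair := Computable.unpair
    have hi : Computable fun q : ℕ × ℕ × List Bool => q.1.unpair.1 :=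
      Computable.fst.comp (hu.comp Computable.fst)
    have hn : Computable fun q : ℕ × ℕ × List Bool => q.1.unpair.2 :=
      Computable.snd.comp (hu.comp Computable.fst)
    have hl : Computable fun q : ℕ × ℕ × List Bool => apx E q.2.1 q.2.2 q.1.unpair.1 := by
      have := hA.comp (((Computable.snd.comp Computable.snd).pair
        (Computable.fst.comp Computable.snd)).pair hi)
      exact this
    have hlt : Computable fun p : ℕ × ℕ => decide (p.1 < p.2) :=
      (PrimrecPred.decide (Primrec.nat_lt.comp Primrec.fst Primrec.snd)).to_comp
    have h1 := hlt.comp (hn.pair (Computable.list_length.comp hl))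
    have h2 : Computable fun q : ℕ × ℕ × List Bool =>
        (apx E q.2.1 q.2.2 q.1.unpair.1).getD q.1.unpair.2 false :=
      ((Primrec.list_getD false).to_comp).comp hl hn
    have h3 := Computable.option_some.comp (((Primrec.dom_finite Bool.toNat).to_comp).comp h2)
    have h4 := Computable.cond h1 h3 (Computable.const Option.none)
    exact h4
  refine rd_iff_recursiveIn.2 ?_
  refine oracle_search hT ?_ ?_
  · intro w
    obtain ⟨s₀, hs₀⟩ := hlong w.unpair.1 w.unpair.2
    refine ⟨s₀, ((apx E s₀ (pref (Ω 0) s₀) w.unpair.1).getD w.unpair.2 false).toNat, ?_⟩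
    simp only [T]
    rw [decide_eq_true (hs₀ s₀ le_rfl)]
    rfl
  · intro w s v hv
    simp only [T] at hv
    by_cases hlt : w.unpair.2 < (apx E s (pref (Ω 0) s) w.unpair.1).length
    · rw [decide_eq_true hlt] at hv
      simp only [cond_true, Option.some.injEq] at hv
      rw [← hv, List.getD_eq_getElem _ _ hlt,
        ← hsound (pref (Ω 0) s) s (pref_mem_cyl _ s) w.unpair.1 _ hlt]
    · rw [decide_eq_false hlt] at hv
      simp at hv

end Vale.Agent.Lib.P327
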