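import Vale.Agent.Lib.P327.RRep

/-! Parameter-free laws of a measurable representative on generic tuples. -/

namespace Vale.Agent.Lib.P327

open Nat Part Filter Topology

theorem continuous_jn : Continuous fun p : Bits × Bits => jn p.1 p.2 := by
  refine continuous_pi fun m => ?_
  simp only [jn]
  cases m.bodd with
  | true => exact (continuous_apply _).comp continuous_snd
  | false => exact (continuous_apply _).comp continuous_fst

theorem continuous_jn_right' (c : Bits) : Continuous fun Y : Bits => jn Y c :=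
  continuous_jn.comp (continuous_id.prodMk continuous_const)

theorem measurable_jn {A : Type} [MeasurableSpace A] {f g : A → Bits} (hf : Measurable f)
    (hg : Measurable g) : Measurable fun a => jn (f a) (g a) :=
  continuous_jn.measurable.comp (hf.prodMk hg)

/-- Join of three sequences. -/
def jn3 (A B C : Bits) : Bits := jn A (jn B C)

/-- Join of four sequences. -/
def jn4 (A B C D : Bits) : Bits := jn A (jn B (jn C D))

theorem mem_cy_add3 {a b c A B C : Bits} {L : ℕ} (ha : a ∈ Cy A L) (hb : b ∈ Cy B L)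
    (hc : c ∈ Cy C L) : a + b + c ∈ Cy (A + B + C) L := by
  intro i hi
  simp only [bits_add_apply]
  rw [ha i hi, hb i hi, hc i hi]

section

variable {I : Type} {Ω : I → Bits}

theorem Fam.pk3 {A B C : I → Bits} (h₁ : Fam Ω A) (h₂ : Fam Ω B) (h₃ : Fam Ω C) :
    Fam Ω (fun a => jn3 (A a) (B a) (C a)) :=
  Fam.join h₁ (Fam.join h₂ h₃)

theorem Fam.pk4 {A B C D : I → Bits} (h₁ : Fam Ω A) (h₂ : Fam Ω B) (h₃ : Fam Ω C) (h₄ : Fam Ω D) :
    Fam Ω (fun a => jn4 (A a) (B a) (C a) (D a)) :=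
  Fam.join h₁ (Fam.join h₂ (Fam.join h₃ h₄))

theorem Fam.pk4_1 (A B C D : I → Bits) : Fam (fun a => jn4 (A a) (B a) (C a) (D a)) A :=
  Fam.join_left _ _

theorem Fam.pk4_2 (A B C D : I → Bits) : Fam (fun a => jn4 (A a) (B a) (C a) (D a)) B :=
  (Fam.join_right A (fun a => jn (B a) (jn (C a) (D a)))).trans (Fam.join_left _ _)

theorem Fam.pk4_3 (A B C D : I → Bits) : Fam (fun a => jn4 (A a) (B a) (C a) (D a)) C :=
  (Fam.join_right A (fun a => jn (B a) (jn (C a) (D a)))).trans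
    ((Fam.join_right B (fun a => jn (C a) (D a))).trans (Fam.join_left _ _))

theorem Fam.pk4_4 (A B C D : I → Bits) : Fam (fun a => jn4 (A a) (B a) (C a) (D a)) D :=
  (Fam.join_right A (fun a => jn (B a) (jn (C a) (D a)))).trans
    ((Fam.join_right B (fun a => jn (C a) (D a))).trans (Fam.join_right _ _))

end

section

variable {π : TDeg ≃o TDeg} {F : Bits → Bits} (hF : ∀ X, π (TDeg.of X) = TDeg.of (F X))

include hF

theorem rep_lub3 (a b c : Bits) : Rd (F (a + b + c)) (jn3 (F a) (F b) (F c)) := by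
  have h1 : Rd (a + b + c) (jn a (jn b c)) :=
    rd_add (rd_add (rd_left _ _) ((rd_left _ _).trans (rd_right _ _)))
      ((rd_right _ _).trans (rd_right _ _))
  have h2 := rep_lub hF h1
  have h3 := rep_lub hF (Rd.refl (jn b c))
  exact h2.trans (rd_jn (rd_left _ _) (h3.trans (rd_right _ _)))

/-- The law on triples. -/
theorem law1 (hFm : Measurable F) {U₁ U₂ U₃ : Set Bits} (h₁ : IsOpen U₁) (h₂ : IsOpen U₂)
    (h₃ : IsOpen U₃) (n₁ : U₁.Nonempty) (n₂ : U₂.Nonempty) (n₃ : U₃.Nonempty) :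
    ∃ (M : OCode) (b₁ b₂ b₃ : Bits) (L : ℕ), Cy b₁ L ⊆ U₁ ∧ Cy b₂ L ⊆ U₂ ∧ Cy b₃ L ⊆ U₃ ∧
      ∀ᶠ q in residual (Bits × Bits × Bits), q.1 ∈ Cy b₁ L → q.2.1 ∈ Cy b₂ L → q.2.2 ∈ Cy b₃ L →
        evalO (chi (jn3 (F q.1) (F q.2.1) (F q.2.2))) M = chi (F (q.1 + q.2.1 + q.2.2)) := by
  have hU : IsOpen (U₁ ×ˢ (U₂ ×ˢ U₃)) := h₁.prod (h₂.prod h₃)
  have hne : (U₁ ×ˢ (U₂ ×ˢ U₃)).Nonempty := n₁.prod (n₂.prod n₃)
  have hΨ : Measurable fun q : Bits × Bits × Bits => jn3 (F q.1) (F q.2.1) (F q.2.2) :=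
    measurable_jn (hFm.comp measurable_fst)
      (measurable_jn (hFm.comp (measurable_fst.comp measurable_snd))
        (hFm.comp (measurable_snd.comp measurable_snd)))
  have hΦ : Measurable fun q : Bits × Bits × Bits => F (q.1 + q.2.1 + q.2.2) := by
    refine hFm.comp (Continuous.measurable ?_)
    fun_prop
  obtain ⟨M, V, hV, ⟨x, hx⟩, hVU, hgen⟩ := uniformize hΨ hΦ hU hne
    (Eventually.of_forall fun q _ => rep_lub3 hF _ _ _)
  obtain ⟨L, hL⟩ := exists_box3 hV hx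
  refine ⟨M, x.1, x.2.1, x.2.2, L, ?_, ?_, ?_, ?_⟩
  · intro y hy
    exact (hVU (hL (y, x.2.1, x.2.2) hy (self_mem_cy _ _) (self_mem_cy _ _))).1
  · intro y hy
    exact (hVU (hL (x.1, y, x.2.2) (self_mem_cy _ _) hy (self_mem_cy _ _))).2.1
  · intro y hy
    exact (hVU (hL (x.1, x.2.1, y) (self_mem_cy _ _) (self_mem_cy _ _) hy)).2.2
  · filter_upwards [hgen] with q hq h1 h2 h3
    exact hq (hL q h1 h2 h3)

/-- **The law on quadruples**: the two-triple trick. -/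
theorem exists_law4 (hFm : Measurable F) (b₀ : Bits) (L₀ : ℕ) :
    ∃ (M : OCode) (σ ζ ξ : Bits) (L : ℕ), L₀ ≤ L ∧ σ ∈ Cy b₀ L₀ ∧
      ∀ᶠ q in residual (Bits × Bits × Bits × Bits),
        q.1 ∈ Cy σ L → q.2.1 ∈ Cy ζ L → q.2.2.1 ∈ Cy ζ L → q.2.2.2 ∈ Cy ξ L →
        evalO (chi (jn4 (F q.1) (F q.2.1) (F q.2.2.1) (F q.2.2.2))) M =
          chi (F (q.1 + q.2.1 + q.2.2.1)) := by
  obtain ⟨M₁, σ₁, σ₂, σ₃, L₁, h₁, -, -, hlaw₁⟩ := law1 hF hFm (isOpen_cy b₀ L₀) (isOpen_cy b₀ L₀)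
    (isOpen_cy b₀ L₀) (cy_nonempty _ _) (cy_nonempty _ _) (cy_nonempty _ _)
  set L₁' := max L₁ L₀ with hL₁'
  have hL₁ : L₁ ≤ L₁' := le_max_left _ _
  have hL₀ : L₀ ≤ L₁' := le_max_right _ _
  set σ₄ := σ₁ + σ₂ + σ₃ with hσ₄
  obtain ⟨M₂, τ₄, τ₃, τ₂, L₂, h₄', h₃', h₂', hlaw₂⟩ := law1 hF hFm (isOpen_cy σ₄ L₁')
    (isOpen_cy σ₃ L₁') (isOpen_cy σ₂ L₁') (cy_nonempty _ _) (cy_nonempty _ _) (cy_nonempty _ _)
  set L := max L₂ L₁' with hL
  have hL₂ : L₂ ≤ L := le_max_left _ _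
  have hL₁L : L₁' ≤ L := le_max_right _ _
  have hτ₄ : τ₄ ∈ Cy σ₄ L₁' := h₄' (self_mem_cy _ _)
  have hτ₃ : τ₃ ∈ Cy σ₃ L₁' := h₃' (self_mem_cy _ _)
  have hτ₂ : τ₂ ∈ Cy σ₂ L₁' := h₂' (self_mem_cy _ _)
  have hσ₁b : σ₁ ∈ Cy b₀ L₀ := h₁ (self_mem_cy _ _)
  have hsum : τ₄ + τ₃ + τ₂ ∈ Cy σ₁ L₁' := by
    have h := mem_cy_add3 hτ₄ hτ₃ hτ₂
    have e : σ₄ + σ₃ + σ₂ = σ₁ := by
      funext i
      simp only [hσ₄, bits_add_apply]
      cases σ₁ i <;> cases σ₂ i <;> cases σ₃ i <;> rfl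
    rwa [e] at h
  let Gd : Set (Bits × Bits × Bits × Bits) := {q |
    evalO (chi (jn3 (F q.1) (F q.2.1) (F q.2.2.2))) M₁ = chi (F (q.1 + q.2.1 + q.2.2.2)) ∧
    evalO (chi (jn3 (F (q.1 + q.2.1 + q.2.2.2)) (F q.2.2.2) (F q.2.2.1))) M₂ =
      chi (F (q.1 + q.2.1 + q.2.2.2 + q.2.2.2 + q.2.2.1))}
  have hFam : Fam (fun q : Gd => jn4 (F q.1.1) (F q.1.2.1) (F q.1.2.2.1) (F q.1.2.2.2))
      (fun q => F (q.1.1 + q.1.2.1 + q.1.2.2.1)) := by
    have hy := Fam.pk4_1 (fun q : Gd => F q.1.1) (fun q => F q.1.2.1) (fun q => F q.1.2.2.1)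
      (fun q => F q.1.2.2.2)
    have hs := Fam.pk4_2 (fun q : Gd => F q.1.1) (fun q => F q.1.2.1) (fun q => F q.1.2.2.1)
      (fun q => F q.1.2.2.2)
    have hs' := Fam.pk4_3 (fun q : Gd => F q.1.1) (fun q => F q.1.2.1) (fun q => F q.1.2.2.1)
      (fun q => F q.1.2.2.2)
    have ha := Fam.pk4_4 (fun q : Gd => F q.1.1) (fun q => F q.1.2.1) (fun q => F q.1.2.2.1)
      (fun q => F q.1.2.2.2)
    have h3 := Fam.pk3 hy hs ha
    have hw : Fam (fun q : Gd => jn4 (F q.1.1) (F q.1.2.1) (F q.1.2.2.1) (F q.1.2.2.2))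
        (fun q => F (q.1.1 + q.1.2.1 + q.1.2.2.2)) := h3.trans ⟨M₁, fun q => q.2.1⟩
    have h4 := Fam.pk3 hw ha hs'
    refine (h4.trans ⟨M₂, fun q => q.2.2⟩).of_eq fun q => ?_
    congr 1
    funext i
    simp only [bits_add_apply]
    cases q.1.1 i <;> cases q.1.2.1 i <;> cases q.1.2.2.1 i <;> cases q.1.2.2.2 i <;> rfl
  obtain ⟨M, hM⟩ := hFam
  refine ⟨M, τ₄ + τ₃ + τ₂, τ₂, τ₃, L, hL₀.trans hL₁L, ?_, ?_⟩
  · intro i hi
    rw [hsum i (by omega)]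
    exact hσ₁b i hi
  · let f₁ : Bits × Bits × Bits × Bits → Bits × Bits × Bits := fun q => (q.1, q.2.1, q.2.2.2)
    let f₂ : Bits × Bits × Bits × Bits → Bits × Bits × Bits :=
      fun q => (q.1 + q.2.1 + q.2.2.2, q.2.2.2, q.2.2.1)
    have hf₁ := pull_add f₁ (fun x y => rfl)
      (fun y => ⟨(y.1, y.2.1, 0, y.2.2), rfl⟩) (by fun_prop) hlaw₁
    have hf₂ := pull_add f₂ (fun x y => by
        refine Prod.ext ?_ rfl
        show (x.1 + y.1) + (x.2.1 + y.2.1) + (x.2.2.2 + y.2.2.2) =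
          (x.1 + x.2.1 + x.2.2.2) + (y.1 + y.2.1 + y.2.2.2)
        abel)
      (fun y => ⟨(y.1 + y.2.1, 0, y.2.2, y.2.1), by
        simp only [f₂, add_zero]
        rw [bits_add_cancel]⟩) (by fun_prop) hlaw₂
    filter_upwards [hf₁, hf₂] with q h1 h2 hq1 hq2 hq3 hq4
    have hu : q.1 ∈ Cy σ₁ L₁ := cy_mono hL₁ (cy_of_mem hL₁L hsum hq1)
    have hs : q.2.1 ∈ Cy σ₂ L₁ := cy_mono hL₁ (cy_of_mem hL₁L hτ₂ hq2)
    have ha : q.2.2.2 ∈ Cy σ₃ L₁ := cy_mono hL₁ (cy_of_mem hL₁L hτ₃ hq4)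
    have e : τ₄ + τ₃ + τ₂ + τ₂ + τ₃ = τ₄ := by
      funext i
      simp only [bits_add_apply]
      cases τ₄ i <;> cases τ₃ i <;> cases τ₂ i <;> rfl
    have hw : q.1 + q.2.1 + q.2.2.2 ∈ Cy τ₄ L₂ := by
      have := mem_cy_add3 hq1 hq2 hq4
      rw [e] at this
      exact cy_mono hL₂ this
    exact hM ⟨q, h1 hu hs ha, h2 hw (cy_mono hL₂ hq4) (cy_mono hL₂ hq3)⟩

end

end Vale.Agent.Lib.P327
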