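import Vale.Agent.Lib.P327.RBaire
import Vale.Agent.Lib.P327.Iterate

/-! Generic parameters can be removed from Turing reductions. -/

namespace Vale.Agent.Lib.P327

open Nat Part Filter Topology

/-- The join of two strings, as long as both are defined. -/
def jnStr (δ ρ : List Bool) : List Bool :=
  (List.range (2 * min δ.length ρ.length)).map fun m =>
    cond m.bodd (ρ.getD m.div2 false) (δ.getD m.div2 false)

theorem jnStr_length (δ ρ : List Bool) : (jnStr δ ρ).length = 2 * min δ.length ρ.length := by
  simp [jnStr]

theorem primrec_jnStr : Primrec fun p : List Bool × List Bool => jnStr p.1 p.2 := by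
  have h1 : Primrec fun p : List Bool × List Bool => List.range (2 * min p.1.length p.2.length) :=
    Primrec.list_range.comp (Primrec.nat_mul.comp (Primrec.const 2)
      (Primrec.nat_min.comp (Primrec.list_length.comp Primrec.fst)
      (Primrec.list_length.comp Primrec.snd)))
  have hdiv : Primrec Nat.div2 := by
    have h : Primrec fun n : ℕ => n / 2 := Primrec.nat_div.comp Primrec.id (Primrec.const 2)
    exact h.of_eq fun n => (Nat.div2_val n).symm
  have h2 : Primrec₂ (fun (p : List Bool × List Bool) (m : ℕ) =>
      cond m.bodd (p.2.getD m.div2 false) (p.1.getD m.div2 false)) := by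
    have hm : Primrec fun q : (List Bool × List Bool) × ℕ => q.2.div2 := hdiv.comp Primrec.snd
    have ha : Primrec fun q : (List Bool × List Bool) × ℕ => q.1.2.getD q.2.div2 false :=
      (Primrec.list_getD false).comp (Primrec.snd.comp Primrec.fst) hm
    have hb : Primrec fun q : (List Bool × List Bool) × ℕ => q.1.1.getD q.2.div2 false :=
      (Primrec.list_getD false).comp (Primrec.fst.comp Primrec.fst) hm
    exact Primrec.cond (Primrec.nat_bodd.comp Primrec.snd) ha hb
  exact Primrec.list_map h1 h2

theorem jn_mem_cyl {D g : Bits} {δ ρ : List Bool} (hD : D ∈ Cyl δ) (hg : g ∈ Cyl ρ) :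
    jn D g ∈ Cyl (jnStr δ ρ) := by
  intro m hm
  rw [jnStr_length] at hm
  simp only [jnStr, List.getElem_map, List.getElem_range, jn]
  have hlt : m.div2 < min δ.length ρ.length := by
    rw [Nat.div2_val]
    omega
  have h1 : m.div2 < δ.length := by omega
  have h2 : m.div2 < ρ.length := by omega
  rw [hD _ h1, hg _ h2, List.getD_eq_getElem _ _ h1, List.getD_eq_getElem _ _ h2]

theorem jnStr_pref (D g : Bits) (x : ℕ) : jnStr (pref D x) (pref g x) = pref (jn D g) (2 * x) := by
  refine List.ext_getElem ?_ fun i h1 h2 => ?_
  · simp [jnStr_length, pref_length]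
  · rw [pref_getElem]
    exact ((jn_mem_cyl (pref_mem_cyl D x) (pref_mem_cyl g x)) i h1).symm

theorem jnStr_pref_left (D : Bits) (ρ : List Bool) {s : ℕ} (hs : ρ.length ≤ s) :
    jnStr (pref D s) ρ = jnStr (pref D ρ.length) ρ := by
  refine List.ext_getElem ?_ fun i h1 h2 => ?_
  · simp only [jnStr_length, pref_length]
    omega
  · simp only [jnStr, List.getElem_map, List.getElem_range]
    have hi : i < 2 * min (pref D ρ.length).length ρ.length := by
      simpa [jnStr_length] using h2
    have hm : i.div2 < ρ.length := by
      rw [Nat.div2_val]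
      rw [pref_length] at hi
      omega
    have e1 : (pref D s).getD i.div2 false = D i.div2 := by
      rw [List.getD_eq_getElem _ _ (by rw [pref_length]; omega), pref_getElem]
    have e2 : (pref D ρ.length).getD i.div2 false = D i.div2 := by
      rw [List.getD_eq_getElem _ _ (by rw [pref_length]; omega), pref_getElem]
    rw [e1, e2]

section

variable (E : ℕ → List Bool → ℕ → Option ℕ) (β : List Bool)

/-- Search for a convergent computation on a join with an extension of `β`. -/
def valL (δ : List Bool) (k : ℕ) : ℕ → Option ℕ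
  | 0 => Option.none
  | w + 1 => (valL δ k w) <|> E w.unpair.2 (jnStr δ (β ++ strOf w.unpair.1)) k

theorem computable_valL (hE : Computable (fun p : ℕ × List Bool × ℕ => E p.1 p.2.1 p.2.2)) :
    Computable fun p : (List Bool × ℕ) × ℕ => valL E β p.1.1 p.1.2 p.2 := by
  have hstep : Computable₂ (fun (q : (List Bool × ℕ) × ℕ) (r : ℕ × Option ℕ) =>
      r.2 <|> E r.1.unpair.2 (jnStr q.1.1 (β ++ strOf r.1.unpair.1)) q.1.2) := by
    have hu : Computable Nat.unpair := Computable.unpair
    have hw : Computable fun x : ((List Bool × ℕ) × ℕ) × ℕ × Option ℕ => x.2.1 :=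
      Computable.fst.comp Computable.snd
    have ht : Computable fun x : ((List Bool × ℕ) × ℕ) × ℕ × Option ℕ => x.2.1.unpair.2 :=
      Computable.snd.comp (hu.comp hw)
    have hv : Computable fun x : ((List Bool × ℕ) × ℕ) × ℕ × Option ℕ => x.2.1.unpair.1 :=
      Computable.fst.comp (hu.comp hw)
    have hσ : Computable fun x : ((List Bool × ℕ) × ℕ) × ℕ × Option ℕ => x.1.1.1 :=
      Computable.fst.comp (Computable.fst.comp Computable.fst)
    have hk : Computable fun x : ((List Bool × ℕ) × ℕ) × ℕ × Option ℕ => x.1.1.2 :=
      Computable.snd.comp (Computable.fst.comp Computable.fst)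
    have happ : Computable fun x : ((List Bool × ℕ) × ℕ) × ℕ × Option ℕ =>
        β ++ strOf x.2.1.unpair.1 :=
      Computable.list_append.comp (Computable.const β) (computable_strOf.comp hv)
    have hjn := primrec_jnStr.to_comp.comp (hσ.pair happ)
    have h1 : Computable fun x : ((List Bool × ℕ) × ℕ) × ℕ × Option ℕ =>
        E x.2.1.unpair.2 (jnStr x.1.1.1 (β ++ strOf x.2.1.unpair.1)) x.1.1.2 := by
      have := hE.comp (ht.pair (hjn.pair hk))
      exact this
    have h2 := (Primrec.option_orElse.to_comp).comp
      (Computable.snd.comp Computable.snd :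
        Computable fun x : ((List Bool × ℕ) × ℕ) × ℕ × Option ℕ => x.2.2) h1
    exact h2
  refine (Computable.nat_rec Computable.snd (Computable.const Option.none) hstep).of_eq fun p => ?_
  generalize p.2 = s
  induction s with
  | zero => rfl
  | succ s ih =>
      simp only [valL]
      rw [← ih]

theorem valL_sound {δ : List Bool} {k s a : ℕ} (h : valL E β δ k s = Option.some a) :
    ∃ w : ℕ, E w.unpair.2 (jnStr δ (β ++ strOf w.unpair.1)) k = Option.some a := by
  induction s with
  | zero => simp [valL] at h
  | succ s ih =>
      simp only [valL] at h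
      cases hc : valL E β δ k s with
      | none =>
          rw [hc] at h
          exact ⟨s, h⟩
      | some b =>
          rw [hc] at h
          have h' : Option.some b = Option.some a := h
          cases h'
          exact ih hc

theorem valL_isSome {δ : List Bool} {k s w a : ℕ} (hw : w < s)
    (h : E w.unpair.2 (jnStr δ (β ++ strOf w.unpair.1)) k = Option.some a) :
    (valL E β δ k s).isSome := by
  induction s with
  | zero => exact absurd hw (Nat.not_lt_zero _)
  | succ s ih =>
      simp only [valL]
      cases hc : valL E β δ k s with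
      | none =>
          rcases Nat.lt_succ_iff_lt_or_eq.1 hw with hlt | rfl
          · have := ih hlt
            rw [hc] at this
            simp at this
          · simp [h]
      | some b => simp

end

theorem continuous_jn_right (D : Bits) : Continuous fun g : Bits => jn D g := by
  refine continuous_pi fun m => ?_
  simp only [jn]
  cases m.bodd with
  | true => exact continuous_apply _
  | false => exact continuous_const

/-- **Removing a generic parameter.** If `Q` is reducible to `D ⊕ g` for all generic `g` in a
nonempty open set, then `Q` is reducible to `D`. -/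
theorem rd_of_generic {Q D : Bits} {U : Set Bits} (hU : IsOpen U) (hne : U.Nonempty)
    (h : ∀ᶠ g in residual Bits, g ∈ U → Rd Q (jn D g)) : Rd Q D := by
  obtain ⟨e, V, hV, hVne, -, hgen⟩ := uniformize (A := Bits) (Ψ := fun g => jn D g)
    (Φ := fun _ => Q) (continuous_jn_right D).measurable measurable_const hU hne h
  obtain ⟨Y₀, hY₀⟩ := hVne
  obtain ⟨u, hu⟩ := exists_cyl_subset hV hY₀
  set β := pref Y₀ u with hβ
  obtain ⟨E, hE, hE2⟩ := exists_fuel e
  have hL := computable_valL E β hE
  let T : ℕ × ℕ × List Bool → Option ℕ := fun q => valL E β q.2.2 q.1 q.2.1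
  have hT : Computable T := by
    have := hL.comp (((Computable.snd.comp Computable.snd).pair Computable.fst).pair
      (Computable.fst.comp Computable.snd))
    exact this
  refine rd_iff_recursiveIn.2 ?_
  refine oracle_search (Y := D) (V := fun n => (Q n).toNat) hT ?_ ?_
  · intro a
    obtain ⟨g, hg, hg2⟩ := exists_generic hgen (isOpen_cyl β) ⟨_, fill_mem_cyl _⟩
    have hgV : g ∈ V := hu hg
    have ha : (Q a).toNat ∈ evalO (chi (jn D g)) e a := by
      rw [hg2 hgV]
      exact mem_chi.2 rfl
    obtain ⟨u', hu'⟩ := use_principle _ e _ _ ha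
    obtain ⟨x, hx, τ, hτ⟩ := exists_pref_append hg u'
    have h1 : (Q a).toNat ∈ evalO (ora (pref (jn D g) (2 * x))) e a :=
      evalO_mono (ext_pref_pref _ (by omega)) e _ _ hu'
    rw [← jnStr_pref] at h1
    obtain ⟨t, ht⟩ := (hE2 _ _ _).1 h1
    have hlen : (β ++ τ).length = x := by
      rw [← hτ, pref_length]
    have hw : ∀ s, x ≤ s → E (Nat.pair (Encodable.encode τ) t).unpair.2
        (jnStr (pref D s) (β ++ strOf (Nat.pair (Encodable.encode τ) t).unpair.1)) a =
        Option.some (Q a).toNat := by
      intro s hs
      simp only [Nat.unpair_pair, strOf_encode]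
      rw [jnStr_pref_left D _ (by omega), hlen, ← hτ]
      exact ht
    let s := x + Nat.pair (Encodable.encode τ) t + 1
    obtain ⟨v, hv⟩ := Option.isSome_iff_exists.1 (valL_isSome E β
      (show Nat.pair (Encodable.encode τ) t < s by omega) (hw s (by omega)))
    exact ⟨s, v, hv⟩
  · intro a s v hv
    obtain ⟨w, hw⟩ := valL_sound E β hv
    have h1 := (hE2 _ _ _).2 ⟨_, hw⟩
    have hprefix : β <+: β ++ strOf w.unpair.1 := List.prefix_append _ _
    obtain ⟨g, hg, hg2⟩ := exists_generic hgen (isOpen_cyl (β ++ strOf w.unpair.1))
      ⟨_, fill_mem_cyl _⟩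
    have hgV : g ∈ V := hu (cyl_of_prefix hprefix hg)
    have h2 := evalO_mono (ext_of_mem_cyl (jn_mem_cyl (pref_mem_cyl D s) hg)) e _ _ h1
    rw [hg2 hgV] at h2
    exact (mem_chi.1 h2).symm

end Vale.Agent.Lib.P327
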