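import Vale.Agent.Lib.P327.RStep
import Vale.Agent.Lib.P327.General

/-! Rigidity for automorphisms with measurable representatives. -/

namespace Vale.Agent.Lib.P327

open Nat Part Filter Topology

section pull

variable (L n k : ℕ)

/-- The map to the quadruple of the first law. -/
def mOne (p : Bits × Bits) : Bits × Bits × Bits × Bits :=
  ((shT L)^[n] p.1, col (2 * k + 1) p.2, col (2 * k + 2) p.2, col 0 p.2)

/-- The translated point. -/
def mTwo (p : Bits × Bits) : Bits :=
  (shT L)^[n] p.1 + col (2 * k + 1) p.2 + col (2 * k + 2) p.2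

/-- The map to the quadruple of the second law. -/
def mFour (p : Bits × Bits) : Bits × Bits × Bits × Bits :=
  (shT L (mTwo L n k p), shT L (col (2 * k + 1) p.2), shT L (col (2 * k + 2) p.2), col 0 p.2)

theorem continuous_mOne : Continuous (mOne L n k) := by
  refine ((shT_iter_continuous L n).comp continuous_fst).prodMk
    (((continuous_col _).comp continuous_snd).prodMk
      (((continuous_col _).comp continuous_snd).prodMk ((continuous_col _).comp continuous_snd)))

theorem continuous_mTwo : Continuous (mTwo L n k) := by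
  refine (((shT_iter_continuous L n).comp continuous_fst).add
    ((continuous_col _).comp continuous_snd)).add ((continuous_col _).comp continuous_snd)

theorem continuous_mFour : Continuous (mFour L n k) := by
  refine ((continuous_shT L).comp (continuous_mTwo L n k)).prodMk
    (((continuous_shT L).comp ((continuous_col _).comp continuous_snd)).prodMk
      (((continuous_shT L).comp ((continuous_col _).comp continuous_snd)).prodMk
        ((continuous_col _).comp continuous_snd)))

theorem add_mOne (p q : Bits × Bits) : mOne L n k (p + q) = mOne L n k p + mOne L n k q := by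
  refine Prod.ext (shT_iter_add L n _ _) rfl

theorem add_mTwo (p q : Bits × Bits) : mTwo L n k (p + q) = mTwo L n k p + mTwo L n k q := by
  simp only [mTwo, Prod.fst_add, Prod.snd_add, shT_iter_add, col_add]
  abel

theorem add_mFour (p q : Bits × Bits) : mFour L n k (p + q) = mFour L n k p + mFour L n k q := by
  simp only [mFour, add_mTwo, Prod.snd_add, col_add, shT_add]
  rfl

/-- The columns of the reference sequence. -/
def refCols (k : ℕ) (a s s' : Bits) (j : ℕ) : Bits :=
  if j = 0 then a else if j = 2 * k + 1 then s else if j = 2 * k + 2 then s' else 0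

theorem col_refCols_zero (a s s' : Bits) : col 0 (unrow (refCols k a s s')) = a := by
  rw [col_unrow]
  simp [refCols]

theorem col_refCols_one (a s s' : Bits) : col (2 * k + 1) (unrow (refCols k a s s')) = s := by
  rw [col_unrow]
  simp [refCols]

theorem col_refCols_two (a s s' : Bits) : col (2 * k + 2) (unrow (refCols k a s s')) = s' := by
  rw [col_unrow]
  have h1 : 2 * k + 2 ≠ 0 := by omega
  have h2 : 2 * k + 2 ≠ 2 * k + 1 := by omega
  simp [refCols]

theorem surj_mOne : Function.Surjective (mOne L n k) := by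
  rintro ⟨u, s, s', a⟩
  obtain ⟨X, hX⟩ := shT_iter_surjective L n u
  refine ⟨(X, unrow (refCols k a s s')), ?_⟩
  simp only [mOne, hX, col_refCols_zero, col_refCols_one, col_refCols_two]

theorem surj_mTwo : Function.Surjective (mTwo L n k) := by
  intro u
  obtain ⟨X, hX⟩ := shT_iter_surjective L n u
  refine ⟨(X, 0), ?_⟩
  simp only [mTwo, hX]
  funext i
  show xor (xor (u i) false) false = u i
  simp

theorem surj_mFour : Function.Surjective (mFour L n k) := by
  rintro ⟨u, s, s', a⟩
  obtain ⟨X, hX⟩ := shT_iter_surjective L n (insT L (u + s + s'))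
  refine ⟨(X, unrow (refCols k a (insT L s) (insT L s'))), ?_⟩
  simp only [mFour, mTwo, hX, col_refCols_zero, col_refCols_one, col_refCols_two, shT_insT, shT_add]
  refine Prod.ext ?_ rfl
  show u + s + s' + s + s' = u
  funext i
  show xor (xor (xor (xor (u i) (s i)) (s' i)) (s i)) (s' i) = u i
  cases u i <;> cases s i <;> cases s' i <;> rfl

end pull

/-- The even part. -/
def evS (g : Bits) : Bits := fun i => g (2 * i)

/-- The odd part. -/
def odS (g : Bits) : Bits := fun i => g (2 * i + 1)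

theorem rd_evS (g : Bits) : Rd (evS g) g := by
  have hg : Computable fun i : ℕ => 2 * i :=
    (Primrec.nat_mul.comp (Primrec.const 2) Primrec.id).to_comp
  exact rd_reindex (X := g) hg (Rd.refl g)

theorem rd_odS (g : Bits) : Rd (odS g) g := by
  have hg : Computable fun i : ℕ => 2 * i + 1 :=
    (Primrec.succ.comp (Primrec.nat_mul.comp (Primrec.const 2) Primrec.id)).to_comp
  exact rd_reindex (X := g) hg (Rd.refl g)

theorem evS_jn (A B : Bits) : evS (jn A B) = A := by
  funext i
  exact jn_even _ _ _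

theorem odS_jn (A B : Bits) : odS (jn A B) = B := by
  funext i
  exact jn_odd _ _ _

theorem continuous_evS : Continuous evS := continuous_pi fun _ => continuous_apply _

theorem continuous_odS : Continuous odS := continuous_pi fun _ => continuous_apply _

theorem isOpen_refOK (ζ ξ : Bits) (L v : ℕ) : IsOpen {P | RefOK ζ ξ L v P} := by
  have h : {P | RefOK ζ ξ L v P} = (col 0) ⁻¹' Cy ξ L ∩
      ⋂ k ∈ Finset.range (2 ^ v + 1), ((col (2 * k + 1)) ⁻¹' Cy ζ v ∩
        (col (2 * k + 2)) ⁻¹' Cy (ζ + dk L v k) v) := by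
    ext P
    simp only [RefOK, Set.mem_ofPred_eq, Set.mem_inter_iff, Set.mem_preimage, Set.mem_iInter,
      Finset.mem_range, Nat.lt_succ_iff]
  rw [h]
  refine ((isOpen_cy _ _).preimage (continuous_col _)).inter ?_
  refine isOpen_biInter_finset fun k _ => ?_
  exact ((isOpen_cy _ _).preimage (continuous_col _)).inter
    ((isOpen_cy _ _).preimage (continuous_col _))

theorem refOK_nonempty (ζ ξ : Bits) (L v : ℕ) : ∃ P, RefOK ζ ξ L v P := by
  let G : ℕ → Bits := fun j =>
    if j = 0 then ξ else if j % 2 = 1 then ζ else ζ + dk L v ((j - 2) / 2)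
  refine ⟨unrow G, ?_, fun k _ => ⟨?_, ?_⟩⟩
  · rw [col_unrow]
    simp [G, self_mem_cy]
  · rw [col_unrow]
    have h1 : 2 * k + 1 ≠ 0 := by omega
    have h2 : (2 * k + 1) % 2 = 1 := by omega
    simp only [G, h1, h2, if_false, if_true]
    exact self_mem_cy _ _
  · rw [col_unrow]
    have h1 : 2 * k + 2 ≠ 0 := by omega
    have h2 : ¬ (2 * k + 2) % 2 = 1 := by omega
    have h3 : (2 * k + 2 - 2) / 2 = k := by omega
    simp only [G, h1, h2, h3, if_false]
    exact self_mem_cy _ _

/-- Half of rigidity: the inverse automorphism does not increase degrees. -/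
theorem half_rigid {π : TDeg ≃o TDeg} {F E : Bits → Bits}
    (hF : ∀ X, π (TDeg.of X) = TDeg.of (F X))
    (hE : ∀ X, π.symm (TDeg.of X) = TDeg.of (E X))
    (hFm : Measurable F) (hEm : Measurable E) (x : Bits) : Rd (E x) x := by
  obtain ⟨cF, hcF⟩ := exists_bound F hFm
  obtain ⟨cE, hcE⟩ := exists_bound E hEm
  have hinv : ∀ X, Rd X (jn (F X) cE) := rep_inverse_bound hF hE hcE
  obtain ⟨ξc, V₀, hV₀, hV₀ne, -, hΞ⟩ := uniformize (A := Bits) (Ψ := fun X => jn X cF) (Φ := F)
    (continuous_jn_right' cF).measurable hFm isOpen_univ Set.univ_nonempty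
    (hcF.mono fun X h _ => h)
  obtain ⟨θ, V₁, hV₁, ⟨b₀, hb₀⟩, hV₁₀, hΘ⟩ := uniformize (A := Bits) (Ψ := fun X => jn (F X) cE)
    (Φ := id) (measurable_jn hFm measurable_const) measurable_id hV₀ hV₀ne
    (Eventually.of_forall fun X _ => hinv X)
  obtain ⟨L₀, hL₀⟩ := exists_cy_subset hV₁ hb₀
  have hGen : ∀ᶠ X in residual Bits, X ∈ Cy b₀ L₀ →
      evalO (chi (jn X cF)) ξc = chi (F X) ∧ evalO (chi (jn (F X) cE)) θ = chi X := by
    filter_upwards [hΞ, hΘ] with X h1 h2 hX
    exact ⟨h1 (hV₁₀ (hL₀ hX)), h2 (hL₀ hX)⟩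
  obtain ⟨M, σ, ζ, ξ, L, hL₀L, hσ, hlaw⟩ := exists_law4 hF hFm b₀ L₀
  have hσb : Cy σ L ⊆ Cy b₀ L₀ := cy_of_mem hL₀L hσ
  obtain ⟨Γ, V₂, hV₂, ⟨τ, hτ₀⟩, hV₂sub, hShift⟩ := uniformize (A := Bits) (Ψ := F)
    (Φ := fun X => F (shT L X)) hFm (hFm.comp (continuous_shT L).measurable) (isOpen_cy σ L)
    (cy_nonempty _ _) (Eventually.of_forall fun X _ => rep_mono hF (rd_shT L X))
  obtain ⟨v₁, hv₁⟩ := exists_cy_subset hV₂ hτ₀
  set v₀ := max v₁ (L + 1) with hv₀def
  have hLv₀ : L < v₀ := lt_of_lt_of_le (Nat.lt_succ_self L) (le_max_right _ _)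
  have hτσ : τ ∈ Cy σ L := hV₂sub hτ₀
  have hτV : Cy τ v₀ ⊆ V₂ := (cy_mono (le_max_left _ _)).trans hv₁
  have hτb : Cy τ v₀ ⊆ Cy b₀ L₀ := (hτV.trans hV₂sub).trans hσb
  obtain ⟨X₀, hX₀, hX₀G⟩ := exists_generic hGen (isOpen_cy τ v₀) (cy_nonempty _ _)
  obtain ⟨hX₀1, hX₀2⟩ := hX₀G (hτb hX₀)
  -- the use of the two reductions
  obtain ⟨w, hw⟩ : ∃ w, ∀ Y ∈ Cy (F X₀) w, ∀ i < v₀, (X₀ i).toNat ∈ evalO (chi (jn Y cE)) θ i := by
    have hop : IsOpen (⋂ i ∈ Finset.range v₀,
        (fun Y => jn Y cE) ⁻¹' {Z | (X₀ i).toNat ∈ evalO (chi Z) θ i}) :=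
      isOpen_biInter_finset fun i _ => (isOpen_conv θ i _).preimage (continuous_jn_right' cE)
    have hmem : F X₀ ∈ ⋂ i ∈ Finset.range v₀,
        (fun Y => jn Y cE) ⁻¹' {Z | (X₀ i).toNat ∈ evalO (chi Z) θ i} := by
      simp only [Set.mem_iInter]
      intro i _
      show (X₀ i).toNat ∈ evalO (chi (jn (F X₀) cE)) θ i
      rw [hX₀2]
      exact mem_chi.2 rfl
    obtain ⟨w, hw⟩ := exists_cy_subset hop hmem
    refine ⟨w, fun Y hY i hi => ?_⟩
    have := hw hY
    simp only [Set.mem_iInter] at this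
    exact this i (Finset.mem_range.2 hi)
  obtain ⟨v₂, hv₂⟩ : ∃ v₂, ∀ Y ∈ Cy X₀ v₂, ∀ i < w, (F X₀ i).toNat ∈ evalO (chi (jn Y cF)) ξc i := by
    have hop : IsOpen (⋂ i ∈ Finset.range w,
        (fun Y => jn Y cF) ⁻¹' {Z | (F X₀ i).toNat ∈ evalO (chi Z) ξc i}) :=
      isOpen_biInter_finset fun i _ => (isOpen_conv ξc i _).preimage (continuous_jn_right' cF)
    have hmem : X₀ ∈ ⋂ i ∈ Finset.range w,
        (fun Y => jn Y cF) ⁻¹' {Z | (F X₀ i).toNat ∈ evalO (chi Z) ξc i} := by
      simp only [Set.mem_iInter]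
      intro i _
      show (F X₀ i).toNat ∈ evalO (chi (jn X₀ cF)) ξc i
      rw [hX₀1]
      exact mem_chi.2 rfl
    obtain ⟨v₂, hv₂⟩ := exists_cy_subset hop hmem
    refine ⟨v₂, fun Y hY i hi => ?_⟩
    have := hv₂ hY
    simp only [Set.mem_iInter] at this
    exact this i (Finset.mem_range.2 hi)
  set v := max v₂ v₀ with hvdef
  have hv₀v : v₀ ≤ v := le_max_right _ _
  have hTs : ∀ᶠ X in residual Bits, Ts F σ τ X₀ (F X₀) L v₀ v w X := by
    filter_upwards [hGen] with X hX
    constructor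
    · intro hXX₀ i hi
      have hXb : X ∈ Cy b₀ L₀ := hτb (cy_of_mem hv₀v hX₀ hXX₀)
      have h1 := hv₂ X (cy_mono (le_max_left _ _) hXX₀) i hi
      rw [(hX hXb).1] at h1
      have h2 := mem_chi.1 h1
      cases hA : F X i <;> cases hB : F X₀ i <;> simp_all
    · intro hXσ hXα i hi
      have hXb : X ∈ Cy b₀ L₀ := hσb hXσ
      have h1 := hw _ hXα i hi
      rw [(hX hXb).2] at h1
      have h2 := mem_chi.1 h1
      rw [← hX₀ i hi]
      cases hA : X i <;> cases hB : X₀ i <;> simp_all
  have hSh : ∀ᶠ X in residual Bits, Sh F Γ τ L v₀ X := by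
    filter_upwards [hShift] with X hX hXτ
    exact hX (hτV hXτ)
  have hLw : ∀ᶠ q in residual (Bits × Bits × Bits × Bits), Lw F M σ ζ ξ L q := hlaw
  -- the good pairs
  let Good : Bits × Bits → Prop := fun p =>
    (∀ n k, Lw F M σ ζ ξ L (mOne L n k p)) ∧ (∀ n k, Ts F σ τ X₀ (F X₀) L v₀ v w (mTwo L n k p)) ∧
    (∀ n k, Sh F Γ τ L v₀ (mTwo L n k p)) ∧ (∀ n k, Lw F M σ ζ ξ L (mFour L n k p))
  have hGood : ∀ᶠ p in residual (Bits × Bits), Good p := by
    refine Eventually.and ?_ (Eventually.and ?_ (Eventually.and ?_ ?_))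
    · exact eventually_countable_forall.2 fun n => eventually_countable_forall.2 fun k =>
        pull_add _ (add_mOne L n k) (surj_mOne L n k) (continuous_mOne L n k) hLw
    · exact eventually_countable_forall.2 fun n => eventually_countable_forall.2 fun k =>
        pull_add _ (add_mTwo L n k) (surj_mTwo L n k) (continuous_mTwo L n k) hTs
    · exact eventually_countable_forall.2 fun n => eventually_countable_forall.2 fun k =>
        pull_add _ (add_mTwo L n k) (surj_mTwo L n k) (continuous_mTwo L n k) hSh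
    · exact eventually_countable_forall.2 fun n => eventually_countable_forall.2 fun k =>
        pull_add _ (add_mFour L n k) (surj_mFour L n k) (continuous_mFour L n k) hLw
  have hdecode : ∀ X P, X ∈ Cy σ L → RefOK ζ ξ L v P → Good (X, P) →
      Rd (fun n => X (L + n)) (jn (F X) (F P)) := by
    intro X P hX hP hG
    exact step_decode hF hLv₀ hv₀v hτσ hX₀ hX hP hG.1 hG.2.1 hG.2.2.1 hG.2.2.2
  -- the generic parameter
  have hpair : Continuous fun g : Bits => (evS g, odS g) := continuous_evS.prodMk continuous_odS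
  have hGoodg : ∀ᶠ g in residual Bits, Good (evS g, odS g) :=
    pull_add (fun g : Bits => (evS g, odS g)) (fun _ _ => rfl)
      (fun p => ⟨jn p.1 p.2, by
        show (evS (jn p.1 p.2), odS (jn p.1 p.2)) = p
        rw [evS_jn, odS_jn]⟩) hpair hGood
  set xh := padS L x with hxhdef
  have hGoodt := pull_translate (jn xh 0) hGoodg
  let U : Set Bits := evS ⁻¹' Cy σ L ∩ odS ⁻¹' {P | RefOK ζ ξ L v P}
  have hU : IsOpen U :=
    ((isOpen_cy _ _).preimage continuous_evS).inter ((isOpen_refOK _ _ _ _).preimage continuous_odS)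
  have hUne : U.Nonempty := by
    obtain ⟨P₀, hP₀⟩ := refOK_nonempty ζ ξ L v
    refine ⟨jn σ P₀, ?_, ?_⟩
    · show evS (jn σ P₀) ∈ Cy σ L
      rw [evS_jn]
      exact self_mem_cy _ _
    · show odS (jn σ P₀) ∈ {P | RefOK ζ ξ L v P}
      rw [odS_jn]
      exact hP₀
  refine rd_of_generic hU hUne ?_
  filter_upwards [hGoodg, hGoodt] with g hg1 hg2 hgU
  have hev : evS (g + jn xh 0) = evS g + xh := by
    funext i
    show xor (g (2 * i)) (jn xh 0 (2 * i)) = xor (g (2 * i)) (xh i)
    rw [jn_even]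
  have hod : odS (g + jn xh 0) = odS g := by
    funext i
    show xor (g (2 * i + 1)) (jn xh 0 (2 * i + 1)) = g (2 * i + 1)
    rw [jn_odd]
    show xor (g (2 * i + 1)) false = _
    simp
  rw [hev, hod] at hg2
  obtain ⟨hU1, hU2⟩ := hgU
  have hU1' : evS g + xh ∈ Cy σ L := by
    intro i hi
    rw [bits_add_apply, hxhdef, padS_vanish L x i hi, hU1 i hi]
    simp
  have h1 := hdecode _ _ hU1 hU2 hg1
  have h2 := hdecode _ _ hU1' hU2 hg2
  have hxh : Rd xh x := rd_iff_recursiveIn.2 (pad_reducible L x)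
  let B := jn x g
  have hGB : Rd (evS g) B := (rd_evS g).trans (rd_right _ _)
  have hPB : Rd (odS g) B := (rd_odS g).trans (rd_right _ _)
  have hHB : Rd (evS g + xh) B := rd_add hGB (hxh.trans (rd_left _ _))
  have hxFB : Rd x (F B) := by
    have h3 := h1.trans (rd_jn (rep_mono hF hGB) (rep_mono hF hPB))
    have h4 := h2.trans (rd_jn (rep_mono hF hHB) (rep_mono hF hPB))
    have h5 := rd_map2 (fun b c => xor b c) h3 h4
    have e : (fun i => xor (evS g (L + i)) ((evS g + xh) (L + i))) = x := by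
      funext i
      rw [bits_add_apply, Nat.add_comm L i, hxhdef, padS_apply]
      cases evS g (i + L) <;> cases x i <;> rfl
    rwa [e] at h5
  have h6 : TDeg.of x ≤ π (TDeg.of B) := by
    rw [hF]
    exact of_le_iff.2 hxFB
  have h7 : π.symm (TDeg.of x) ≤ TDeg.of B := π.symm_apply_le.2 h6
  rw [hE] at h7
  exact of_le_iff.1 h7

/-- **Rigidity for automorphisms with measurable representatives.** -/
theorem rigid_of_measurable (π : TDeg ≃o TDeg) (F E : Bits → Bits)
    (hF : ∀ X, π (TDeg.of X) = TDeg.of (F X))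
    (hE : ∀ X, π.symm (TDeg.of X) = TDeg.of (E X))
    (hFm : Measurable F) (hEm : Measurable E) : π = OrderIso.refl TDeg := by
  have hF' : ∀ X, π.symm.symm (TDeg.of X) = TDeg.of (F X) := fun X => by
    rw [OrderIso.symm_symm]
    exact hF X
  ext a
  obtain ⟨X, rfl⟩ := tdeg_surj a
  have h1 := half_rigid hF hE hFm hEm X
  have h2 := half_rigid hE hF' hEm hFm X
  show π (TDeg.of X) = TDeg.of X
  apply le_antisymm
  · rw [hF]
    exact of_le_iff.2 h2
  · have h3 : π.symm (TDeg.of X) ≤ TDeg.of X := by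
      rw [hE]
      exact of_le_iff.2 h1
    exact π.symm_apply_le.1 h3

end Vale.Agent.Lib.P327
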