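import Vale.Agent.Lib.P327.RBound

/-! Basic facts on representatives of automorphisms of the Turing degrees. -/

namespace Vale.Agent.Lib.P327

open Nat Part Filter Topology

theorem of_le_iff {X Y : Bits} : TDeg.of X ≤ TDeg.of Y ↔ Rd X Y := by
  rw [TDeg.of_le_of, rd_iff_recursiveIn]
  simp only [TuringReducible, RecursiveIn.iff_nat]

theorem of_eq_iff {X Y : Bits} : TDeg.of X = TDeg.of Y ↔ Rd X Y ∧ Rd Y X := by
  rw [← of_le_iff, ← of_le_iff]
  exact ⟨fun h => ⟨h.le, h.ge⟩, fun h => le_antisymm h.1 h.2⟩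

theorem tdeg_surj (a : TDeg) : ∃ X, TDeg.of X = a := Quotient.exists_rep a

section rep

variable {π : TDeg ≃o TDeg} {F : Bits → Bits} (hF : ∀ X, π (TDeg.of X) = TDeg.of (F X))

include hF

theorem rep_iff {X Y : Bits} : Rd (F X) (F Y) ↔ Rd X Y := by
  rw [← of_le_iff, ← of_le_iff, ← hF, ← hF]
  exact π.le_iff_le

theorem rep_mono {X Y : Bits} (h : Rd X Y) : Rd (F X) (F Y) := (rep_iff hF).2 h

theorem exists_preimage (Y : Bits) : ∃ Q, TDeg.of (F Q) = TDeg.of Y := by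
  obtain ⟨Q, hQ⟩ := tdeg_surj (π.symm (TDeg.of Y))
  refine ⟨Q, ?_⟩
  rw [← hF, hQ]
  simp

theorem rep_lub {B A₁ A₂ : Bits} (h : Rd B (jn A₁ A₂)) : Rd (F B) (jn (F A₁) (F A₂)) := by
  obtain ⟨Q, hQ⟩ := exists_preimage hF (jn (F A₁) (F A₂))
  obtain ⟨h1, h2⟩ := of_eq_iff.1 hQ
  have hA₁ : Rd A₁ Q := (rep_iff hF).1 ((rd_left _ _).trans h2)
  have hA₂ : Rd A₂ Q := (rep_iff hF).1 ((rd_right _ _).trans h2)
  exact (rep_mono hF (h.trans (rd_jn hA₁ hA₂))).trans h1

end rep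

/-- Xor is a Turing reduction to the join. -/
theorem rd_add_jn (X Y : Bits) : Rd (X + Y) (jn X Y) :=
  rd_map2 (fun b c => xor b c) (rd_left X Y) (rd_right X Y)

theorem rd_add {X Y Z : Bits} (h₁ : Rd X Z) (h₂ : Rd Y Z) : Rd (X + Y) Z :=
  rd_map2 (fun b c => xor b c) h₁ h₂

/-- The generic bound of a representative holds everywhere. -/
theorem rep_bound_all {π : TDeg ≃o TDeg} {E : Bits → Bits}
    (hE : ∀ X, π (TDeg.of X) = TDeg.of (E X)) {c : Bits}
    (hc : ∀ᶠ X in residual Bits, Rd (E X) (jn X c)) (Q : Bits) : Rd (E Q) (jn Q c) := by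
  refine rd_of_generic (U := Set.univ) isOpen_univ Set.univ_nonempty ?_
  filter_upwards [hc, pull_translate Q hc] with G h1 h2 _
  have hQ : Rd Q (jn G (G + Q)) := by
    have : Q = G + (G + Q) := by
      rw [← add_assoc, bits_add_self, zero_add]
    rw [this]
    conv_rhs => rw [← this]
    exact rd_add_jn _ _
  have hlub := rep_lub hE hQ
  refine hlub.trans (rd_jn (h1.trans ?_) (h2.trans ?_))
  · exact rd_jn (rd_right _ _) (((rd_right _ _).trans (rd_left _ _)))
  · refine rd_jn (rd_add (rd_right _ _) ((rd_left _ _).trans (rd_left _ _))) ?_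
    exact (rd_right _ _).trans (rd_left _ _)

/-- A reduction of the argument to the value. -/
theorem rep_inverse_bound {π : TDeg ≃o TDeg} {F E : Bits → Bits}
    (hF : ∀ X, π (TDeg.of X) = TDeg.of (F X))
    (hE : ∀ X, π.symm (TDeg.of X) = TDeg.of (E X)) {c : Bits}
    (hc : ∀ᶠ X in residual Bits, Rd (E X) (jn X c)) (X : Bits) : Rd X (jn (F X) c) := by
  have h1 := rep_bound_all hE hc (F X)
  have h2 : TDeg.of (E (F X)) = TDeg.of X := by
    rw [← hE, ← hF]
    simp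
  exact (of_eq_iff.1 h2).2.trans h1

end Vale.Agent.Lib.P327
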