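import Vale.Agent.Lib.P327.RLaws
import Vale.Agent.Lib.P327.RIter

/-! Decoding a generic real from its image: the step functional and its iteration. -/

namespace Vale.Agent.Lib.P327

open Nat Part Filter Topology

/-- Deleting position `L` of a sequence. -/
def shT (L : ℕ) (X : Bits) : Bits := fun i => if i < L then X i else X (i + 1)

/-- Inserting a zero at position `L` of a sequence. -/
def insT (L : ℕ) (X : Bits) : Bits :=
  fun i => if i < L then X i else if i = L then false else X (i - 1)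

theorem shT_insT (L : ℕ) (X : Bits) : shT L (insT L X) = X := by
  funext i
  simp only [shT, insT]
  by_cases h : i < L
  · simp [h]
  · have h1 : ¬ i + 1 < L := by omega
    have h2 : i + 1 ≠ L := by omega
    simp [h, h1, h2]

theorem shT_add (L : ℕ) (X Y : Bits) : shT L (X + Y) = shT L X + shT L Y := by
  funext i
  simp only [shT, bits_add_apply]
  split_ifs <;> rfl

theorem continuous_shT (L : ℕ) : Continuous (shT L) := by
  refine continuous_pi fun i => ?_
  simp only [shT]
  split_ifs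
  · exact continuous_apply _
  · exact continuous_apply _

theorem shT_surjective (L : ℕ) : Function.Surjective (shT L) :=
  fun X => ⟨insT L X, shT_insT L X⟩

theorem shT_iter_add (L n : ℕ) (X Y : Bits) :
    (shT L)^[n] (X + Y) = (shT L)^[n] X + (shT L)^[n] Y := by
  induction n generalizing X Y with
  | zero => rfl
  | succ n ih =>
      simp only [Function.iterate_succ_apply]
      rw [shT_add, ih]

theorem shT_iter_continuous (L n : ℕ) : Continuous (shT L)^[n] :=
  (continuous_shT L).iterate n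

theorem shT_iter_surjective (L n : ℕ) : Function.Surjective (shT L)^[n] :=
  (shT_surjective L).iterate n

theorem shT_iter_high {L : ℕ} (n : ℕ) (X : Bits) {i : ℕ} (hi : L ≤ i) :
    (shT L)^[n] X i = X (i + n) := by
  induction n generalizing X with
  | zero => rfl
  | succ n ih =>
      rw [Function.iterate_succ_apply, ih]
      simp only [shT]
      rw [if_neg (by omega)]
      rfl

theorem shT_mem_cy {σ X : Bits} {L : ℕ} (hX : X ∈ Cy σ L) : shT L X ∈ Cy σ L := by
  intro i hi
  simp only [shT]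
  rw [if_pos hi]
  exact hX i hi

theorem shT_iter_mem_cy {σ X : Bits} {L : ℕ} (n : ℕ) (hX : X ∈ Cy σ L) :
    (shT L)^[n] X ∈ Cy σ L := by
  induction n generalizing X with
  | zero => exact hX
  | succ n ih =>
      rw [Function.iterate_succ_apply]
      exact ih (shT_mem_cy hX)

theorem rd_shT (L : ℕ) (X : Bits) : Rd (shT L X) X := by
  have hg : Computable fun i : ℕ => cond (decide (i < L)) i (i + 1) := by
    have h0 : Primrec fun i : ℕ => decide (i < L) :=
      PrimrecPred.decide (Primrec.nat_lt.comp Primrec.id (Primrec.const L))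
    exact (Primrec.cond h0 Primrec.id Primrec.succ).to_comp
  have h := rd_reindex hg (Rd.refl X)
  have e : shT L X = fun i => X (cond (decide (i < L)) i (i + 1)) := by
    funext i
    simp only [shT]
    by_cases hi : i < L <;> simp [hi]
  rw [e]
  exact h

/-- Column `j` of a sequence read as a matrix. -/
def col (j : ℕ) (P : Bits) : Bits := fun i => P (Nat.pair j i)

/-- The sequence with prescribed columns. -/
def unrow (G : ℕ → Bits) : Bits := fun m => G m.unpair.1 m.unpair.2

theorem col_unrow (G : ℕ → Bits) (j : ℕ) : col j (unrow G) = G j := by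
  funext i
  simp [col, unrow]

theorem col_add (j : ℕ) (P Q : Bits) : col j (P + Q) = col j P + col j Q := rfl

theorem continuous_col (j : ℕ) : Continuous (col j) :=
  continuous_pi fun _ => continuous_apply _

theorem rd_col (j : ℕ) (P : Bits) : Rd (col j P) P := by
  have hg : Computable fun i : ℕ => Nat.pair j i :=
    (Primrec₂.natPair.comp (Primrec.const j) Primrec.id).to_comp
  exact rd_reindex (X := P) hg (Rd.refl P)

/-- The translate number `k`: its bits between `L` and `v`. -/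
def dk (L v k : ℕ) : Bits := fun i => decide (L ≤ i) && (decide (i < v) && k.testBit i)

theorem dk_low {L v k i : ℕ} (hi : i < L) : dk L v k i = false := by
  have : ¬ L ≤ i := by omega
  simp [dk, this]

theorem exists_bits (pat : Bits) (v : ℕ) : ∃ k < 2 ^ v, ∀ i < v, k.testBit i = pat i := by
  induction v with
  | zero => exact ⟨0, by simp, fun i hi => absurd hi (Nat.not_lt_zero _)⟩
  | succ v ih =>
      obtain ⟨k, hk, hk2⟩ := ih
      cases hp : pat v with
      | false =>
          refine ⟨k, by rw [pow_succ]; omega, fun i hi => ?_⟩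
          rcases Nat.lt_succ_iff_lt_or_eq.1 hi with h | rfl
          · exact hk2 i h
          · rw [hp]
            exact Nat.testBit_lt_two_pow hk
      | true =>
          refine ⟨2 ^ v + k, by rw [pow_succ]; omega, fun i hi => ?_⟩
          rcases Nat.lt_succ_iff_lt_or_eq.1 hi with h | rfl
          · rw [Nat.testBit_two_pow_add_gt h]
            exact hk2 i h
          · rw [hp, Nat.testBit_two_pow_add_eq, Nat.testBit_lt_two_pow hk]
            rfl

theorem exists_dk (L v : ℕ) (pat : Bits) :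
    ∃ k ≤ 2 ^ v, ∀ i, L ≤ i → i < v → dk L v k i = pat i := by
  obtain ⟨k, hk, hk2⟩ := exists_bits pat v
  refine ⟨k, hk.le, fun i h1 h2 => ?_⟩
  simp [dk, h1, h2, hk2 i h2]

section defs

variable (F : Bits → Bits) (M Γ : OCode) (σ ζ ξ τ X₀ α : Bits) (L v₀ v w : ℕ)

/-- The law on quadruples at `q`. -/
def Lw (q : Bits × Bits × Bits × Bits) : Prop :=
  q.1 ∈ Cy σ L → q.2.1 ∈ Cy ζ L → q.2.2.1 ∈ Cy ζ L → q.2.2.2 ∈ Cy ξ L →
    evalO (chi (jn4 (F q.1) (F q.2.1) (F q.2.2.1) (F q.2.2.2))) M =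
      chi (F (q.1 + q.2.1 + q.2.2.1))

/-- The prefix test at `X`. -/
def Ts (X : Bits) : Prop :=
  (X ∈ Cy X₀ v → F X ∈ Cy α w) ∧ (X ∈ Cy σ L → F X ∈ Cy α w → X ∈ Cy τ v₀)

/-- The shift law at `X`. -/
def Sh (X : Bits) : Prop := X ∈ Cy τ v₀ → evalO (chi (F X)) Γ = chi (F (shT L X))

/-- The conditions on the references coded by `P`. -/
def RefOK (P : Bits) : Prop :=
  col 0 P ∈ Cy ξ L ∧ ∀ k ≤ 2 ^ v, col (2 * k + 1) P ∈ Cy ζ v ∧ col (2 * k + 2) P ∈ Cy (ζ + dk L v k) v

end defs

/-- **The decoding step.** -/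
theorem step_decode {π : TDeg ≃o TDeg} {F : Bits → Bits}
    (hF : ∀ X, π (TDeg.of X) = TDeg.of (F X)) {M Γ : OCode} {σ ζ ξ τ X₀ α : Bits}
    {L v₀ v w : ℕ} (hLv₀ : L < v₀) (hv₀ : v₀ ≤ v) (hτ : τ ∈ Cy σ L) (hX₀ : X₀ ∈ Cy τ v₀)
    {X P : Bits} (hX : X ∈ Cy σ L) (hP : RefOK ζ ξ L v P)
    (hG1 : ∀ n k, Lw F M σ ζ ξ L ((shT L)^[n] X, col (2 * k + 1) P, col (2 * k + 2) P, col 0 P))
    (hG2 : ∀ n k, Ts F σ τ X₀ α L v₀ v w ((shT L)^[n] X + col (2 * k + 1) P + col (2 * k + 2) P))
    (hG3 : ∀ n k, Sh F Γ τ L v₀ ((shT L)^[n] X + col (2 * k + 1) P + col (2 * k + 2) P))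
    (hG4 : ∀ n k, Lw F M σ ζ ξ L (shT L ((shT L)^[n] X + col (2 * k + 1) P + col (2 * k + 2) P),
      shT L (col (2 * k + 1) P), shT L (col (2 * k + 2) P), col 0 P)) :
    Rd (fun n => X (L + n)) (jn (F X) (F P)) := by
  set K := 2 ^ v with hK
  let Xn : ℕ → Bits := fun n => (shT L)^[n] X
  let R₁ : ℕ → Bits := fun k => col (2 * k + 1) P
  let R₂ : ℕ → Bits := fun k => col (2 * k + 2) P
  let a : Bits := col 0 P
  let Xp : ℕ → ℕ → Bits := fun n k => Xn n + R₁ k + R₂ k
  let W : Bits := F P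
  let b : ℕ → Bool := fun n => Nat.casesOn n false fun m => Xn m L
  let Ω : ℕ → Bits := fun n => jn (jn (F (Xn n)) (fun _ => b n)) W
  have hXn : ∀ n, Xn n ∈ Cy σ L := fun n => shT_iter_mem_cy n hX
  have ha : a ∈ Cy ξ L := hP.1
  have hR₁v : ∀ k ≤ K, R₁ k ∈ Cy ζ v := fun k hk => (hP.2 k hk).1
  have hR₂v : ∀ k ≤ K, R₂ k ∈ Cy (ζ + dk L v k) v := fun k hk => (hP.2 k hk).2
  have hLv : L ≤ v := by omega
  have hR₁L : ∀ k ≤ K, R₁ k ∈ Cy ζ L := fun k hk => cy_mono hLv (hR₁v k hk)
  have hR₂L : ∀ k ≤ K, R₂ k ∈ Cy ζ L := by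
    intro k hk i hi
    rw [hR₂v k hk i (by omega), bits_add_apply, dk_low hi]
    simp
  have hRsum : ∀ k ≤ K, ∀ i < v, xor (R₁ k i) (R₂ k i) = dk L v k i := by
    intro k hk i hi
    rw [hR₁v k hk i hi, hR₂v k hk i hi, bits_add_apply]
    cases ζ i <;> cases dk L v k i <;> rfl
  have hXpval : ∀ n, ∀ k ≤ K, ∀ i < v, Xp n k i = xor (Xn n i) (dk L v k i) := by
    intro n k hk i hi
    rw [← hRsum k hk i hi]
    simp only [Xp, bits_add_apply]
    cases Xn n i <;> cases R₁ k i <;> cases R₂ k i <;> rfl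
  have hXp : ∀ n, ∀ k ≤ K, Xp n k ∈ Cy σ L := by
    intro n k hk i hi
    rw [hXpval n k hk i (by omega), dk_low hi, hXn n i hi]
    simp
  -- the families
  have hy : Fam Ω (fun n => F (Xn n)) :=
    (Fam.join_left _ _).trans (Fam.join_left _ _)
  have hW : ∀ B, Rd B W → Fam Ω (fun _ => B) := fun B h => h.fam (Fam.join_right _ _)
  have hFcol : ∀ j, Rd (F (col j P)) W := fun j => rep_mono hF (rd_col j P)
  have hFshcol : ∀ j, Rd (F (shT L (col j P))) W := fun j =>
    rep_mono hF ((rd_shT L _).trans (rd_col j P))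
  have hz : ∀ k ≤ K, Fam Ω (fun n => F (Xp n k)) := by
    intro k hk
    refine (Fam.pk4 hy (hW _ (hFcol (2 * k + 1))) (hW _ (hFcol (2 * k + 2))) (hW _ (hFcol 0))).trans
      ⟨M, fun n => ?_⟩
    exact hG1 n k (hXn n) (hR₁L k hk) (hR₂L k hk) ha
  let t : ℕ → ℕ → Bool := fun n k => cyT α (F (Xp n k)) w
  have ht : ∀ k ≤ K, Fam Ω (fun n _ => t n k) := fun k hk => (hz k hk).test α w
  let sel : ℕ → ℕ := fun n => pick (t n) K
  have hselK : ∀ n, sel n ≤ K := fun n => pick_le _ _
  have hsel1 : ∀ n, t n (sel n) = true := by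
    intro n
    obtain ⟨k, hk, hk2⟩ := exists_dk L v (fun i => xor (Xn n i) (X₀ i))
    refine pick_spec _ K k hk (cyT_iff.2 ?_)
    refine (hG2 n k).1 ?_
    intro i hi
    show Xp n k i = X₀ i
    rw [hXpval n k hk i hi]
    by_cases hiL : i < L
    · rw [dk_low hiL, hXn n i hiL, ← hτ i hiL, ← hX₀ i (by omega)]
      simp
    · rw [hk2 i (by omega) hi]
      simp
  have hsel2 : ∀ n, Xp n (sel n) ∈ Cy τ v₀ := fun n =>
    (hG2 n (sel n)).2 (hXp n _ (hselK n)) (cyT_iff.1 (hsel1 n))
  have hzs : Fam Ω (fun n => F (Xp n (sel n))) :=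
    Fam.select (t := t) (G := fun n k => F (Xp n k)) K ht hz
  have hw : Fam Ω (fun n => F (shT L (Xp n (sel n)))) :=
    hzs.trans ⟨Γ, fun n => hG3 n (sel n) (hsel2 n)⟩
  have hR₁s : Fam Ω (fun n => F (shT L (R₁ (sel n)))) :=
    Fam.select (t := t) (G := fun _ k => F (shT L (R₁ k))) K ht
      fun k _ => hW _ (hFshcol (2 * k + 1))
  have hR₂s : Fam Ω (fun n => F (shT L (R₂ (sel n)))) :=
    Fam.select (t := t) (G := fun _ k => F (shT L (R₂ k))) K ht
      fun k _ => hW _ (hFshcol (2 * k + 2))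
  have hyn : Fam Ω (fun n => F (Xn (n + 1))) := by
    have h4 : Fam (fun n => jn4 (F (shT L (Xp n (sel n)))) (F (shT L (R₁ (sel n))))
        (F (shT L (R₂ (sel n)))) (F a))
        (fun n => F (shT L (Xp n (sel n)) + shT L (R₁ (sel n)) + shT L (R₂ (sel n)))) :=
      ⟨M, fun n => hG4 n (sel n) (shT_mem_cy (hXp n _ (hselK n))) (shT_mem_cy (hR₁L _ (hselK n)))
        (shT_mem_cy (hR₂L _ (hselK n))) ha⟩
    refine ((Fam.pk4 hw hR₁s hR₂s (hW _ (hFcol 0))).trans h4).of_eq fun n => ?_
    · congr 1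
      rw [← shT_add, ← shT_add]
      show shT L (Xp n (sel n) + R₁ (sel n) + R₂ (sel n)) = (shT L)^[n + 1] X
      rw [Function.iterate_succ_apply']
      congr 1
      funext i
      show xor (xor (xor (xor (Xn n i) (R₁ (sel n) i)) (R₂ (sel n) i)) (R₁ (sel n) i))
        (R₂ (sel n) i) = Xn n i
      generalize Xn n i = x
      generalize R₁ (sel n) i = y
      generalize R₂ (sel n) i = z
      cases x <;> cases y <;> cases z <;> rfl
  have hb : Fam Ω (fun n _ => b (n + 1)) := by
    refine (Fam.select (t := t) (G := fun _ k _ => xor (τ L) (dk L v k L)) K ht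
      fun k _ => Fam.const (Computable.const _)).of_eq fun n => ?_
    funext i
    show xor (τ L) (dk L v (sel n) L) = Xn n L
    have h1 : Xp n (sel n) L = τ L := hsel2 n L hLv₀
    have h2 := hXpval n (sel n) (hselK n) L (by omega)
    rw [← h1, h2]
    cases Xn n L <;> cases dk L v (sel n) L <;> rfl
  have hstep : Fam Ω (fun n => Ω (n + 1)) :=
    Fam.join (Fam.join hyn hb) (hW W (Rd.refl W))
  obtain ⟨c, hc⟩ := hstep
  have hit := iterate_code c hc
  have hg : Computable fun n : ℕ => Nat.pair (n + 1) 2 :=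
    (Primrec₂.natPair.comp Primrec.succ (Primrec.const 2)).to_comp
  have h1 := rd_reindex hg hit
  have h2 : (fun n => X (L + n)) = fun i => (fun w => Ω w.unpair.1 w.unpair.2) (Nat.pair (i + 1) 2) := by
    funext n
    simp only [Nat.unpair_pair]
    have e1 : Ω (n + 1) 2 = b (n + 1) := by
      have e : (2 : ℕ) = 2 * 1 := rfl
      show jn (jn (F (Xn (n + 1))) (fun _ => b (n + 1))) W 2 = b (n + 1)
      rw [e, jn_even]
      have e' : (1 : ℕ) = 2 * 0 + 1 := rfl
      rw [e', jn_odd]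
    rw [e1]
    show X (L + n) = (shT L)^[n] X L
    rw [shT_iter_high n X le_rfl]
  rw [h2]
  refine h1.trans ?_
  show Rd (jn (jn (F X) (fun _ => false)) (F P)) (jn (F X) (F P))
  exact rd_jn (rd_jn (rd_left _ _) (rd_of_computable (Computable.const false) _)) (rd_right _ _)

end Vale.Agent.Lib.P327
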