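import Vale.Agent.Lib.P327.Rows

namespace Vale.Agent.Lib.P327

open Nat Part

theorem recIn_of_computable {O : Set (ℕ →. ℕ)} {f : ℕ → ℕ} (hf : Computable f) :
    Nat.RecursiveIn O (fun n => Part.some (f n)) :=
  Nat.Partrec.recursiveIn (Partrec.nat_iff.1 hf.partrec)

/-- The query made at stage `y` for the argument `a`. -/
def queryFn (r : ℕ → List ℕ) (q : ℕ) : ℕ := (r q.unpair.1).getD q.unpair.2.unpair.1 0

/-- The update of the partial xor after the oracle answer. -/
def updFn (r : ℕ → List ℕ) (w : ℕ) : ℕ :=
  cond (decide (w.unpair.1.unpair.2.unpair.1 < (r w.unpair.1.unpair.1).length))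
    (cond (decide (w.unpair.1.unpair.2.unpair.2 = w.unpair.2)) 0 1)
    w.unpair.1.unpair.2.unpair.2

theorem computable_queryFn {r : ℕ → List ℕ} (hr : Computable r) : Computable (queryFn r) := by
  have h1 : Computable fun q : ℕ => r q.unpair.1 :=
    hr.comp (Computable.fst.comp Computable.unpair)
  have h2 : Computable fun q : ℕ => q.unpair.2.unpair.1 :=
    Computable.fst.comp (Computable.unpair.comp (Computable.snd.comp Computable.unpair))
  have h3 := ((Primrec.list_getD (0 : ℕ)).to_comp).comp h1 h2
  exact h3

theorem computable_updFn {r : ℕ → List ℕ} (hr : Computable r) : Computable (updFn r) := by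
  have hu : Computable Nat.unpair := Computable.unpair
  have hi : Computable fun w : ℕ => w.unpair.1.unpair.2.unpair.2 :=
    Computable.snd.comp (hu.comp (Computable.snd.comp (hu.comp (Computable.fst.comp hu))))
  have hy : Computable fun w : ℕ => w.unpair.1.unpair.2.unpair.1 :=
    Computable.fst.comp (hu.comp (Computable.snd.comp (hu.comp (Computable.fst.comp hu))))
  have ha : Computable fun w : ℕ => w.unpair.1.unpair.1 :=
    Computable.fst.comp (hu.comp (Computable.fst.comp hu))
  have hb : Computable fun w : ℕ => w.unpair.2 := Computable.snd.comp hu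
  have hlt : Computable fun p : ℕ × ℕ => decide (p.1 < p.2) :=
    (PrimrecPred.decide (Primrec.nat_lt.comp Primrec.fst Primrec.snd)).to_comp
  have heq : Computable fun p : ℕ × ℕ => decide (p.1 = p.2) :=
    (PrimrecPred.decide (Primrec.eq.comp Primrec.fst Primrec.snd)).to_comp
  have hlen : Computable fun w : ℕ => (r w.unpair.1.unpair.1).length :=
    Computable.list_length.comp (hr.comp ha)
  have h1 := hlt.comp (hy.pair hlen)
  have h2 := heq.comp (hi.pair hb)
  have h3 := Computable.cond h2 (Computable.const 0) (Computable.const 1)
  have h4 := Computable.cond h1 h3 hi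
  exact h4.of_eq fun w => rfl

theorem reducible_of_rows {r : ℕ → List ℕ} (hr : Computable r) {X Y : ℕ → Bool}
    (h : ∀ n, X n = xorList (r n) Y) : Nat.RecursiveIn {chi Y} (chi X) := by
  set O : Set (ℕ →. ℕ) := {chi Y} with hO
  have hQ : Nat.RecursiveIn O (fun q => Part.some (queryFn r q)) :=
    recIn_of_computable (computable_queryFn hr)
  have hG : Nat.RecursiveIn O (fun q => Part.some (updFn r q)) :=
    recIn_of_computable (computable_updFn hr)
  have hId : Nat.RecursiveIn O (fun q => Part.some q) :=
    recIn_of_computable Computable.id
  have hOr : Nat.RecursiveIn O (chi Y) := .oracle _ rfl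
  -- one oracle step
  have hh : Nat.RecursiveIn O
      (fun q => Part.some (updFn r (Nat.pair q (Y (queryFn r q)).toNat))) := by
    refine (Nat.RecursiveIn.comp hG (Nat.RecursiveIn.pair hId (Nat.RecursiveIn.comp hOr hQ))).of_eq ?_
    intro q
    have h1 : (Part.some (queryFn r q) >>= chi Y) = Part.some (Y (queryFn r q)).toNat := by
      exact Part.bind_some _ _
    simp only [Seq.seq, Functor.map, h1]
    simp [Part.bind_eq_bind]
  have hzero : Nat.RecursiveIn O (fun _ => Part.some 0) := recIn_of_computable (Computable.const 0)
  have hA := Nat.RecursiveIn.prec hzero hh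
  -- the value of the recursion
  have hval : ∀ a n, (Nat.rec (motive := fun _ => Part ℕ) (Part.some 0)
      (fun y IH => IH.bind fun i =>
        Part.some (updFn r (Nat.pair (Nat.pair a (Nat.pair y i))
          (Y (queryFn r (Nat.pair a (Nat.pair y i)))).toNat))) n : Part ℕ) =
      Part.some (xorList ((r a).take n) Y).toNat := by
    intro a n
    induction n with
    | zero => simp [xorList_nil]
    | succ n ih =>
        simp only [ih, Part.bind_some]
        congr 1
        simp only [updFn, queryFn, Nat.unpair_pair]
        by_cases hn : n < (r a).length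
        · simp only [hn, decide_true, cond_true]
          rw [List.take_add_one, xorList_append, List.getElem?_eq_getElem hn]
          simp only [Option.toList_some, xorList_cons, xorList_nil, Bool.xor_false]
          rw [List.getD_eq_getElem _ _ hn]
          cases xorList (List.take n (r a)) Y <;> cases Y (r a)[n] <;> rfl
        · simp only [hn, decide_false, cond_false]
          rw [List.take_of_length_le (by omega), List.take_of_length_le (by omega)]
  have hpairFn : Computable fun n => Nat.pair n (r n).length :=
    (Primrec₂.natPair.to_comp).comp Computable.id (Computable.list_length.comp hr)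
  refine (Nat.RecursiveIn.comp hA (recIn_of_computable hpairFn)).of_eq ?_
  intro n
  show (Part.some (Nat.pair n (r n).length)).bind _ = _
  rw [Part.bind_some]
  simp only [Nat.unpair_pair]
  have := hval n (r n).length
  simp only [bind, List.take_length] at this ⊢
  show _ = Part.some (X n).toNat
  rw [h n]
  exact this

end Vale.Agent.Lib.P327
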