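import Vale.Agent.Lib.P327.Matrix

namespace Vale.Agent.Lib.P327

open Nat Part

/-- Xor of the entries of `Y` listed in `l`. -/
def xorList (l : List ℕ) (Y : ℕ → Bool) : Bool := l.foldr (fun j b => xor (Y j) b) false

theorem xorList_nil (Y : ℕ → Bool) : xorList [] Y = false := rfl

theorem xorList_cons (j : ℕ) (l : List ℕ) (Y : ℕ → Bool) :
    xorList (j :: l) Y = xor (Y j) (xorList l Y) := rfl

theorem xorList_append (l₁ l₂ : List ℕ) (Y : ℕ → Bool) :
    xorList (l₁ ++ l₂) Y = xor (xorList l₁ Y) (xorList l₂ Y) := by
  induction l₁ with
  | nil => simp [xorList_nil]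
  | cons a l ih => simp [xorList_cons, ih, Bool.xor_assoc]

/-- The list of all `j < n` with `b j` true. -/
def rowOf (b : ℕ → Bool) : ℕ → List ℕ
  | 0 => []
  | n + 1 => rowOf b n ++ cond (b n) [n] []

theorem xorList_rowOf (b : ℕ → Bool) (n : ℕ) (Y : ℕ → Bool) :
    xorList (rowOf b n) Y = xorSum n (fun j => Y j && b j) := by
  induction n with
  | zero => rfl
  | succ n ih =>
      simp only [rowOf, xorSum, xorList_append, ih]
      cases b n <;> simp [xorList_cons, xorList_nil]

theorem computable_row {u : ℕ → ℕ} {B : ℕ × ℕ → Bool} (hu : Computable u) (hB : Computable B) :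
    Computable fun k => rowOf (fun j => B (k, j)) (u k) := by
  have hstep : Computable₂ (fun (k : ℕ) (p : ℕ × List ℕ) =>
      p.2 ++ cond (B (k, p.1)) [p.1] []) := by
    have h1 : Computable fun q : ℕ × ℕ × List ℕ => B (q.1, q.2.1) :=
      hB.comp (Computable.fst.pair (Computable.fst.comp Computable.snd))
    have h2 : Computable fun q : ℕ × ℕ × List ℕ => [q.2.1] :=
      Computable.list_cons.comp (Computable.fst.comp Computable.snd) (Computable.const [])
    have h3 : Computable fun q : ℕ × ℕ × List ℕ => cond (B (q.1, q.2.1)) [q.2.1] [] :=
      Computable.cond h1 h2 (Computable.const [])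
    exact Computable.list_append.comp (Computable.snd.comp Computable.snd) h3
  refine (Computable.nat_rec hu (Computable.const []) hstep).of_eq fun k => ?_
  generalize u k = n
  induction n with
  | zero => rfl
  | succ n ih =>
      simp only [rowOf]
      rw [← ih]

/-- Concatenate the rows along a list. -/
def flatAux (row : ℕ → List ℕ) (l : List ℕ) : ℕ → List ℕ
  | 0 => []
  | i + 1 => flatAux row l i ++ row (l.getD i 0)

theorem computable_flat {row : ℕ → List ℕ} (hrow : Computable row) :
    Computable fun l : List ℕ => flatAux row l l.length := by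
  have hstep : Computable₂ (fun (l : List ℕ) (p : ℕ × List ℕ) =>
      p.2 ++ row (l.getD p.1 0)) := by
    have h1 : Computable fun q : List ℕ × ℕ × List ℕ => q.1.getD q.2.1 0 :=
      ((Primrec.list_getD 0).to_comp).comp Computable.fst (Computable.fst.comp Computable.snd)
    exact Computable.list_append.comp (Computable.snd.comp Computable.snd) (hrow.comp h1)
  refine (Computable.nat_rec Computable.list_length (Computable.const []) hstep).of_eq fun l => ?_
  generalize l.length = n
  induction n with
  | zero => rfl
  | succ n ih =>
      simp only [flatAux]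
      rw [← ih]

theorem xorList_flat {row : ℕ → List ℕ} {Y V : ℕ → Bool} (hrow : ∀ k, V k = xorList (row k) Y)
    (l : List ℕ) : xorList (flatAux row l l.length) Y = xorList l V := by
  have key : ∀ i ≤ l.length, xorList (flatAux row l i) Y = xorList (l.take i) V := by
    intro i
    induction i with
    | zero => intro _; rfl
    | succ i ih =>
        intro hi
        have hi' : i < l.length := by omega
        rw [flatAux, xorList_append, ih (by omega), List.take_succ, xorList_append,
          List.getElem?_eq_getElem hi']
        simp only [Option.toList_some, xorList_cons, xorList_nil, Bool.xor_false]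
        rw [← hrow, List.getD_eq_getElem _ _ hi']
  rw [key _ le_rfl, List.take_length]

/-- The iterated rows. -/
def iterRow (step : List ℕ → List ℕ) (r₀ : List ℕ) : ℕ → List ℕ
  | 0 => r₀
  | n + 1 => step (iterRow step r₀ n)

theorem computable_iterRow {step : List ℕ → List ℕ} (hstep : Computable step) (r₀ : List ℕ) :
    Computable (iterRow step r₀) := by
  have h : Computable₂ (fun (_ : ℕ) (p : ℕ × List ℕ) => step p.2) :=
    hstep.comp (Computable.snd.comp Computable.snd)
  refine (Computable.nat_rec Computable.id (Computable.const r₀) h).of_eq fun n => ?_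
  simp only [id]
  induction n with
  | zero => rfl
  | succ n ih =>
      simp only [iterRow]
      rw [← ih]

end Vale.Agent.Lib.P327
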