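import Vale.Agent.Lib.P327.ColMain

namespace Vale.Agent.Lib.P327

open Nat Part

theorem recIn_trans {f g h : ℕ →. ℕ} (h1 : Nat.RecursiveIn {g} f) (h2 : Nat.RecursiveIn {h} g) :
    Nat.RecursiveIn {h} f :=
  h1.subst fun g' hg' => by
    rw [Set.mem_singleton_iff] at hg'
    rw [hg']
    exact h2

/-- Search for a witness of a computable test. -/
theorem exists_total_search {α : Type} [Primcodable α] {check : α × ℕ → Bool}
    (hc : Computable check) (h : ∀ a, ∃ w, check (a, w) = true) :
    ∃ W : α → ℕ, Computable W ∧ ∀ a, check (a, W a) = true := by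
  have hp : Partrec₂ (fun (a : α) (w : ℕ) => (Part.some (check (a, w)) : Part Bool)) := hc.partrec
  have hpart : Partrec fun a => Nat.rfind fun w => (Part.some (check (a, w)) : Part Bool) :=
    Partrec.rfind hp
  have hdom : ∀ a, (Nat.rfind fun w => (Part.some (check (a, w)) : Part Bool)).Dom := by
    intro a
    obtain ⟨w, hw⟩ := h a
    obtain ⟨n, hn, -⟩ := Nat.rfind_min' (p := fun w => check (a, w)) (m := w) hw
    exact Part.dom_iff_mem.2 ⟨n, hn⟩
  refine ⟨fun a => (Nat.rfind fun w => (Part.some (check (a, w)) : Part Bool)).get (hdom a),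
    hpart.of_eq_tot fun a => Part.get_mem _, fun a => ?_⟩
  have := Nat.rfind_spec (Part.get_mem (hdom a))
  simpa using this

theorem fill_pref {X : ℕ → Bool} {v : ℕ} (h : ∀ i, v ≤ i → X i = false) : fill (pref X v) = X := by
  funext i
  simp only [fill]
  by_cases hi : i < v
  · have hi' : i < (pref X v).length := by rw [pref_length]; exact hi
    rw [List.getD_eq_getElem _ _ hi', pref_getElem]
  · rw [List.getD_eq_default _ _ (by rw [pref_length]; omega), h i (by omega)]

section next

variable {G : (ℕ → Bool) → ℕ → Bool}

/-- Existence of elements of the image with a late first nonzero position. -/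
theorem exists_late (hadd : ∀ X Y, G (xorS X Y) = xorS (G X) (G Y)) (hinj : Function.Injective G)
    (q : ℕ) : ∃ σ p, q ≤ p ∧ (∀ i < p, G (fill σ) i = false) ∧ G (fill σ) p = true := by
  obtain ⟨a, b, hab, hf⟩ := Finite.exists_ne_map_eq_of_infinite
    (fun j : ℕ => fun i : Fin q => G (unitS j) i)
  have hf' : ∀ i < q, G (unitS a) i = G (unitS b) i := fun i hi => congrFun hf ⟨i, hi⟩
  let X : ℕ → Bool := xorS (unitS a) (unitS b)
  have hX : X ≠ fun _ => false := by
    intro h
    have := congrFun h a
    simp only [X, xorS, unitS, decide_true] at this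
    have hba : a ≠ b := hab
    simp [hba] at this
  have hX0 : G X ≠ fun _ => false := by
    intro h
    exact hX (hinj (h.trans (map_zero' hadd).symm))
  have hex : ∃ p, G X p = true := by
    by_contra hne
    apply hX0
    funext p
    by_contra hp
    exact hne ⟨p, by simpa using hp⟩
  classical
  let p := Nat.find hex
  have hp : G X p = true := Nat.find_spec hex
  have hmin : ∀ i < p, G X i = false := fun i hi => by
    have := Nat.find_min hex hi
    simpa using this
  have hq : q ≤ p := by
    by_contra hlt
    have h1 := hf' p (by omega)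
    have h2 : G X p = xor (G (unitS a) p) (G (unitS b) p) := by
      simp only [X, hadd]; rfl
    rw [h1] at h2
    simp at h2
    rw [h2] at hp
    simp at hp
  have hfill : fill (pref X (max a b + 1)) = X := by
    refine fill_pref fun i hi => ?_
    have h1 : i ≠ a := by
      have := le_max_left a b
      omega
    have h2 : i ≠ b := by
      have := le_max_right a b
      omega
    simp [X, xorS, unitS, h1, h2]
  exact ⟨pref X (max a b + 1), p, hq, by rw [hfill]; exact hmin, by rw [hfill]; exact hp⟩

end next

/-- The test used to find the next element. -/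
def nextCheck (col : ℕ × ℕ → Bool) (r : ℕ × ℕ) : Bool :=
  decide (r.1 ≤ r.2.unpair.2) && colVal col (strOf r.2.unpair.1) r.2.unpair.2 &&
    decide (pref (colVal col (strOf r.2.unpair.1)) r.2.unpair.2 =
      pref (fun _ => false) r.2.unpair.2)

theorem computable_nextCheck {col : ℕ × ℕ → Bool} (hcol : Computable col) :
    Computable (nextCheck col) := by
  have hu : Computable Nat.unpair := Computable.unpair
  have hp : Computable fun r : ℕ × ℕ => r.2.unpair.2 :=
    Computable.snd.comp (hu.comp Computable.snd)
  have hσ : Computable fun r : ℕ × ℕ => strOf r.2.unpair.1 :=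
    computable_strOf.comp (Computable.fst.comp (hu.comp Computable.snd))
  have h1 : Computable fun r : ℕ × ℕ => decide (r.1 ≤ r.2.unpair.2) := by
    have h0 : Computable fun p : ℕ × ℕ => decide (p.1 ≤ p.2) :=
      (PrimrecPred.decide (Primrec.nat_le.comp Primrec.fst Primrec.snd)).to_comp
    have := h0.comp (Computable.fst.pair hp)
    exact this
  have h2 : Computable fun r : ℕ × ℕ => colVal col (strOf r.2.unpair.1) r.2.unpair.2 := by
    have := (computable_colVal hcol).comp (hσ.pair hp)
    exact this
  have h3 : Computable fun r : ℕ × ℕ => pref (colVal col (strOf r.2.unpair.1)) r.2.unpair.2 := by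
    have := (computable_imgStr hcol).comp (hσ.pair hp)
    exact this
  have h4 : Computable fun r : ℕ × ℕ => pref (fun _ => false) r.2.unpair.2 := by
    have h0 := computable_pref (α := ℕ × ℕ) (g := fun _ _ => false) (Computable.const false) hp
    exact h0
  have h5 : Computable fun r : ℕ × ℕ =>
      decide (pref (colVal col (strOf r.2.unpair.1)) r.2.unpair.2 =
        pref (fun _ => false) r.2.unpair.2) := by
    have h0 : Computable fun p : List Bool × List Bool => decide (p.1 = p.2) :=
      (PrimrecPred.decide (Primrec.eq.comp Primrec.fst Primrec.snd)).to_comp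
    have := h0.comp (h3.pair h4)
    exact this
  have h6 := computable_and.comp ((computable_and.comp (h1.pair h2)).pair h5)
  exact h6

/-- The computable choice of successive elements with increasing first nonzero positions. -/
theorem exists_next {G : (ℕ → Bool) → ℕ → Bool}
    (hadd : ∀ X Y, G (xorS X Y) = xorS (G X) (G Y)) (hinj : Function.Injective G)
    (hcol : Computable fun p : ℕ × ℕ => G (unitS p.1) p.2) :
    ∃ nx : ℕ → List Bool × ℕ, Computable nx ∧ ∀ q, q ≤ (nx q).2 ∧
      (∀ i < (nx q).2, G (fill (nx q).1) i = false) ∧ G (fill (nx q).1) (nx q).2 = true := by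
  set col : ℕ × ℕ → Bool := fun p => G (unitS p.1) p.2 with hcoldef
  have hfillEq : ∀ σ n, G (fill σ) n = colVal col σ n := fun σ n => map_fill hadd σ n
  obtain ⟨W, hW, hW2⟩ := exists_total_search (computable_nextCheck hcol) (by
    intro q
    obtain ⟨σ, p, hq, h1, h2⟩ := exists_late hadd hinj q
    refine ⟨Nat.pair (Encodable.encode σ) p, ?_⟩
    simp only [nextCheck, Nat.unpair_pair, strOf_encode, Bool.and_eq_true, decide_eq_true_eq]
    refine ⟨⟨hq, ?_⟩, ?_⟩
    · rw [← hfillEq]; exact h2
    · refine pref_eq_iff.2 fun i hi => ?_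
      rw [← hfillEq]
      exact h1 i hi)
  refine ⟨fun q => (strOf (W q).unpair.1, (W q).unpair.2), ?_, fun q => ?_⟩
  · exact (computable_strOf.comp (Computable.fst.comp (Computable.unpair.comp hW))).pair
      (Computable.snd.comp (Computable.unpair.comp hW))
  · have := hW2 q
    simp only [nextCheck, Bool.and_eq_true, decide_eq_true_eq] at this
    obtain ⟨⟨h1, h2⟩, h3⟩ := this
    refine ⟨h1, fun i hi => ?_, ?_⟩
    · rw [hfillEq]
      exact pref_eq_iff.1 h3 i hi
    · rw [hfillEq]
      exact h2

end Vale.Agent.Lib.P327
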