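import Vale.Agent.Lib.P327.SubBlock

namespace Vale.Agent.Lib.P327

open Nat Part

/-- The sequence of chosen strings and first nonzero positions. -/
def seqP (nx : ℕ → List Bool × ℕ) : ℕ → List Bool × ℕ
  | 0 => nx 0
  | i + 1 => nx ((seqP nx i).2 + 1)

theorem computable_seqP {nx : ℕ → List Bool × ℕ} (hnx : Computable nx) :
    Computable (seqP nx) := by
  have hstep : Computable₂ (fun (_ : ℕ) (p : ℕ × (List Bool × ℕ)) => nx (p.2.2 + 1)) := by
    have h1 : Computable fun q : ℕ × ℕ × (List Bool × ℕ) => q.2.2.2 + 1 :=
      Computable.succ.comp (Computable.snd.comp (Computable.snd.comp Computable.snd))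
    exact hnx.comp h1
  refine (Computable.nat_rec Computable.id (Computable.const (nx 0)) hstep).of_eq fun m => ?_
  simp only [id]
  induction m with
  | zero => rfl
  | succ m ih =>
      simp only [seqP]
      rw [← ih]

section xorSum

theorem xorSum_xor (u : ℕ) (f g : ℕ → Bool) :
    xorSum u (fun i => xor (f i) (g i)) = xor (xorSum u f) (xorSum u g) := by
  induction u with
  | zero => rfl
  | succ u ih =>
      simp only [xorSum, ih]
      cases xorSum u f <;> cases xorSum u g <;> cases f u <;> cases g u <;> rfl

theorem xorSum_congr {u : ℕ} {f g : ℕ → Bool} (h : ∀ i < u, f i = g i) :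
    xorSum u f = xorSum u g := by
  induction u with
  | zero => rfl
  | succ u ih =>
      simp only [xorSum]
      rw [ih (fun i hi => h i (by omega)), h u (by omega)]

theorem xorSum_false {u : ℕ} {f : ℕ → Bool} (h : ∀ i < u, f i = false) : xorSum u f = false := by
  induction u with
  | zero => rfl
  | succ u ih =>
      simp only [xorSum]
      rw [ih (fun i hi => h i (by omega)), h u (by omega)]
      rfl

theorem xorSum_single {u m : ℕ} {f : ℕ → Bool} (hm : m < u) (h : ∀ i < u, i ≠ m → f i = false) :
    xorSum u f = f m := by
  induction u with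
  | zero => exact absurd hm (Nat.not_lt_zero _)
  | succ u ih =>
      simp only [xorSum]
      by_cases hmu : m = u
      · subst hmu
        rw [xorSum_false (fun i hi => h i (by omega) (by omega))]
        simp
      · rw [ih (by omega) (fun i hi => h i (by omega)), h u (by omega) (fun hu => hmu hu.symm)]
        simp

theorem xorSum_extend {u v : ℕ} {f : ℕ → Bool} (huv : u ≤ v) (h : ∀ i, u ≤ i → i < v → f i = false) :
    xorSum v f = xorSum u f := by
  induction v, huv using Nat.le_induction with
  | base => rfl
  | succ v hv ih =>
      simp only [xorSum]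
      rw [ih (fun i h1 h2 => h i h1 (by omega)), h v hv (by omega)]
      simp

end xorSum

/-- The block map determined by a table of columns. -/
def blockMap (Zt : ℕ → ℕ → Bool) (X : ℕ → Bool) : ℕ → Bool :=
  fun n => xorSum (n + 1) (fun i => X i && Zt i n)

theorem blockMap_add (Zt : ℕ → ℕ → Bool) (X Y : ℕ → Bool) :
    blockMap Zt (xorS X Y) = xorS (blockMap Zt X) (blockMap Zt Y) := by
  funext n
  simp only [blockMap, xorS]
  rw [← xorSum_xor]
  refine xorSum_congr fun i _ => ?_
  cases X i <;> cases Y i <;> cases Zt i n <;> rfl

theorem continuous_xorSum (u : ℕ) (c : ℕ → Bool) :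
    Continuous fun X : ℕ → Bool => xorSum u (fun i => X i && c i) := by
  induction u with
  | zero => exact continuous_const
  | succ u ih =>
      simp only [xorSum]
      have h1 : Continuous fun p : Bool × Bool => xor p.1 p.2 := continuous_of_discreteTopology
      have h2 : Continuous fun b : Bool => b && c u := continuous_of_discreteTopology
      exact h1.comp (ih.prodMk (h2.comp (continuous_apply u)))

theorem continuous_blockMap (Zt : ℕ → ℕ → Bool) : Continuous (blockMap Zt) :=
  continuous_pi fun n => continuous_xorSum (n + 1) (fun i => Zt i n)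

section block

variable {F : (ℕ → Bool) → ℕ → Bool} {σs : ℕ → List Bool} {ps : ℕ → ℕ}

/-- The columns of the block map. -/
def blockCol (F : (ℕ → Bool) → ℕ → Bool) (σs : ℕ → List Bool) : ℕ → ℕ → Bool :=
  fun i n => F (fill (σs i)) n

theorem exists_blockSeq
    (hadd : ∀ X Y, F (xorS X Y) = xorS (F X) (F Y)) (hinj : Function.Injective F)
    (hcol : Computable fun p : ℕ × ℕ => F (unitS p.1) p.2) :
    ∃ (σs : ℕ → List Bool) (ps : ℕ → ℕ), Computable σs ∧ Computable ps ∧ StrictMono ps ∧
      (∀ i k, k < ps i → F (fill (σs i)) k = false) ∧ ∀ i, F (fill (σs i)) (ps i) = true := by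
  obtain ⟨nx, hnx, hnx2⟩ := exists_next hadd hinj hcol
  have hP := computable_seqP hnx
  have hstep : ∀ i, (seqP nx i).2 < (seqP nx (i + 1)).2 := fun i => by
    have := (hnx2 ((seqP nx i).2 + 1)).1
    show (seqP nx i).2 < (nx ((seqP nx i).2 + 1)).2
    exact this
  refine ⟨fun i => (seqP nx i).1, fun i => (seqP nx i).2, Computable.fst.comp hP,
    Computable.snd.comp hP, strictMono_nat_of_lt_succ hstep, ?_, ?_⟩
  · intro i k hk
    cases i with
    | zero => exact (hnx2 0).2.1 k hk
    | succ i => exact (hnx2 _).2.1 k hk
  · intro i
    cases i with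
    | zero => exact (hnx2 0).2.2
    | succ i => exact (hnx2 _).2.2

theorem le_of_strictMono (hmono : StrictMono ps) (i : ℕ) : i ≤ ps i := hmono.le_apply

theorem blockCol_zero (hmono : StrictMono ps)
    (hfirst : ∀ i k, k < ps i → F (fill (σs i)) k = false) (i n : ℕ) (hn : n < i) :
    blockCol F σs i n = false :=
  hfirst i n (lt_of_lt_of_le hn (le_of_strictMono hmono i))

theorem blockMap_unit (hmono : StrictMono ps)
    (hfirst : ∀ i k, k < ps i → F (fill (σs i)) k = false) (i : ℕ) :
    blockMap (blockCol F σs) (unitS i) = blockCol F σs i := by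
  funext n
  simp only [blockMap]
  by_cases hi : i < n + 1
  · rw [xorSum_single (m := i) hi]
    · simp [unitS]
    · intro j _ hj
      simp [unitS, hj]
  · rw [xorSum_false]
    · exact (blockCol_zero hmono hfirst i n (by omega)).symm
    · intro j hj
      have : j ≠ i := by omega
      simp [unitS, this]

theorem blockMap_image (hadd : ∀ X Y, F (xorS X Y) = xorS (F X) (F Y)) (hcont : Continuous F)
    (hmono : StrictMono ps) (hfirst : ∀ i k, k < ps i → F (fill (σs i)) k = false)
    (X : ℕ → Bool) : ∃ W, F W = blockMap (blockCol F σs) X := by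
  have hclosed : IsClosed (Set.range F) := (isCompact_range hcont).isClosed
  have hpart : ∀ v, ∃ W, ∀ n, F W n = xorSum v (fun i => X i && blockCol F σs i n) := by
    intro v
    induction v with
    | zero => exact ⟨fun _ => false, fun n => by rw [map_zero' hadd]; rfl⟩
    | succ v ih =>
        obtain ⟨W, hW⟩ := ih
        cases hXv : X v with
        | false =>
            refine ⟨W, fun n => ?_⟩
            simp only [xorSum, hXv, hW]
            simp
        | true =>
            refine ⟨xorS W (fill (σs v)), fun n => ?_⟩
            rw [hadd]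
            simp only [xorS, hW, xorSum, hXv]
            simp [blockCol]
  have hmem : blockMap (blockCol F σs) X ∈ closure (Set.range F) := by
    refine mem_closure_iff.2 fun U hU hXU => ?_
    obtain ⟨s, hs⟩ := exists_cyl_subset hU hXU
    obtain ⟨W, hW⟩ := hpart s
    refine ⟨F W, hs ?_, W, rfl⟩
    intro i hi
    rw [pref_length] at hi
    rw [pref_getElem, hW]
    simp only [blockMap]
    refine xorSum_extend (by omega) fun j hj _ => ?_
    rw [blockCol_zero hmono hfirst j i (by omega)]
    simp
  rw [hclosed.closure_eq] at hmem
  exact hmem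

theorem blockMap_mod (hmono : StrictMono ps) (hfirst : ∀ i k, k < ps i → F (fill (σs i)) k = false)
    (hat : ∀ i, F (fill (σs i)) (ps i) = true) (Z : ℕ → Bool) (n : ℕ)
    (hZ : ∀ i < ps n + 1, blockMap (blockCol F σs) Z i = false) : Z n = false := by
  have key : ∀ m, m ≤ n → Z m = false := by
    intro m
    induction m using Nat.strong_induction_on with
    | _ m ih =>
        intro hm
        have hpsm : ps m ≤ ps n := hmono.monotone hm
        have h1 := hZ (ps m) (by omega)
        simp only [blockMap] at h1
        rw [xorSum_single (m := m) (by have := le_of_strictMono hmono m; omega)] at h1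
        · have h2 : blockCol F σs m (ps m) = true := hat m
          rw [h2] at h1
          simpa using h1
        · intro j hj hjm
          rcases Nat.lt_or_gt_of_ne hjm with h | h
          · rw [ih j h (by omega)]
            rfl
          · rw [show blockCol F σs j (ps m) = false from hfirst j _ (hmono h)]
            simp
  exact key n le_rfl

theorem blockMap_inj (hmono : StrictMono ps) (hfirst : ∀ i k, k < ps i → F (fill (σs i)) k = false)
    (hat : ∀ i, F (fill (σs i)) (ps i) = true) :
    Function.Injective (blockMap (blockCol F σs)) := by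
  intro X Y hXY
  have h0 : blockMap (blockCol F σs) (xorS X Y) = fun _ => false := by
    rw [blockMap_add, hXY]
    funext n
    simp [xorS]
  funext n
  have := blockMap_mod hmono hfirst hat (xorS X Y) n (fun i _ => congrFun h0 i)
  simp only [xorS] at this
  have key : ∀ a b : Bool, xor a b = false → a = b := by decide
  exact key _ _ this

theorem blockCol_computable (hadd : ∀ X Y, F (xorS X Y) = xorS (F X) (F Y))
    (hcol : Computable fun p : ℕ × ℕ => F (unitS p.1) p.2) (hσs : Computable σs) :
    Computable fun p : ℕ × ℕ => blockCol F σs p.1 p.2 := by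
  have h1 := (computable_colVal hcol).comp
    ((hσs.comp Computable.fst).pair Computable.snd : Computable fun p : ℕ × ℕ => (σs p.1, p.2))
  exact h1.of_eq fun p => (map_fill hadd _ _).symm

theorem blockMap_reducible (hZt : Computable fun p : ℕ × ℕ => blockCol F σs p.1 p.2) (X : ℕ → Bool) :
    Nat.RecursiveIn {chi X} (chi (blockMap (blockCol F σs) X)) := by
  have hB : Computable fun p : ℕ × ℕ => blockCol F σs p.2 p.1 :=
    hZt.comp (Computable.snd.pair Computable.fst)
  have hrow : Computable fun n => rowOf (fun j => blockCol F σs j n) (n + 1) :=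
    computable_row (u := fun n => n + 1) (B := fun p : ℕ × ℕ => blockCol F σs p.2 p.1)
      Computable.succ hB
  refine reducible_of_rows hrow fun n => ?_
  rw [xorList_rowOf]
  rfl

theorem blockMap_inverse (hZt : Computable fun p : ℕ × ℕ => blockCol F σs p.1 p.2)
    (hps : Computable ps) (hmono : StrictMono ps)
    (hfirst : ∀ i k, k < ps i → F (fill (σs i)) k = false)
    (hat : ∀ i, F (fill (σs i)) (ps i) = true) (X : ℕ → Bool) :
    Nat.RecursiveIn {chi (blockMap (blockCol F σs) X)} (chi X) := by
  have hcolt : Computable fun p : ℕ × ℕ => blockMap (blockCol F σs) (unitS p.1) p.2 :=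
    hZt.of_eq fun p => by rw [blockMap_unit hmono hfirst]
  exact reducible_of_modulus (blockMap_add _) (continuous_blockMap _) hcolt
    (M := fun n => ps n + 1) (Computable.succ.comp hps)
    (fun Z n hZ => blockMap_mod hmono hfirst hat Z n hZ) X

end block

section main

variable {F : (ℕ → Bool) → ℕ → Bool}

/-- **The image direction.** A continuous additive injection with computable columns which
preserves Turing reducibility in both directions satisfies `F X ≤T X`. -/
theorem image_reducible_of_columns
    (hadd : ∀ X Y, F (xorS X Y) = xorS (F X) (F Y)) (hcont : Continuous F)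
    (hinj : Function.Injective F)
    (hcol : Computable fun p : ℕ × ℕ => F (unitS p.1) p.2)
    (hiff : ∀ X Y, Nat.RecursiveIn {chi Y} (chi X) ↔ Nat.RecursiveIn {chi (F Y)} (chi (F X)))
    (X : ℕ → Bool) : Nat.RecursiveIn {chi X} (chi (F X)) := by
  obtain ⟨σs, ps, hσs, hps, hmono, hfirst, hat⟩ := exists_blockSeq hadd hinj hcol
  have hZt := blockCol_computable hadd hcol hσs
  have htadd := blockMap_add (blockCol F σs)
  have htc := continuous_blockMap (blockCol F σs)
  have htinj := blockMap_inj hmono hfirst hat
  have himg := blockMap_image hadd hcont hmono hfirst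
  have ht1 := blockMap_reducible hZt
  have ht2 := blockMap_inverse hZt hps hmono hfirst hat
  choose E hE using himg
  have hEadd : ∀ X Y, E (xorS X Y) = xorS (E X) (E Y) := by
    intro X Y
    apply hinj
    rw [hE, hadd, hE, hE, htadd]
  have hEc : Continuous E := by
    have hemb := (hcont.isClosedEmbedding hinj).isEmbedding
    rw [hemb.isInducing.continuous_iff]
    have : F ∘ E = blockMap (blockCol F σs) := funext hE
    rw [this]
    exact htc
  have hEunit : ∀ i, E (unitS i) = fill (σs i) := by
    intro i
    apply hinj
    rw [hE, blockMap_unit hmono hfirst]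
    rfl
  have hEinj : Function.Injective E := by
    intro X Y hXY
    apply htinj
    rw [← hE, ← hE, hXY]
  have hEcol : Computable fun p : ℕ × ℕ => E (unitS p.1) p.2 := by
    have h1 : Computable fun p : ℕ × ℕ => (σs p.1).getD p.2 false :=
      ((Primrec.list_getD false).to_comp).comp (hσs.comp Computable.fst) Computable.snd
    refine h1.of_eq fun p => ?_
    rw [hEunit]
    rfl
  have hEsh : ∀ X, Nat.RecursiveIn {chi (E X)} (chi (E (shiftS X))) := by
    intro X
    refine (hiff _ _).2 ?_
    rw [hE, hE]
    exact recIn_trans (ht1 _) (recIn_trans (shift_reducible X) (ht2 X))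
  have h1 := reducible_of_columns hEadd hEc hEinj hEcol hEsh X
  have h2 := (hiff _ _).1 h1
  rw [hE] at h2
  exact recIn_trans h2 (ht1 X)

end main

end Vale.Agent.Lib.P327
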