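import Vale.Agent.Lib.P327.Iterate

namespace Vale.Agent.Lib.P327

open Nat Part

/-- The right shift of a sequence. -/
def rshiftS (X : ℕ → Bool) : ℕ → Bool
  | 0 => false
  | n + 1 => X n

theorem rshift_reducible (X : ℕ → Bool) : Nat.RecursiveIn {chi X} (chi (rshiftS X)) := by
  have hr : Computable fun n : ℕ => cond (decide (n = 0)) ([] : List ℕ) [n - 1] := by
    have h0 : Computable fun n : ℕ => decide (n = 0) :=
      (PrimrecPred.decide (Primrec.eq.comp Primrec.id (Primrec.const 0))).to_comp
    have h1 : Computable fun n : ℕ => [n - 1] :=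
      Computable.list_cons.comp
        ((Primrec.nat_sub.comp Primrec.id (Primrec.const 1)).to_comp) (Computable.const [])
    exact Computable.cond h0 (Computable.const []) h1
  refine reducible_of_rows hr fun n => ?_
  cases n with
  | zero => rfl
  | succ n => simp [rshiftS, xorList_cons, xorList_nil]

theorem rshift_add (X Y : ℕ → Bool) : rshiftS (xorS X Y) = xorS (rshiftS X) (rshiftS Y) := by
  funext n
  cases n <;> rfl

theorem rshift_unit (j : ℕ) : rshiftS (unitS j) = unitS (j + 1) := by
  funext n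
  cases n with
  | zero => simp [rshiftS, unitS]
  | succ n => simp [rshiftS, unitS]

theorem continuous_rshift : Continuous rshiftS := by
  refine continuous_pi fun n => ?_
  cases n with
  | zero => exact continuous_const
  | succ n => exact continuous_apply n

theorem isClosed_cyl (ρ : List Bool) : IsClosed (Cyl ρ) := by
  have h : Cyl ρ = ⋂ i : Fin ρ.length, (fun Y : ℕ → Bool => Y i) ⁻¹' {ρ[i]} := by
    ext Y
    simp [Cyl, Fin.forall_iff]
  rw [h]
  refine isClosed_iInter fun i => ?_
  exact (isClosed_discrete _).preimage (continuous_apply (i : ℕ))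

instance : Inhabited OCode := ⟨OCode.zero⟩

/-- If `D` is reducible to all sufficiently generic elements of a cylinder then it is computable. -/
theorem computable_of_generic {ι : Type} [Countable ι] {D : ℕ → Bool} {β₀ : List Bool}
    {W : ι → Set (ℕ → Bool)} (hopen : ∀ i, IsOpen (W i)) (hdense : ∀ i, Cyl β₀ ⊆ closure (W i))
    (hred : ∀ X ∈ Cyl β₀, (∀ i, X ∈ W i) → Nat.RecursiveIn {chi X} (chi D)) : Computable D := by
  have hopen' : ∀ i, IsOpen (W i ∪ (Cyl β₀)ᶜ) := fun i =>
    (hopen i).union (isClosed_cyl β₀).isOpen_compl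
  have hdense' : ∀ i, Dense (W i ∪ (Cyl β₀)ᶜ) := by
    intro i x
    by_cases hx : x ∈ Cyl β₀
    · exact closure_mono Set.subset_union_left (hdense i hx)
    · exact subset_closure (Or.inr hx)
  have hG : IsGδ (⋂ i, (W i ∪ (Cyl β₀)ᶜ)) := IsGδ.iInter_of_isOpen hopen'
  have hdG : Dense (⋂ i, (W i ∪ (Cyl β₀)ᶜ)) := dense_iInter_of_isOpen hopen' hdense'
  let A : OCode → Set (ℕ → Bool) := fun c =>
    {X | X ∈ Cyl β₀ ∧ (∀ i, X ∈ W i) ∧ evalO (chi X) c = chi D}
  let f : OCode → Set (ℕ → Bool) := fun c => closure (A c) ∪ (Cyl β₀)ᶜ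
  have hfc : ∀ c, IsClosed (f c) := fun c =>
    isClosed_closure.union (isOpen_cyl β₀).isClosed_compl
  have hU : (⋂ i, (W i ∪ (Cyl β₀)ᶜ)) ⊆ ⋃ c, f c := by
    intro X hX
    by_cases hXc : X ∈ Cyl β₀
    · have hXW : ∀ i, X ∈ W i := fun i => by
        rcases Set.mem_iInter.1 hX i with h | h
        · exact h
        · exact absurd hXc h
      obtain ⟨c, hc⟩ := exists_code_of_recursiveIn (hred X hXc hXW)
      exact Set.mem_iUnion.2 ⟨c, Or.inl (subset_closure ⟨hXc, hXW, hc⟩)⟩
    · exact Set.mem_iUnion.2 ⟨default, Or.inr hXc⟩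
  have hd := hG.dense_iUnion_interior_of_closed hdG hfc hU
  obtain ⟨X₀, hX₀c, hX₀⟩ := hd.inter_open_nonempty _ (isOpen_cyl β₀) ⟨_, fill_mem_cyl β₀⟩
  obtain ⟨c, hc⟩ := Set.mem_iUnion.1 hX₀
  obtain ⟨v, hv⟩ := exists_cyl_subset (isOpen_interior.inter (isOpen_cyl β₀))
    (show X₀ ∈ interior (f c) ∩ Cyl β₀ from ⟨hc, hX₀c⟩)
  set ρ₁ := pref X₀ v with hρ₁
  have hsub : Cyl ρ₁ ⊆ closure (AL (fun _ => D) c) := by
    intro Z hZ
    obtain ⟨hZ1, hZ2⟩ := hv hZ
    rcases interior_subset hZ1 with h | h
    · refine closure_mono ?_ h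
      intro Z' hZ'
      exact hZ'.2.2
    · exact absurd hZ2 h
  obtain ⟨Sr, hSr, hSr2⟩ := exists_search c ρ₁ (fun ρ hρ k => exists_ext_value hsub hρ k)
  have hval : ∀ k, (D k).toNat = (Sr ([], k)).2 := by
    intro k
    have hpre : ρ₁ <+: ρ₁ ++ [] ++ (Sr ([], k)).1 :=
      (List.prefix_append _ _).trans (List.prefix_append _ _)
    exact value_on_cyl (L := fun _ => D) (fun _ => continuous_const) hsub hpre (hSr2 [] k) _
      (fill_mem_cyl _)
  have h1 : Computable fun k : ℕ => (Sr ([], k)).2 :=
    Computable.snd.comp (hSr.comp ((Computable.const []).pair Computable.id))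
  have h2 : Computable fun m : ℕ => decide (m = 1) :=
    (PrimrecPred.decide (Primrec.eq.comp Primrec.id (Primrec.const 1))).to_comp
  refine (h2.comp h1).of_eq fun k => ?_
  rw [← hval]
  cases D k <;> rfl

/-- The open set where the code computes the value of `F ∘ rshiftS` at `k`. -/
def convSet (F : (ℕ → Bool) → ℕ → Bool) (c : OCode) (k : ℕ) : Set (ℕ → Bool) :=
  {Z | (F (rshiftS Z) k).toNat ∈ evalO (chi (F Z)) c k}

theorem isOpen_convSet {F : (ℕ → Bool) → ℕ → Bool} (hcont : Continuous F) (c : OCode) (k : ℕ) :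
    IsOpen (convSet F c k) := by
  refine isOpen_iff_forall_mem_open.2 fun Z hZ => ?_
  obtain ⟨s, hs⟩ := use_principle _ c _ _ hZ
  refine ⟨F ⁻¹' Cyl (pref (F Z) s) ∩ {Z' | F (rshiftS Z') k = F (rshiftS Z) k}, ?_, ?_, ?_, rfl⟩
  · rintro Z' ⟨h1, h2⟩
    show (F (rshiftS Z') k).toNat ∈ evalO (chi (F Z')) c k
    rw [show F (rshiftS Z') k = F (rshiftS Z) k from h2]
    exact evalO_mono (ext_of_mem_cyl h1) c _ _ hs
  · refine ((isOpen_cyl _).preimage hcont).inter ?_
    exact (isOpen_discrete ({F (rshiftS Z) k} : Set Bool)).preimage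
      ((continuous_apply k).comp (hcont.comp continuous_rshift))
  · exact pref_mem_cyl _ _

/-- Translates used in the genericity argument. -/
def transV (u : ℕ) : ℕ → ℕ → Bool
  | 0 => fun _ => false
  | m + 1 => unitS (u + m)

theorem xorS_zero (X : ℕ → Bool) : xorS X (fun _ => false) = X := by
  funext n
  simp [xorS]

theorem xorS_self_right (X Y : ℕ → Bool) : xorS (xorS X Y) Y = X := by
  funext n
  simp [xorS]

theorem continuous_xorS_right (Y : ℕ → Bool) : Continuous fun X : ℕ → Bool => xorS X Y := by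
  refine continuous_pi fun n => ?_
  have h : Continuous fun b : Bool => xor b (Y n) := continuous_of_discreteTopology
  exact h.comp (continuous_apply n)

theorem transV_mem {β₀ : List Bool} {X : ℕ → Bool} (hX : X ∈ Cyl β₀) (m : ℕ) :
    xorS X (transV β₀.length m) ∈ Cyl β₀ := by
  intro i hi
  cases m with
  | zero => simpa [xorS, transV] using hX i hi
  | succ m =>
      have : i ≠ β₀.length + m := by omega
      simp only [xorS, transV, unitS, this, decide_false, Bool.xor_false]
      exact hX i hi

/-- **Uniformity.** The columns of a continuous additive map preserving Turing reducibility in both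
directions and onto all degrees are uniformly computable. -/
theorem columns_computable {F : (ℕ → Bool) → ℕ → Bool}
    (hadd : ∀ X Y, F (xorS X Y) = xorS (F X) (F Y)) (hcont : Continuous F)
    (hiff : ∀ X Y, Nat.RecursiveIn {chi Y} (chi X) ↔ Nat.RecursiveIn {chi (F Y)} (chi (F X)))
    (hsurj : ∀ D, ∃ X, Nat.RecursiveIn {chi D} (chi (F X)) ∧ Nat.RecursiveIn {chi (F X)} (chi D)) :
    Computable fun p : ℕ × ℕ => F (unitS p.1) p.2 := by
  have hzeroc : Computable (fun _ : ℕ => false) := Computable.const false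
  -- computable sets have computable images
  have hcomp : ∀ W, Computable W → Computable (F W) := by
    intro W hW
    have hb : Computable Bool.toNat := (Primrec.dom_finite Bool.toNat).to_comp
    have h1 : Nat.Partrec (chi W) := by
      have : Computable fun n => (W n).toNat := hb.comp hW
      exact Partrec.nat_iff.1 this.partrec
    have h2 : Nat.RecursiveIn {chi (fun _ => false)} (chi W) := Nat.Partrec.recursiveIn h1
    have h3 := (hiff _ _).1 h2
    rw [map_zero' hadd] at h3
    exact computable_of_reducible_unit hzeroc h3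
  -- Baire category for the right shift
  obtain ⟨c, β₀, hβ⟩ := baire_cover (fun c => {Z | evalO (chi (F Z)) c = chi (F (rshiftS Z))})
    (fun Z => exists_code_of_recursiveIn ((hiff _ _).1 (rshift_reducible Z)))
  set u := β₀.length with hu
  let g : ℕ → ℕ → Bool := fun i => F (unitS (u + i))
  let tab : ℕ → Bool := fun w => g w.unpair.1 w.unpair.2
  obtain ⟨D₀, hD₁, hD₂⟩ := hsurj tab
  let W : ℕ × ℕ → Set (ℕ → Bool) := fun p =>
    (fun Z => xorS Z (transV u p.2)) ⁻¹' convSet F c p.1
  have hWopen : ∀ p, IsOpen (W p) := fun p =>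
    (isOpen_convSet hcont c p.1).preimage (continuous_xorS_right _)
  have hWdense : ∀ p, Cyl β₀ ⊆ closure (W p) := by
    intro p X hX
    refine mem_closure_iff.2 fun U hU hXU => ?_
    let T : (ℕ → Bool) → ℕ → Bool := fun Z => xorS Z (transV u p.2)
    have hT : Continuous T := continuous_xorS_right _
    have hTT : ∀ Z, T (T Z) = Z := fun Z => xorS_self_right _ _
    have hU' : IsOpen (T ⁻¹' U ∩ Cyl β₀) := (hU.preimage hT).inter (isOpen_cyl _)
    have hmem : T X ∈ T ⁻¹' U ∩ Cyl β₀ := by
      refine ⟨?_, transV_mem hX p.2⟩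
      show T (T X) ∈ U
      rw [hTT]
      exact hXU
    obtain ⟨Z, ⟨hZ1, hZ2⟩, hZ3⟩ := mem_closure_iff.1 (hβ (transV_mem hX p.2)) _ hU' hmem
    refine ⟨T Z, hZ1, ?_⟩
    show T (T Z) ∈ convSet F c p.1
    rw [hTT]
    show (F (rshiftS Z) p.1).toNat ∈ evalO (chi (F Z)) c p.1
    rw [show evalO (chi (F Z)) c = chi (F (rshiftS Z)) from hZ3]
    exact mem_chi.2 rfl
  have hD₀c : Computable D₀ := by
    refine computable_of_generic hWopen hWdense fun X _ hXW => ?_
    refine (hiff _ _).2 ?_
    refine recIn_trans hD₁ ?_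
    have hrel : ∀ i k, ∃ a b, a ∈ evalO (chi (xorS (F X) (g i))) c k ∧
        b ∈ evalO (chi (F X)) c k ∧ g (i + 1) k = decide (a ≠ b) := by
      intro i k
      have h1 : xorS X (unitS (u + i)) ∈ convSet F c k := hXW (k, i + 1)
      have h2 : xorS X (fun _ => false) ∈ convSet F c k := hXW (k, 0)
      rw [xorS_zero] at h2
      refine ⟨(F (rshiftS (xorS X (unitS (u + i)))) k).toNat, (F (rshiftS X) k).toNat, ?_, h2, ?_⟩
      · have := h1
        simp only [convSet, Set.mem_setOf_eq, hadd] at this
        exact this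
      · have h3 : g (i + 1) = F (rshiftS (unitS (u + i))) := by
          rw [rshift_unit]
          rfl
        rw [h3, rshift_add, hadd]
        simp only [xorS]
        have key : ∀ x y : Bool, y = decide ((xor x y).toNat ≠ x.toNat) := by decide
        exact key _ _
    exact iterated_functional (hcomp _ (computable_unitS _)) c hrel
  -- the table is computable
  have htab : Computable tab := by
    have h1 := hcomp _ hD₀c
    exact computable_of_reducible_unit h1 hD₂
  -- the finitely many remaining columns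
  obtain ⟨T, hT, hT2⟩ := computable_table (fun j k => F (unitS j) k) u (fun j _ =>
    hcomp _ (computable_unitS j))
  have hcolmn : Computable fun p : ℕ × ℕ => cond (decide (p.1 < u)) (T (p.2, p.1))
      (tab (Nat.pair (p.1 - u) p.2)) := by
    have h1 : Computable fun p : ℕ × ℕ => decide (p.1 < u) :=
      (PrimrecPred.decide (Primrec.nat_lt.comp Primrec.fst (Primrec.const u))).to_comp
    have h2 : Computable fun p : ℕ × ℕ => T (p.2, p.1) :=
      hT.comp (Computable.snd.pair Computable.fst)
    have h3 : Computable fun p : ℕ × ℕ => Nat.pair (p.1 - u) p.2 :=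
      ((Primrec₂.natPair.comp (Primrec.nat_sub.comp Primrec.fst (Primrec.const u))
        Primrec.snd)).to_comp
    exact Computable.cond h1 h2 (htab.comp h3)
  refine hcolmn.of_eq fun p => ?_
  by_cases hp : p.1 < u
  · simp only [hp, decide_true, cond_true]
    exact hT2 _ _ hp
  · simp only [hp, decide_false, cond_false, tab, g, Nat.unpair_pair]
    congr 2
    omega

end Vale.Agent.Lib.P327
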